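import Vale.Agent.P359.Basic

/-! The pair operators in an algebra with canonical anticommutation relations. -/

namespace Vale.Agent.P359

open Finset

lemma kap_zero (M : ℕ) : kap M 0 = 1 := by
  have : (M.factorial : ℝ) ≠ 0 := by positivity
  simp only [kap, Nat.sub_zero, Nat.factorial_succ, Nat.factorial_zero]
  push_cast; field_simp; ring

lemma kap_last (M : ℕ) : kap M (M + 1) = -1 := by
  have : (M.factorial : ℝ) ≠ 0 := by positivity
  simp only [kap, Nat.sub_self, Nat.factorial_succ, Nat.factorial_zero]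
  push_cast; field_simp; ring

lemma kap_pascal (i j : ℕ) : kap (i + j + 1) (i + 1) = kap (i + j) (i + 1) + kap (i + j) i := by
  have h1 : i + j + 1 + 1 - (i + 1) = j + 1 := by omega
  have h2 : i + j + 1 - (i + 1) = j := by omega
  have h3 : i + j + 1 - i = j + 1 := by omega
  have : (i.factorial : ℝ) ≠ 0 := by positivity
  have : (j.factorial : ℝ) ≠ 0 := by positivity
  simp only [kap, h1, h2, h3, Nat.factorial_succ]
  push_cast; field_simp; ring

lemma pascal_sum {V : Type*} [AddCommGroup V] [Module ℝ V] (f : ℕ → ℕ → V) (M : ℕ) :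
    ∑ a ∈ range (M + 1 + 2), (kap (M + 1) a / 2) • f a (M + 1 + 1 - a) =
      ∑ a ∈ range (M + 2), (kap M a / 2) • (f a (M + 1 - a + 1) + f (a + 1) (M + 1 - a)) := by
  simp only [smul_add, sum_add_distrib]
  rw [sum_range_succ, sum_range_succ', sum_range_succ' _ (M + 1), sum_range_succ _ (M + 1),
    kap_zero, kap_zero, kap_last, kap_last]
  have e : ∑ a ∈ range (M + 1), (kap (M + 1) (a + 1) / 2) • f (a + 1) (M + 1 + 1 - (a + 1)) =
      ∑ a ∈ range (M + 1), (kap M (a + 1) / 2) • f (a + 1) (M + 1 - (a + 1) + 1) +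
        ∑ a ∈ range (M + 1), (kap M a / 2) • f (a + 1) (M + 1 - a) := by
    rw [← sum_add_distrib]
    refine sum_congr rfl fun a ha => ?_
    obtain ⟨j, rfl⟩ : ∃ j, M = a + j := ⟨M - a, by have := mem_range.mp ha; omega⟩
    rw [kap_pascal, add_div, add_smul, show a + j + 1 + 1 - (a + 1) = j + 1 by omega,
      show a + j + 1 - (a + 1) + 1 = j + 1 by omega, show a + j + 1 - a = j + 1 by omega]
  rw [e]
  simp only [Nat.sub_zero, Nat.sub_self]
  abel

lemma gam_succ (ε : ℝ) (j : ℕ) : gam ε (j + 1) = ((j : ℝ) + 1) * (1 - j * ε) * gam ε j := by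
  simp only [gam, prod_range_succ, Nat.factorial_succ]; push_cast; ring

lemma nrm_succ (ε : ℝ) (M : ℕ) :
    nrm ε (M + 1) = ((M : ℝ) + 1) * (2 - (M + 2) * ε) * nrm ε M := by
  simp only [nrm, prod_range_succ, Nat.factorial_succ]; push_cast; ring

lemma gam_zero' (ε : ℝ) : gam ε 0 = 1 := by simp [gam]
lemma gam_one (ε : ℝ) : gam ε 1 = 1 := by simp [gam]
lemma nrm_zero' (ε : ℝ) : nrm ε 0 = 1 := by simp [nrm]

lemma nrm_pos {Q : ℕ} (hQ : 1 ≤ Q) {M : ℕ} (hM : M < 2 * Q - 1) : 0 < nrm (1 / (Q : ℝ)) M := by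
  have hQ' : (0 : ℝ) < Q := by exact_mod_cast hQ
  refine mul_pos (by positivity) (prod_pos fun k hk => ?_)
  have h1 : k + 2 < 2 * Q := by have := mem_range.mp hk; omega
  have h2 : ((k : ℝ) + 2) < 2 * Q := by exact_mod_cast h1
  rw [mul_one_div, sub_pos, div_lt_iff₀ hQ']; exact h2

lemma gam_bounds {Q : ℕ} (hQ : 1 ≤ Q) (j : ℕ) :
    0 ≤ gam (1 / (Q : ℝ)) j ∧ gam (1 / (Q : ℝ)) j ≤ j.factorial := by
  have hQ' : (0 : ℝ) < Q := by exact_mod_cast hQ
  by_cases hj : j ≤ Q
  · have h1 : ∀ k ∈ range j, 0 ≤ 1 - (k : ℝ) * (1 / (Q : ℝ)) := by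
      intro k hk
      have h1 : k ≤ Q := by have := mem_range.mp hk; omega
      have h2 : (k : ℝ) ≤ Q := by exact_mod_cast h1
      rw [mul_one_div, sub_nonneg, div_le_one hQ']; exact h2
    have h2 : ∀ k ∈ range j, 1 - (k : ℝ) * (1 / (Q : ℝ)) ≤ 1 := by
      intro k _
      have : 0 ≤ (k : ℝ) * (1 / (Q : ℝ)) := by positivity
      linarith
    refine ⟨mul_nonneg (by positivity) (prod_nonneg h1), ?_⟩
    exact mul_le_of_le_one_right (by positivity) (prod_le_one h1 h2)
  · have : gam (1 / (Q : ℝ)) j = 0 := by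
      rw [gam, prod_eq_zero (mem_range.mpr (not_le.mp hj)) (by field_simp; ring), mul_zero]
    rw [this]; exact ⟨le_rfl, by positivity⟩

lemma nrm_bounds {Q : ℕ} (hQ : 1 ≤ Q) (M : ℕ) :
    0 ≤ nrm (1 / (Q : ℝ)) M ∧ nrm (1 / (Q : ℝ)) M ≤ M.factorial * 2 ^ M := by
  have hQ' : (0 : ℝ) < Q := by exact_mod_cast hQ
  by_cases hj : M < 2 * Q - 1
  · refine ⟨(nrm_pos hQ hj).le, mul_le_mul_of_nonneg_left ?_ (by positivity)⟩
    have h1 : ∀ k ∈ range M, 0 ≤ 2 - ((k : ℝ) + 2) * (1 / (Q : ℝ)) := by
      intro k hk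
      have h1 : k + 2 ≤ 2 * Q := by have := mem_range.mp hk; omega
      have h2 : (k : ℝ) + 2 ≤ 2 * Q := by exact_mod_cast h1
      rw [mul_one_div, sub_nonneg, div_le_iff₀ hQ']; exact h2
    calc ∏ k ∈ range M, (2 - ((k : ℝ) + 2) * (1 / (Q : ℝ))) ≤ ∏ _k ∈ range M, (2 : ℝ) := by
          refine prod_le_prod h1 fun k _ => ?_
          have : 0 ≤ ((k : ℝ) + 2) * (1 / (Q : ℝ)) := by positivity
          linarith
      _ = 2 ^ M := by simp
  · have : nrm (1 / (Q : ℝ)) M = 0 := by
      have hk : 2 * Q - 2 ∈ range M := mem_range.mpr (by omega)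
      have e : ((2 * Q - 2 : ℕ) : ℝ) = 2 * Q - 2 := by
        rw [Nat.cast_sub (by omega)]; push_cast; ring
      rw [nrm, prod_eq_zero hk (by rw [e]; field_simp; ring), mul_zero]
    rw [this]; exact ⟨le_rfl, by positivity⟩

variable {A : Type*} [Ring A] [Algebra ℝ A] [StarRing A] [StarModule ℝ A]
variable {Q : ℕ} {c : ℕ → A} {D : A}

theorem ham_star (Q : ℕ) (c : ℕ → A) : star (ham Q c) = ham Q c := by
  simp [ham, star_sum, star_smul, star_mul]

omit [StarModule ℝ A] in
lemma CAR.sq (h : CAR Q c D) (i : ℕ) : c i * c i = 0 := by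
  have h1 := h.cc i i
  have h2 : (2 : ℝ) • (c i * c i) = 0 := by
    rw [two_smul]; nth_rewrite 1 [h1]; simp
  have h3 := congrArg (fun x => (1 / 2 : ℝ) • x) h2
  simpa [smul_smul] using h3

omit [StarModule ℝ A] in
lemma CAR.cc' (h : CAR Q c D) (i j : ℕ) (x : A) : c i * (c j * x) = -(c j * (c i * x)) := by
  rw [← mul_assoc, h.cc i j, neg_mul, mul_assoc]

omit [StarModule ℝ A] in
lemma CAR.sq' (h : CAR Q c D) (i : ℕ) (x : A) : c i * (c i * x) = 0 := by
  rw [← mul_assoc, h.sq, zero_mul]

omit [StarModule ℝ A] in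
lemma CAR.B_zero (h : CAR Q c D) : pairB c 0 = c 1 * c 0 := by
  have e : kap 0 1 = -1 := kap_last 0
  simp only [pairB, zero_add, sum_range_succ, range_zero, sum_empty, kap_zero, e, Nat.sub_zero,
    Nat.sub_self]
  rw [h.cc 0 1]
  module

omit [StarModule ℝ A] in
lemma CAR.B_D (h : CAR Q c D) (M : ℕ) :
    pairB c M * D - D * pairB c M = pairB c (M + 1) := by
  have := pascal_sum (fun a b => c b * c a) M
  rw [pairB, pairB, this, sum_mul, mul_sum, ← sum_sub_distrib]
  refine sum_congr rfl fun a _ => ?_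
  rw [smul_mul_assoc, mul_smul_comm, ← smul_sub, ← h.comD, ← h.comD]
  congr 1
  noncomm_ring

omit [StarModule ℝ A] in
lemma CAR.c_B (h : CAR Q c D) (j M : ℕ) : c j * pairB c M = pairB c M * c j := by
  rw [pairB, sum_mul, mul_sum]
  refine sum_congr rfl fun a _ => ?_
  rw [smul_mul_assoc, mul_smul_comm, h.cc' j, h.cc j a, mul_assoc]
  simp

omit [StarModule ℝ A] in
lemma CAR.B_B (h : CAR Q c D) (M M' : ℕ) :
    pairB c M * pairB c M' = pairB c M' * pairB c M := by
  generalize hx : pairB c M' = x
  rw [pairB, sum_mul, mul_sum]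
  subst hx
  refine sum_congr rfl fun a _ => ?_
  rw [smul_mul_assoc, mul_smul_comm, mul_assoc, h.c_B, ← mul_assoc, h.c_B, mul_assoc]

omit [StarModule ℝ A] in
lemma CAR.B_top (h : CAR Q c D) (hQ : 1 ≤ Q) : pairB c (2 * Q - 1) = 0 := by
  refine sum_eq_zero fun a _ => ?_
  rcases lt_trichotomy a Q with ha | ha | ha
  · rw [h.zero _ (by omega), zero_mul, smul_zero]
  · rw [show 2 * Q - 1 + 1 - a = a by omega, h.sq, smul_zero]
  · rw [h.zero a ha, mul_zero, smul_zero]

omit [StarModule ℝ A] in
lemma CAR.c_low (h : CAR Q c D) (j : ℕ) : c j * star D - star D * c j =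
    ((j : ℝ) * (1 - ((j : ℝ) - 1) * (1 / (Q : ℝ)))) • c (j - 1) := by
  cases j with
  | zero => simp [h.comR0]
  | succ j => rw [h.comR]; push_cast; simp

omit [StarModule ℝ A] in
lemma CAR.c_E (h : CAR Q c D) (j : ℕ) :
    c j * (D * star D - star D * D) - (D * star D - star D * D) * c j =
      (1 - 2 * (j : ℝ) * (1 / (Q : ℝ))) • c j := by
  have e : c j * (D * star D - star D * D) - (D * star D - star D * D) * c j =
      ((c j * D - D * c j) * star D - star D * (c j * D - D * c j)) -
        ((c j * star D - star D * c j) * D - D * (c j * star D - star D * c j)) := by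
    noncomm_ring
  rw [e, h.comD, h.comR]
  cases j with
  | zero => simp [h.comR0]
  | succ j =>
    rw [h.comR, smul_mul_assoc, mul_smul_comm, ← smul_sub, h.comD, ← sub_smul]
    congr 1; push_cast; ring

omit [StarModule ℝ A] in
lemma CAR.B_E (h : CAR Q c D) (M : ℕ) :
    pairB c M * (D * star D - star D * D) - (D * star D - star D * D) * pairB c M =
      (2 - 2 * ((M : ℝ) + 1) * (1 / (Q : ℝ))) • pairB c M := by
  set E := D * star D - star D * D with hE
  rw [pairB, sum_mul, mul_sum, ← sum_sub_distrib, smul_sum]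
  refine sum_congr rfl fun a ha => ?_
  have ha' : a ≤ M + 1 := by have := mem_range.mp ha; omega
  have e : c (M + 1 - a) * c a * E - E * (c (M + 1 - a) * c a) =
      c (M + 1 - a) * (c a * E - E * c a) + (c (M + 1 - a) * E - E * c (M + 1 - a)) * c a := by
    noncomm_ring
  rw [smul_mul_assoc, mul_smul_comm, ← smul_sub, e, hE, h.c_E, h.c_E, smul_mul_assoc,
    mul_smul_comm, ← add_smul, smul_comm, Nat.cast_sub ha']
  congr 1; push_cast; ring

omit [StarModule ℝ A] in
lemma CAR.B_low (h : CAR Q c D) : ∀ M : ℕ, pairB c M * star D - star D * pairB c M =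
    ((M : ℝ) * (2 - 2 * (1 / (Q : ℝ)) - ((M : ℝ) - 1) * (1 / (Q : ℝ)))) • pairB c (M - 1)
  | 0 => by
      have e : c 1 * c 0 * star D - star D * (c 1 * c 0) =
          c 1 * (c 0 * star D - star D * c 0) + (c 1 * star D - star D * c 1) * c 0 := by
        noncomm_ring
      rw [h.B_zero, e, h.comR0, h.comR 0, smul_mul_assoc, h.sq]; simp
  | M + 1 => by
      have e : ∀ x : A, (x * D - D * x) * star D - star D * (x * D - D * x) =
          (x * (D * star D - star D * D) - (D * star D - star D * D) * x) +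
            ((x * star D - star D * x) * D - D * (x * star D - star D * x)) := by
        intro x; noncomm_ring
      rw [← h.B_D, e, h.B_E, CAR.B_low h M, smul_mul_assoc, mul_smul_comm, ← smul_sub]
      cases M with
      | zero => simp
      | succ M =>
        rw [Nat.add_sub_cancel, Nat.add_sub_cancel, h.B_D, ← add_smul]
        congr 1; push_cast; ring

omit [StarModule ℝ A] in
lemma CAR.B_low_succ (h : CAR Q c D) (M : ℕ) :
    pairB c (M + 1) * star D - star D * pairB c (M + 1) =
      (((M : ℝ) + 1) * (2 - ((M : ℝ) + 2) * (1 / (Q : ℝ)))) • pairB c M := by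
  rw [h.B_low, Nat.add_sub_cancel]; congr 1; push_cast; ring

omit [Algebra ℝ A] [StarModule ℝ A] in
lemma star_comm_D (x D : A) : star x * D - D * star x = -star (x * star D - star D * x) := by
  simp [star_mul]

theorem ham_comm (hQ : 1 ≤ Q) (h : CAR Q c D) : ham Q c * D = D * ham Q c := by
  set ε : ℝ := 1 / (Q : ℝ) with hε
  have key : ∀ m : ℕ, m < 2 * Q - 1 →
      (∑ M ∈ range (m + 1), (nrm ε M)⁻¹ • (star (pairB c M) * pairB c M)) * D -
        D * (∑ M ∈ range (m + 1), (nrm ε M)⁻¹ • (star (pairB c M) * pairB c M)) =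
      (nrm ε m)⁻¹ • (star (pairB c m) * pairB c (m + 1)) := by
    have e : ∀ x : A, star x * x * D - D * (star x * x) =
        star x * (x * D - D * x) + (star x * D - D * star x) * x := by
      intro x; noncomm_ring
    intro m
    induction m with
    | zero =>
      intro _
      rw [sum_range_one, smul_mul_assoc, mul_smul_comm, ← smul_sub, e, h.B_D, star_comm_D,
        h.B_low]
      simp
    | succ m ih =>
      intro hm
      have h1 : nrm ε (m + 1) ≠ 0 := (nrm_pos hQ hm).ne'
      have h2 : nrm ε m ≠ 0 := (nrm_pos hQ (by omega)).ne'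
      have h3 : (nrm ε (m + 1))⁻¹ * (((m : ℝ) + 1) * (2 - ((m : ℝ) + 2) * ε)) = (nrm ε m)⁻¹ := by
        rw [inv_mul_eq_iff_eq_mul₀ h1, nrm_succ, mul_assoc, mul_inv_cancel₀ h2, mul_one]
      rw [sum_range_succ, add_mul, mul_add, add_sub_add_comm, ih (by omega), smul_mul_assoc,
        mul_smul_comm, ← smul_sub, e, h.B_D, star_comm_D, h.B_low_succ, star_smul, star_trivial (R := ℝ),
        neg_mul, smul_mul_assoc, smul_add, smul_neg, smul_smul, ← hε, h3]
      abel
  obtain ⟨m, hm⟩ : ∃ m, 2 * Q - 1 = m + 1 := ⟨2 * Q - 2, by omega⟩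
  have := key m (by omega)
  rw [← hm, h.B_top hQ, mul_zero, smul_zero] at this
  exact sub_eq_zero.mp this

omit [StarModule ℝ A] in
lemma CAR.B0_starB (h : CAR Q c D) : ∀ M : ℕ,
    pairB c 0 * star (pairB c M) - star (pairB c M) * pairB c 0 =
      (if M = 0 then (1 : A) else 0) - star (c (M + 1)) * c 1 +
        ((M : ℝ) - 1) • (star (c M) * c 0)
  | 0 => by
      have h00 := h.cs 0 0
      have h11 := h.cs 1 1
      have h10 := h.cs 1 0
      simp only [if_true, gam_zero', gam_one, one_smul, one_ne_zero, if_false] at h00 h11 h10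
      have a0 : c 0 * star (c 0) = 1 - star (c 0) * c 0 := eq_sub_of_add_eq h00
      have a1 : c 1 * star (c 1) = 1 - star (c 1) * c 1 := eq_sub_of_add_eq h11
      have a2 : c 1 * star (c 0) = -(star (c 0) * c 1) := eq_neg_of_add_eq_zero_left h10
      have h01 := h.cs 0 1
      simp only [zero_ne_one, if_false] at h01
      have a3 : c 0 * star (c 1) = -(star (c 1) * c 0) := eq_neg_of_add_eq_zero_left h01
      have e : c 1 * c 0 * (star (c 0) * star (c 1)) =
          1 - star (c 1) * c 1 - star (c 0) * c 0 + star (c 0) * star (c 1) * (c 1 * c 0) := by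
        calc c 1 * c 0 * (star (c 0) * star (c 1))
            = c 1 * (c 0 * star (c 0)) * star (c 1) := by noncomm_ring
          _ = c 1 * star (c 1) - (c 1 * star (c 0)) * (c 0 * star (c 1)) := by
              rw [a0]; noncomm_ring
          _ = c 1 * star (c 1) - star (c 0) * (c 1 * star (c 1)) * c 0 := by
              rw [a2, a3]; noncomm_ring
          _ = _ := by rw [a1]; noncomm_ring
      rw [h.B_zero, star_mul, e]
      simp only [if_true, zero_add, Nat.cast_zero, zero_sub, neg_smul, one_smul]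
      noncomm_ring
  | M + 1 => by
      have ih := CAR.B0_starB h M
      have e0 : pairB c 0 * star D = star D * pairB c 0 := by
        have := h.B_low 0
        simp only [Nat.cast_zero, zero_mul, zero_smul] at this
        exact sub_eq_zero.mp this
      have e1 : star (pairB c (M + 1)) = star D * star (pairB c M) - star (pairB c M) * star D := by
        rw [← h.B_D]; simp [star_mul]
      have e2 : ∀ j, star (c (j + 1)) = star D * star (c j) - star (c j) * star D := by
        intro j; rw [← h.comD]; simp [star_mul]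
      have e3 : c 1 * star D = c 0 + star D * c 1 := by
        have := h.comR 0
        simp only [Nat.cast_zero, zero_add, zero_mul, sub_zero, mul_one, one_smul] at this
        exact eq_add_of_sub_eq this
      have e4 : c 0 * star D = star D * c 0 := sub_eq_zero.mp h.comR0
      have e5 : pairB c 0 * star (pairB c (M + 1)) - star (pairB c (M + 1)) * pairB c 0 =
          star D * (pairB c 0 * star (pairB c M) - star (pairB c M) * pairB c 0) -
            (pairB c 0 * star (pairB c M) - star (pairB c M) * pairB c 0) * star D := by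
        have t1 : pairB c 0 * (star D * star (pairB c M)) =
            star D * (pairB c 0 * star (pairB c M)) := by rw [← mul_assoc, e0, mul_assoc]
        have t2 : star (pairB c M) * pairB c 0 * star D =
            star (pairB c M) * star D * pairB c 0 := by rw [mul_assoc, e0, mul_assoc]
        rw [e1, mul_sub, sub_mul, t1, sub_mul, t2]
        noncomm_ring
      have e6 : star D * (if M = 0 then (1 : A) else 0) =
          (if M = 0 then (1 : A) else 0) * star D := by split_ifs <;> simp
      have t3 : star (c (M + 1)) * c 1 * star D =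
          star (c (M + 1)) * c 0 + star (c (M + 1)) * star D * c 1 := by
        rw [mul_assoc, e3]; noncomm_ring
      have t4 : star (c M) * c 0 * star D = star (c M) * star D * c 0 := by
        rw [mul_assoc, e4, mul_assoc]
      have t5 : star D * (star (c M) * c 0) - star (c M) * star D * c 0 =
          star (c (M + 1)) * c 0 := by rw [e2 M]; noncomm_ring
      have t6 : star D * (star (c (M + 1)) * c 1) - star (c (M + 1)) * star D * c 1 =
          star (c (M + 1 + 1)) * c 1 := by rw [e2 (M + 1)]; noncomm_ring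
      rw [e5, ih, mul_add, add_mul, mul_sub, sub_mul, e6, t3, mul_smul_comm, smul_mul_assoc, t4,
        if_neg (Nat.succ_ne_zero M), ← t6, ← t5]
      push_cast
      module

end Vale.Agent.P359
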