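import Vale.Agent.P359.AlgA

/-! Symbols of three-body and four-body annihilation operators. -/

namespace Vale.Agent.P359

open Finset MvPolynomial

lemma monomial_P2 (m : Fin 2 →₀ ℕ) (r : ℝ) :
    (monomial m r : P2) = r • (X 0 ^ (m 0) * X 1 ^ (m 1)) := by
  rw [monomial_eq, Finsupp.prod_fintype _ _ (by simp), Fin.prod_univ_two, smul_eq_C_mul]

lemma monomial_P3 (m : Fin 3 →₀ ℕ) (r : ℝ) :
    (monomial m r : P3) = r • (X 0 ^ (m 0) * X 1 ^ (m 1) * X 2 ^ (m 2)) := by
  rw [monomial_eq, Finsupp.prod_fintype _ _ (by simp), Fin.prod_univ_three, smul_eq_C_mul]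

lemma P2_ind {motive : P2 → Prop} (h0 : ∀ a b : ℕ, motive (X 0 ^ a * X 1 ^ b))
    (hadd : ∀ p q, motive p → motive q → motive (p + q))
    (hsmul : ∀ (r : ℝ) p, motive p → motive (r • p)) (p : P2) : motive p := by
  induction p using MvPolynomial.induction_on' with
  | monomial m r => rw [monomial_P2]; exact hsmul _ _ (h0 _ _)
  | add p q hp hq => exact hadd p q hp hq

lemma P3_ind {motive : P3 → Prop} (h0 : ∀ a b d : ℕ, motive (X 0 ^ a * X 1 ^ b * X 2 ^ d))
    (hadd : ∀ p q, motive p → motive q → motive (p + q))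
    (hsmul : ∀ (r : ℝ) p, motive p → motive (r • p)) (p : P3) : motive p := by
  induction p using MvPolynomial.induction_on' with
  | monomial m r => rw [monomial_P3]; exact hsmul _ _ (h0 _ _ _)
  | add p q hp hq => exact hadd p q hp hq

lemma lowr_add {σ : Type*} (ε ν : ℝ) (i : σ) (p q : MvPolynomial σ ℝ) :
    lowr ε ν i (p + q) = lowr ε ν i p + lowr ε ν i q := by
  simp only [lowr, map_add, mul_add, smul_add]; abel

lemma lowr_smul {σ : Type*} (ε ν : ℝ) (i : σ) (r : ℝ) (p : MvPolynomial σ ℝ) :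
    lowr ε ν i (r • p) = r • lowr ε ν i p := by
  simp only [lowr, Derivation.map_smul, mul_smul_comm, smul_sub, smul_comm r]

lemma lowr_mono {σ : Type*} [DecidableEq σ] (ε ν : ℝ) (i : σ) (q : MvPolynomial σ ℝ)
    (hq : pderiv i q = 0) (a : ℕ) :
    lowr ε ν i (X i ^ a * q) = ((a : ℝ) * (ν - ((a : ℝ) - 1) * ε)) • (X i ^ (a - 1) * q) := by
  have d1 : ∀ a : ℕ, pderiv i (X i ^ a * q) = (a : ℝ) • (X i ^ (a - 1) * q) := by
    intro a
    rw [Derivation.leibniz, hq, Derivation.leibniz_pow, pderiv_X_self, Algebra.smul_def (a : ℝ),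
      map_natCast]
    simp only [smul_eq_mul, nsmul_eq_mul]; ring
  rw [lowr, d1, Derivation.map_smul, d1]
  rcases a with _ | _ | a
  · simp
  · simp
  · simp only [Nat.add_sub_cancel, show a + 1 + 1 - 1 = a + 1 from rfl, mul_smul_comm, smul_smul,
      ← mul_assoc, ← pow_succ']
    rw [← sub_smul]; congr 1; push_cast; ring

lemma wv_expand : ∀ M : ℕ,
    wv M = ∑ a ∈ range (M + 2), (kap M a / 2) • (X 1 ^ a * X 2 ^ (M + 1 - a) : P3)
  | 0 => by
      have e : kap 0 1 = -1 := kap_last 0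
      simp only [wv, zero_add, sum_range_succ, range_zero, sum_empty, kap_zero, e, Nat.sub_zero,
        Nat.sub_self, pow_zero, pow_one, mul_one, one_mul]
      module
  | M + 1 => by
      have e : wv (M + 1) = wv M * (X 1 + X 2) := by
        rw [wv, wv, smul_mul_assoc, pow_succ, mul_assoc]
      rw [pascal_sum (fun a b => (X 1 ^ a * X 2 ^ b : P3)) M, e, wv_expand M, sum_mul]
      refine sum_congr rfl fun a _ => ?_
      rw [smul_mul_assoc]; congr 1; ring

variable {A : Type*} [Ring A] [Algebra ℝ A]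

noncomputable def op3 (c : ℕ → A) : P2 →ₗ[ℝ] A :=
  (basisMonomials (Fin 2) ℝ).constr ℝ fun m => c (m 1) * pairB c (m 0)

noncomputable def op4 (c : ℕ → A) : P3 →ₗ[ℝ] A :=
  (basisMonomials (Fin 3) ℝ).constr ℝ fun m => c (m 2) * (c (m 1) * pairB c (m 0))

lemma op3_mono (c : ℕ → A) (a b : ℕ) : op3 c (X 0 ^ a * X 1 ^ b) = c b * pairB c a := by
  have e := monomial_P2 (Finsupp.single 0 a + Finsupp.single 1 b) 1
  simp only [Finsupp.coe_add, Pi.add_apply, Finsupp.single_eq_same, one_smul, ne_eq,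
    zero_ne_one, one_ne_zero, not_false_eq_true, Finsupp.single_eq_of_ne, add_zero,
    zero_add] at e
  have := (basisMonomials (Fin 2) ℝ).constr_basis ℝ (fun m => c (m 1) * pairB c (m 0))
    (Finsupp.single 0 a + Finsupp.single 1 b)
  rw [coe_basisMonomials] at this
  simp only [e] at this
  rw [op3, this]; simp

lemma op4_mono (c : ℕ → A) (a b d : ℕ) :
    op4 c (X 0 ^ a * X 1 ^ b * X 2 ^ d) = c d * (c b * pairB c a) := by
  set m : Fin 3 →₀ ℕ := Finsupp.single 0 a + Finsupp.single 1 b + Finsupp.single 2 d with hm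
  have m0 : m 0 = a := by simp [hm]
  have m1 : m 1 = b := by simp [hm]
  have m2 : m 2 = d := by simp [hm]
  have e := monomial_P3 m 1
  rw [m0, m1, m2, one_smul] at e
  have := (basisMonomials (Fin 3) ℝ).constr_basis ℝ
    (fun m => c (m 2) * (c (m 1) * pairB c (m 0))) m
  rw [coe_basisMonomials] at this
  simp only [e, m0, m1, m2] at this
  rw [op4, this]

lemma op4_emb (c : ℕ → A) (i : ℕ) (p : P2) : op4 c (emb p * X 2 ^ i) = c i * op3 c p := by
  induction p using P2_ind with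
  | h0 a b =>
    have : emb (X 0 ^ a * X 1 ^ b) = X 0 ^ a * X 1 ^ b := by simp [emb]
    rw [this, op4_mono, op3_mono]
  | hadd p q hp hq => simp only [map_add, add_mul, mul_add, hp, hq]
  | hsmul r p hp => simp only [map_smul, smul_mul_assoc, mul_smul_comm, hp]

lemma op4_wv (c : ℕ → A) (M M' : ℕ) : op4 c (X 0 ^ M * wv M') = pairB c M' * pairB c M := by
  rw [wv_expand, mul_sum, map_sum]
  generalize hx : pairB c M = x
  rw [pairB, sum_mul]
  subst hx
  refine sum_congr rfl fun a _ => ?_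
  rw [mul_smul_comm, map_smul, ← mul_assoc, op4_mono, smul_mul_assoc, mul_assoc]

variable [StarRing A] {Q : ℕ} {c : ℕ → A} {D : A}

lemma CAR.op3_D (h : CAR Q c D) (p : P2) :
    op3 c ((X 0 + X 1) * p) = op3 c p * D - D * op3 c p := by
  induction p using P2_ind with
  | h0 a b =>
    have : (X 0 + X 1) * (X 0 ^ a * X 1 ^ b) =
      (X 0 ^ (a + 1) * X 1 ^ b + X 0 ^ a * X 1 ^ (b + 1) : P2) := by ring
    rw [this, map_add, op3_mono, op3_mono, op3_mono, ← h.B_D, ← h.comD]; noncomm_ring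
  | hadd p q hp hq => simp only [map_add, mul_add, hp, hq]; noncomm_ring
  | hsmul r p hp => simp only [map_smul, smul_mul_assoc, mul_smul_comm, hp, smul_sub]

lemma CAR.op4_D (h : CAR Q c D) (p : P3) :
    op4 c ((X 0 + X 1 + X 2) * p) = op4 c p * D - D * op4 c p := by
  induction p using P3_ind with
  | h0 a b d =>
    have : (X 0 + X 1 + X 2) * (X 0 ^ a * X 1 ^ b * X 2 ^ d) =
      (X 0 ^ (a + 1) * X 1 ^ b * X 2 ^ d + X 0 ^ a * X 1 ^ (b + 1) * X 2 ^ d +
        X 0 ^ a * X 1 ^ b * X 2 ^ (d + 1) : P3) := by ring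
    rw [this, map_add, map_add, op4_mono, op4_mono, op4_mono, op4_mono, ← h.B_D, ← h.comD,
      ← h.comD]
    noncomm_ring
  | hadd p q hp hq => simp only [map_add, mul_add, hp, hq]; noncomm_ring
  | hsmul r p hp => simp only [map_smul, smul_mul_assoc, mul_smul_comm, hp, smul_sub]

lemma CAR.op3_low (h : CAR Q c D) (p : P2) :
    op3 c (low3 (1 / (Q : ℝ)) p) = op3 c p * star D - star D * op3 c p := by
  induction p using P2_ind with
  | h0 a b =>
    have e1 := lowr_mono (1 / (Q : ℝ)) (2 - 2 * (1 / (Q : ℝ))) (0 : Fin 2) (X 1 ^ b)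
      (by simp [Derivation.leibniz_pow]) a
    have e2 := lowr_mono (1 / (Q : ℝ)) 1 (1 : Fin 2) (X 0 ^ a)
      (by simp [Derivation.leibniz_pow]) b
    rw [mul_comm (X 1 ^ b), mul_comm (X 1 ^ (b - 1))] at e2
    have e3 : ∀ x y : A, x * y * star D - star D * (x * y) =
        x * (y * star D - star D * y) + (x * star D - star D * x) * y := by
      intro x y; noncomm_ring
    rw [low3, e1, e2, map_add, map_smul, map_smul, op3_mono, op3_mono, op3_mono, e3, h.B_low,
      h.c_low, mul_smul_comm, smul_mul_assoc]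
  | hadd p q hp hq =>
    simp only [low3, lowr_add, map_add] at hp hq ⊢
    rw [add_add_add_comm, hp, hq]; noncomm_ring
  | hsmul r p hp =>
    simp only [low3, lowr_smul, map_add, map_smul] at hp ⊢
    rw [← smul_add, hp, smul_mul_assoc, mul_smul_comm, smul_sub]

lemma CAR.op4_low (h : CAR Q c D) (p : P3) :
    op4 c (low4 (1 / (Q : ℝ)) p) = op4 c p * star D - star D * op4 c p := by
  induction p using P3_ind with
  | h0 a b d =>
    have e1 := lowr_mono (1 / (Q : ℝ)) (2 - 2 * (1 / (Q : ℝ))) (0 : Fin 3) (X 1 ^ b * X 2 ^ d)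
      (by simp [Derivation.leibniz, Derivation.leibniz_pow]) a
    have e2 := lowr_mono (1 / (Q : ℝ)) 1 (1 : Fin 3) (X 0 ^ a * X 2 ^ d)
      (by simp [Derivation.leibniz, Derivation.leibniz_pow]) b
    have e4 := lowr_mono (1 / (Q : ℝ)) 1 (2 : Fin 3) (X 0 ^ a * X 1 ^ b)
      (by simp [Derivation.leibniz, Derivation.leibniz_pow]) d
    rw [← mul_assoc, ← mul_assoc] at e1
    rw [mul_left_comm (X 1 ^ b), mul_left_comm (X 1 ^ (b - 1)), ← mul_assoc, ← mul_assoc] at e2
    rw [mul_comm (X 2 ^ d), mul_comm (X 2 ^ (d - 1))] at e4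
    have e3 : ∀ x y : A, x * y * star D - star D * (x * y) =
        x * (y * star D - star D * y) + (x * star D - star D * x) * y := by
      intro x y; noncomm_ring
    rw [low4, e1, e2, e4, map_add, map_add, map_smul, map_smul, map_smul, op4_mono, op4_mono,
      op4_mono, op4_mono, e3, e3, h.B_low, h.c_low, h.c_low, mul_add]
    simp only [mul_smul_comm, smul_mul_assoc]
  | hadd p q hp hq =>
    simp only [low4, lowr_add, map_add] at hp hq ⊢
    rw [add_mul, mul_add, add_sub_add_comm, ← hp, ← hq]; abel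
  | hsmul r p hp =>
    simp only [low4, lowr_smul, map_add, map_smul] at hp ⊢
    rw [← smul_add, ← smul_add, hp, smul_mul_assoc, mul_smul_comm, smul_sub]

lemma CAR.op4_anti (h : CAR Q c D) (p : P3) :
    op4 c (rename (Equiv.swap (1 : Fin 3) 2) p) = -op4 c p := by
  induction p using P3_ind with
  | h0 a b d =>
    simp only [map_mul, map_pow, rename_X]
    rw [Equiv.swap_apply_left, Equiv.swap_apply_right,
      Equiv.swap_apply_of_ne_of_ne (by decide) (by decide), mul_right_comm, op4_mono, op4_mono,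
      h.cc']
  | hadd p q hp hq => simp only [map_add, hp, hq]; abel
  | hsmul r p hp => simp only [map_smul, hp, smul_neg]

lemma CAR.B_one (h : CAR Q c D) : pairB c 1 = c 2 * c 0 := by
  have e : ∀ x y : A, x * y * D - D * (x * y) = x * (y * D - D * y) + (x * D - D * x) * y := by
    intro x y; noncomm_ring
  rw [← h.B_D 0, h.B_zero, e, h.comD, h.comD, h.sq, zero_add]

lemma CAR.B_two (h : CAR Q c D) : pairB c 2 = c 2 * c 1 + c 3 * c 0 := by
  have e : ∀ x y : A, x * y * D - D * (x * y) = x * (y * D - D * y) + (x * D - D * x) * y := by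
    intro x y; noncomm_ring
  rw [← h.B_D 1, h.B_one, e, h.comD, h.comD]

lemma CAR.B_three (h : CAR Q c D) : pairB c 3 = c 3 * c 1 + c 3 * c 1 + c 4 * c 0 := by
  have e : ∀ x y : A, x * y * D - D * (x * y) = x * (y * D - D * y) + (x * D - D * x) * y := by
    intro x y; noncomm_ring
  rw [← h.B_D 2, h.B_two, add_mul, mul_add, add_sub_add_comm, e, e, h.comD, h.comD, h.comD,
    h.comD, h.sq, zero_add, add_assoc]

lemma CAR.op3_rho (h : CAR Q c D) {r : ℕ} (hr : r = 0 ∨ r = 1 ∨ r = 3) :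
    op3 c (rho ^ r) = 0 := by
  have sq2 : ∀ i j, c i * (c j * c i) = 0 := by
    intro i j; rw [h.cc', h.sq]; simp
  have two : (2 : P2) = C 2 := rfl
  rcases hr with rfl | rfl | rfl
  · have := op3_mono c 0 0
    simp only [pow_zero, mul_one] at this
    rw [pow_zero, this, h.B_zero, sq2]
  · have e : rho ^ 1 = X 0 ^ 1 * X 1 ^ 0 - (2 : ℝ) • (X 0 ^ 0 * X 1 ^ 1) := by
      rw [rho, smul_eq_C_mul, ← two]; ring
    rw [e, map_sub, map_smul, op3_mono, op3_mono, h.B_zero, h.B_one, sq2, h.sq']; simp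
  · have e : rho ^ 3 = X 0 ^ 3 * X 1 ^ 0 - (6 : ℝ) • (X 0 ^ 2 * X 1 ^ 1) +
        (12 : ℝ) • (X 0 ^ 1 * X 1 ^ 2) - (8 : ℝ) • (X 0 ^ 0 * X 1 ^ 3) := by
      rw [rho, smul_eq_C_mul, smul_eq_C_mul, smul_eq_C_mul,
        show (C 6 : P2) = 6 from rfl, show (C 12 : P2) = 12 from rfl,
        show (C 8 : P2) = 8 from rfl]
      ring
    have t1 : c 0 * (c 3 * c 1) = c 3 * (c 1 * c 0) := by rw [h.cc', h.cc 0 1]; simp
    have t2 : c 1 * (c 3 * c 0) = -(c 3 * (c 1 * c 0)) := h.cc' _ _ _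
    rw [e, map_sub, map_add, map_sub, map_smul, map_smul, map_smul, op3_mono, op3_mono, op3_mono,
      op3_mono, h.B_zero, h.B_one, h.B_two, h.B_three]
    simp only [mul_add, sq2, h.sq', t1, t2]
    module

lemma CAR.op3_rho_sig (h : CAR Q c D) {r : ℕ} (hr : r = 0 ∨ r = 1 ∨ r = 3) :
    ∀ k : ℕ, op3 c (rho ^ r * sig ^ k) = 0
  | 0 => by simpa using h.op3_rho hr
  | k + 1 => by
      have e : rho ^ r * sig ^ (k + 1) = (X 0 + X 1) * (rho ^ r * sig ^ k) := by
        rw [pow_succ, sig]; ring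
      rw [e, h.op3_D, CAR.op3_rho_sig h hr k]; simp

end Vale.Agent.P359
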