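import Vale.Agent.P359.AlgB

/-! From an invariant eigenstate to the moment forms. -/

namespace Vale.Agent.P359

open Finset MvPolynomial

lemma ratio_le {Q : ℕ} (hQ : 1 ≤ Q) : ∀ M : ℕ, M < 2 * Q →
    gam (1 / (Q : ℝ)) (M + 1) * 2 ^ M ≤ ((M : ℝ) + 1) * nrm (1 / (Q : ℝ)) M
  | 0, _ => by simp [gam_one, nrm_zero']
  | M + 1, hM => by
      have ih := ratio_le hQ M (by omega)
      have hQ' : (0 : ℝ) < Q := by exact_mod_cast hQ
      set ε : ℝ := 1 / (Q : ℝ) with hε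
      have hε0 : 0 ≤ ε := by positivity
      have hg := (gam_bounds hQ (M + 1)).1
      have hn := (nrm_bounds hQ M).1
      have h2 : 0 ≤ 2 - ((M : ℝ) + 2) * ε := by
        have h1 : M + 2 ≤ 2 * Q := by omega
        have h2 : (M : ℝ) + 2 ≤ 2 * Q := by exact_mod_cast h1
        rw [hε, mul_one_div, sub_nonneg, div_le_iff₀ hQ']; exact h2
      have h3 : 2 * (1 - ((M : ℝ) + 1) * ε) ≤ 2 - ((M : ℝ) + 2) * ε := by
        have : 0 ≤ (M : ℝ) * ε := by positivity
        linarith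
      rw [gam_succ, nrm_succ, pow_succ]
      push_cast
      have hM0 : (0 : ℝ) ≤ (M : ℝ) + 1 + 1 := by positivity
      have h4 : 2 * (1 - ((M : ℝ) + 1) * ε) * (gam ε (M + 1) * 2 ^ M) ≤
          (2 - ((M : ℝ) + 2) * ε) * (((M : ℝ) + 1) * nrm ε M) := by
        calc _ ≤ (2 - ((M : ℝ) + 2) * ε) * (gam ε (M + 1) * 2 ^ M) :=
              mul_le_mul_of_nonneg_right h3 (by positivity)
          _ ≤ _ := mul_le_mul_of_nonneg_left ih h2
      have := mul_le_mul_of_nonneg_left h4 hM0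
      linarith

lemma ratio_le' {Q : ℕ} (hQ : 2 ≤ Q) (M : ℕ) (hM : M < 2 * Q - 1) :
    gam (1 / (Q : ℝ)) M * 2 ^ M ≤ 4 * nrm (1 / (Q : ℝ)) M := by
  have hQ' : (0 : ℝ) < Q := by exact_mod_cast (by omega : 0 < Q)
  cases M with
  | zero => simp [gam_zero', nrm_zero']
  | succ M =>
    by_cases hMQ : M + 1 ≤ Q
    · have h1 := ratio_le (by omega : 1 ≤ Q) M (by omega)
      have hn := (nrm_bounds (by omega : 1 ≤ Q) M).1
      have h2 : 1 / 2 ≤ 2 - ((M : ℝ) + 2) * (1 / (Q : ℝ)) := by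
        have h1 : 2 * (M + 2) ≤ 3 * Q := by omega
        have h2 : 2 * ((M : ℝ) + 2) ≤ 3 * Q := by exact_mod_cast h1
        have : ((M : ℝ) + 2) * (1 / (Q : ℝ)) ≤ 3 / 2 := by
          rw [mul_one_div, div_le_iff₀ hQ']; linarith
        linarith
      rw [nrm_succ, pow_succ]
      have h3 : 0 ≤ ((M : ℝ) + 1) * nrm (1 / (Q : ℝ)) M := by positivity
      nlinarith
    · have : gam (1 / (Q : ℝ)) (M + 1) = 0 := by
        rw [gam, prod_eq_zero (mem_range.mpr (not_le.mp hMQ)) (by field_simp; ring), mul_zero]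
      rw [this, zero_mul]
      have := (nrm_bounds (by omega : 1 ≤ Q) (M + 1)).1
      positivity

lemma tail_sum (n : ℕ) (hn : 48 ≤ n) :
    ∑ M ∈ Ico 48 n, 3 * ((M : ℝ) * (3 / 4) ^ M) ≤ 1 / 1000 := by
  have key : ∀ n : ℕ, 48 ≤ n → ∑ M ∈ Ico 48 n, 3 * ((M : ℝ) * (3 / 4) ^ M) +
      12 * ((n : ℝ) + 3) * (3 / 4) ^ n = 12 * (48 + 3) * (3 / 4) ^ 48 := by
    intro n hn
    induction n, hn using Nat.le_induction with
    | base => simp
    | succ n hn ih => rw [sum_Ico_succ_top hn, ← ih]; push_cast; ring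
  have h1 := key n hn
  have h2 : 0 ≤ 12 * ((n : ℝ) + 3) * (3 / 4) ^ n := by positivity
  have h3 : (12 : ℝ) * (48 + 3) * (3 / 4) ^ 48 ≤ 1 / 1000 := by norm_num
  linarith

lemma half_pow_le (M : ℕ) : (1 : ℝ) ≤ ((3 / 4) ^ M) ^ 2 * 2 ^ M := by
  rw [← pow_mul, mul_comm M 2, pow_mul, ← mul_pow]
  exact one_le_pow₀ (by norm_num)

variable {A : Type*} [Ring A] [Algebra ℝ A] [StarRing A] [StarModule ℝ A]

noncomputable def Fm (ω : A →ₗ[ℝ] ℝ) : A →ₗ[ℝ] A →ₗ[ℝ] ℝ :=
  LinearMap.mk₂ ℝ (fun x y => ω (star x * y))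
    (by intro x x' y; simp [add_mul]) (by intro r x y; simp [star_smul])
    (by intro x y y'; simp [mul_add]) (by intro r x y; simp)

lemma Fm_apply (ω : A →ₗ[ℝ] ℝ) (x y : A) : Fm ω x y = ω (star x * y) := rfl

variable {Q : ℕ} {c : ℕ → A} {D H : A} {ω : A →ₗ[ℝ] ℝ} {lam : ℝ}

lemma IsState.F_sym (hω : IsState ω D H lam) (x y : A) : Fm ω x y = Fm ω y x := by
  rw [Fm_apply, Fm_apply, ← hω.sym]; simp

lemma IsState.F_pos (hω : IsState ω D H lam) (x : A) : 0 ≤ Fm ω x x := hω.pos x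

omit [StarModule ℝ A] in
lemma IsState.invStar (hω : IsState ω D H lam) (z : A) : ω (z * star D) = ω (star D * z) := by
  rw [← hω.sym, ← hω.sym (star D * z)]; simp [hω.inv]

lemma IsState.F_adj (hω : IsState ω D H lam) (x y : A) :
    Fm ω (x * D - D * x) y = Fm ω x (y * star D - star D * y) := by
  rw [Fm_apply, Fm_apply, star_sub, star_mul, star_mul, sub_mul, mul_sub, map_sub, map_sub,
    mul_assoc, ← hω.invStar, mul_assoc, mul_assoc]

lemma IsState.F_cs (hω : IsState ω D H lam) (x y : A) :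
    Fm ω x y ^ 2 ≤ Fm ω x x * Fm ω y y := by
  have h : ∀ t : ℝ, 0 ≤ Fm ω x x * (t * t) + (2 * Fm ω x y) * t + Fm ω y y := by
    intro t
    have := hω.F_pos (t • x + y)
    simp only [map_add, map_smul, LinearMap.add_apply, LinearMap.smul_apply, smul_eq_mul,
      hω.F_sym y x] at this
    linarith
  have := discrim_le_zero h
  rw [discrim] at this
  nlinarith

lemma F_starc (i : ℕ) (x y : A) : Fm ω x (star (c i) * y) = Fm ω (c i * x) y := by
  rw [Fm_apply, Fm_apply, star_mul, mul_assoc]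

lemma CAR.F_cc (h : CAR Q c D) (i j : ℕ) (x y : A) :
    Fm ω (star (c i) * x) (star (c j) * y) =
      (if i = j then gam (1 / (Q : ℝ)) i * Fm ω x y else 0) - Fm ω (c j * x) (c i * y) := by
  have e : star (star (c i) * x) * (star (c j) * y) =
      star x * ((c i * star (c j) + star (c j) * c i) * y) - star (c j * x) * (c i * y) := by
    simp only [star_mul, star_star]; noncomm_ring
  rw [Fm_apply, e, map_sub, h.cs, Fm_apply, Fm_apply]
  split_ifs <;> simp

lemma CAR.F_c_le (h : CAR Q c D) (hω : IsState ω D H lam) (j : ℕ) (x : A) :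
    Fm ω (c j * x) (c j * x) ≤ gam (1 / (Q : ℝ)) j * Fm ω x x := by
  have h1 := h.F_cc (ω := ω) j j x x
  have h2 := hω.F_pos (star (c j) * x)
  rw [if_pos rfl] at h1
  linarith

lemma CAR.F_B (h : CAR Q c D) (hω : IsState ω D H lam) : ∀ M : ℕ,
    Fm ω (pairB c M) (pairB c M) = nrm (1 / (Q : ℝ)) M * Fm ω (pairB c 0) (pairB c 0)
  | 0 => by simp [nrm_zero']
  | M + 1 => by
      have := hω.F_adj (pairB c M) (pairB c (M + 1))
      rw [h.B_D, h.B_low_succ, map_smul, smul_eq_mul, CAR.F_B h hω M] at this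
      rw [this, nrm_succ]; ring

lemma CAR.beta_pos (h : CAR Q c D) (hω : IsState ω D (ham Q c) lam)
    (h0 : lam ≠ 0) : 0 < Fm ω (pairB c 0) (pairB c 0) := by
  refine lt_of_le_of_ne (hω.F_pos _) fun hb => ?_
  have h1 := hω.eig 1
  rw [one_mul, ham, map_sum] at h1
  have h2 : ∀ M ∈ range (2 * Q - 1),
      ω ((nrm (1 / (Q : ℝ)) M)⁻¹ • (star (pairB c M) * pairB c M)) = 0 := by
    intro M _
    rw [map_smul, ← Fm_apply, h.F_B hω, ← hb]; simp
  rw [sum_eq_zero h2] at h1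
  exact (mul_ne_zero h0 hω.one.ne') h1.symm

lemma CAR.sos (h : CAR Q c D) (n : ℕ) (f : ℕ → ℕ) (hf : Function.Injective f) (y : ℕ → A) :
    Fm ω (∑ i ∈ range n, star (c (f i)) * y i) (∑ i ∈ range n, star (c (f i)) * y i) =
      ∑ i ∈ range n, gam (1 / (Q : ℝ)) (f i) * Fm ω (y i) (y i) -
        ∑ i ∈ range n, ∑ j ∈ range n, Fm ω (c (f j) * y i) (c (f i) * y j) := by
  rw [LinearMap.map_sum₂, ← sum_sub_distrib]
  refine sum_congr rfl fun i hi => ?_
  rw [map_sum]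
  simp only [h.F_cc, sum_sub_distrib, hf.eq_iff]
  rw [sum_ite_eq, if_pos hi]

lemma CAR.objective (h : CAR Q c D) (hQ : 1 ≤ Q) (hω : IsState ω D (ham Q c) lam) :
    lam * Fm ω (pairB c 0) (pairB c 0) = Fm ω (pairB c 0) (pairB c 0) +
      ∑ M ∈ range (2 * Q - 1), (nrm (1 / (Q : ℝ)) M)⁻¹ *
        (((M : ℝ) - 1) * Fm ω (c M * pairB c 0) (c 0 * pairB c M) -
          Fm ω (c (M + 1) * pairB c 0) (c 1 * pairB c M)) +
      ∑ M ∈ range (2 * Q - 1), (nrm (1 / (Q : ℝ)) M)⁻¹ *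
        Fm ω (pairB c M * pairB c 0) (pairB c M * pairB c 0) := by
  have h1 := hω.eig (star (pairB c 0) * pairB c 0)
  rw [← Fm_apply, ham, mul_sum, map_sum] at h1
  have h2 : ∀ M : ℕ, ω (star (pairB c 0) * pairB c 0 *
      (nrm (1 / (Q : ℝ)) M)⁻¹ • (star (pairB c M) * pairB c M)) =
      (if M = 0 then Fm ω (pairB c 0) (pairB c 0) else 0) + ((nrm (1 / (Q : ℝ)) M)⁻¹ *
        (((M : ℝ) - 1) * Fm ω (c M * pairB c 0) (c 0 * pairB c M) -
          Fm ω (c (M + 1) * pairB c 0) (c 1 * pairB c M)) + (nrm (1 / (Q : ℝ)) M)⁻¹ *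
        Fm ω (pairB c M * pairB c 0) (pairB c M * pairB c 0)) := by
    intro M
    have e : star (pairB c 0) * pairB c 0 * (star (pairB c M) * pairB c M) =
        star (pairB c 0) * ((pairB c 0 * star (pairB c M) - star (pairB c M) * pairB c 0) *
          pairB c M) + star (pairB c M * pairB c 0) * (pairB c 0 * pairB c M) := by
      simp only [star_mul]; noncomm_ring
    rw [mul_smul_comm, map_smul, e, h.B0_starB, h.B_B 0 M, map_add, ← Fm_apply, ← Fm_apply,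
      add_mul, sub_mul, map_add, map_sub, smul_mul_assoc, map_smul, mul_assoc, mul_assoc,
      F_starc, F_starc]
    split_ifs with hM
    · subst hM; simp only [nrm_zero', smul_eq_mul, one_mul, inv_one]; ring
    · simp only [zero_mul, map_zero, smul_eq_mul]; ring
  simp only [h2, sum_add_distrib, sum_ite_eq', mem_range] at h1
  rw [if_pos (by omega)] at h1
  linarith

lemma CAR.term_le (h : CAR Q c D) (hQ : 2 ≤ Q) (hω : IsState ω D H lam) (M : ℕ) (hM2 : 2 ≤ M)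
    (hM : M < 2 * Q - 1) :
    -(3 * ((M : ℝ) * (3 / 4) ^ M) * Fm ω (pairB c 0) (pairB c 0)) ≤ (nrm (1 / (Q : ℝ)) M)⁻¹ *
        (((M : ℝ) - 1) * Fm ω (c M * pairB c 0) (c 0 * pairB c M) -
          Fm ω (c (M + 1) * pairB c 0) (c 1 * pairB c M)) := by
  set β := Fm ω (pairB c 0) (pairB c 0) with hβ
  have hβ0 : 0 ≤ β := hω.F_pos _
  set n := nrm (1 / (Q : ℝ)) M with hn
  have hn0 : 0 < n := nrm_pos (by omega) hM
  set θ : ℝ := (3 / 4) ^ M with hθ
  have hθ0 : 0 < θ := by positivity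
  have hp : (0 : ℝ) < 2 ^ M := by positivity
  have hh : 1 ≤ θ ^ 2 * 2 ^ M := half_pow_le M
  have hM' : (2 : ℝ) ≤ M := by exact_mod_cast hM2
  have gen : ∀ (i j : ℕ) (K : ℝ), 0 ≤ K → gam (1 / (Q : ℝ)) j = 1 →
      gam (1 / (Q : ℝ)) i * 2 ^ M ≤ K ^ 2 * n →
      |Fm ω (c i * pairB c 0) (c j * pairB c M)| ≤ K * θ * n * β := by
    intro i j K hK hj hi
    have h1 := hω.F_cs (c i * pairB c 0) (c j * pairB c M)
    have h2 := h.F_c_le hω i (pairB c 0)
    have h3 := h.F_c_le hω j (pairB c M)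
    rw [hj, one_mul, h.F_B hω, ← hn, ← hβ] at h3
    rw [← hβ] at h2
    have hg := (gam_bounds (by omega : 1 ≤ Q) i).1
    have h4 := mul_le_mul h2 h3 (hω.F_pos _) (mul_nonneg hg hβ0)
    have h5 : gam (1 / (Q : ℝ)) i ≤ K ^ 2 * θ ^ 2 * n := by
      have : gam (1 / (Q : ℝ)) i * 1 ≤ gam (1 / (Q : ℝ)) i * (θ ^ 2 * 2 ^ M) :=
        mul_le_mul_of_nonneg_left hh hg
      have h6 := mul_le_mul_of_nonneg_left hi (sq_nonneg θ)
      linarith
    refine abs_le_of_sq_le_sq' ?_ (by positivity) |> abs_le.mpr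
    have h6 : gam (1 / (Q : ℝ)) i * (β * (n * β)) ≤ K ^ 2 * θ ^ 2 * n * (β * (n * β)) :=
      mul_le_mul_of_nonneg_right h5 (by positivity)
    nlinarith
  have a1 := gen M 0 2 (by norm_num) (gam_zero' _) (by
    have := ratio_le' hQ M hM; linarith)
  have a2 := gen (M + 1) 1 M (by positivity) (gam_one _) (by
    have := ratio_le (by omega : 1 ≤ Q) M (by omega)
    have h7 : ((M : ℝ) + 1) * n ≤ (M : ℝ) ^ 2 * n :=
      mul_le_mul_of_nonneg_right (by nlinarith) hn0.le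
    linarith)
  rw [le_inv_mul_iff₀ hn0]
  have b1 := (abs_le.mp a1).1
  have b2 := (abs_le.mp a2).2
  have b3 := mul_le_mul_of_nonneg_left b1 (show (0 : ℝ) ≤ (M : ℝ) - 1 by linarith)
  have b4 : 0 ≤ θ * n * β := by positivity
  nlinarith

theorem good_of_state (hQ : 100 ≤ Q) (h : CAR Q c D)
    {δ : ℝ} (hω : IsState ω D (ham Q c) lam) (h0 : lam ≠ 0) (hl : lam ≤ δ) :
    ∃ G3 G4, Good (1 / (Q : ℝ)) δ G3 G4 := by
  have hQ1 : 1 ≤ Q := by omega
  have hβ := h.beta_pos hω h0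
  set β := Fm ω (pairB c 0) (pairB c 0) with hβdef
  have hi : 0 ≤ β⁻¹ := by positivity
  have hββ : β⁻¹ * β = 1 := inv_mul_cancel₀ hβ.ne'
  refine ⟨β⁻¹ • (Fm ω).compl₁₂ (op3 c) (op3 c), β⁻¹ • (Fm ω).compl₁₂ (op4 c) (op4 c), ?_⟩
  have m1 : ∀ M : ℕ, op3 c (X 1 ^ M) = c M * pairB c 0 := by
    intro M; simpa using op3_mono c 0 M
  have m2 : ∀ M : ℕ, op3 c (X 0 ^ M) = c 0 * pairB c M := by
    intro M; simpa using op3_mono c M 0
  have m3 : ∀ M : ℕ, op3 c (X 0 ^ M * X 1) = c 1 * pairB c M := by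
    intro M; simpa using op3_mono c M 1
  have m4 : ∀ M : ℕ, op4 c (wv M) = pairB c M * pairB c 0 := by
    intro M; simpa using op4_wv c 0 M
  have hB : ∀ M, Fm ω (pairB c M) (pairB c M) ≤ (M.factorial : ℝ) * 2 ^ M * β := by
    intro M
    rw [h.F_B hω]
    exact mul_le_mul_of_nonneg_right (nrm_bounds hQ1 M).2 hβ.le
  have hc : ∀ j x, Fm ω (c j * x) (c j * x) ≤ (j.factorial : ℝ) * Fm ω x x := fun j x =>
    (h.F_c_le hω j x).trans (mul_le_mul_of_nonneg_right (gam_bounds hQ1 j).2 (hω.F_pos x))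
  constructor
  all_goals simp only [LinearMap.smul_apply, LinearMap.compl₁₂_apply, smul_eq_mul]
  · intro p q; rw [hω.F_sym]
  · intro p q; rw [hω.F_sym]
  · intro p; exact mul_nonneg hi (hω.F_pos _)
  · intro p; exact mul_nonneg hi (hω.F_pos _)
  · intro p q; rw [h.op3_D, hω.F_adj, h.op3_low]
  · intro p q; rw [h.op4_D, hω.F_adj, h.op4_low]
  · intro r hr q; rw [h.op3_rho hr]; simp
  · intro r hr k i q; rw [op4_emb, h.op3_rho_sig hr]; simp
  · intro p q; rw [h.op4_anti]; simp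
  · intro M M' q; rw [op4_wv, op4_wv, h.B_B]
  · intro q n x0 p
    have h1 := hω.F_pos (x0 • pairB c q + ∑ i ∈ range n, star (c i) * op3 c (p i))
    have h2 := h.sos (ω := ω) n id Function.injective_id (fun i => op3 c (p i))
    simp only [id] at h2
    have h3 : Fm ω (pairB c q) (∑ i ∈ range n, star (c i) * op3 c (p i)) =
        ∑ i ∈ range n, Fm ω (c i * pairB c q) (op3 c (p i)) := by
      rw [map_sum]; exact sum_congr rfl fun i _ => F_starc i _ _
    have h5 : ∀ u v : A, Fm ω (x0 • u + v) (x0 • u + v) =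
        x0 * (x0 * Fm ω u u) + 2 * x0 * Fm ω u v + Fm ω v v := by
      intro u v
      simp only [map_add, map_smul, LinearMap.add_apply, LinearMap.smul_apply, smul_eq_mul,
        hω.F_sym v u]
      ring
    rw [h5, h2, h3, h.F_B hω, ← hβdef] at h1
    have h4 := mul_nonneg hi h1
    simp only [op3_mono, op4_emb, ← mul_sum, mul_left_comm _ β⁻¹]
    have e : β⁻¹ * (x0 * (x0 * (nrm (1 / (Q : ℝ)) q * β))) = x0 ^ 2 * nrm (1 / (Q : ℝ)) q := by
      linear_combination (x0 ^ 2 * nrm (1 / (Q : ℝ)) q) * hββ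
    linarith
  · intro hh n x
    have h1 := hω.F_pos (∑ i ∈ range n, star (c (i + hh)) * (x i • pairB c i))
    rw [h.sos (ω := ω) n (fun i => i + hh) (add_left_injective hh) (fun i => x i • pairB c i)]
      at h1
    have h4 := mul_nonneg hi h1
    have hB' : ∀ M, Fm ω (pairB c M) (pairB c M) = nrm (1 / (Q : ℝ)) M * β := h.F_B hω
    simp only [mul_smul_comm, map_smul, LinearMap.smul_apply, smul_eq_mul, hB'] at h4
    rw [mul_sub, mul_sum, mul_sum] at h4
    simp only [op3_mono]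
    refine le_of_le_of_eq h4 (congrArg₂ _ ?_ ?_)
    · refine sum_congr rfl fun i _ => ?_
      linear_combination (x i ^ 2 * gam (1 / (Q : ℝ)) (i + hh) * nrm (1 / (Q : ℝ)) i) * hββ
    · refine sum_congr rfl fun i _ => ?_
      rw [mul_sum]
      exact sum_congr rfl fun j _ => by ring
  · have h1 := h.objective hQ1 hω
    rw [← hβdef, ← sum_range_add_sum_Ico _ (show 48 ≤ 2 * Q - 1 by omega),
      ← sum_range_add_sum_Ico _ (show 80 ≤ 2 * Q - 1 by omega)] at h1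
    have h2 : 0 ≤ ∑ M ∈ Ico 80 (2 * Q - 1), (nrm (1 / (Q : ℝ)) M)⁻¹ *
        Fm ω (pairB c M * pairB c 0) (pairB c M * pairB c 0) :=
      sum_nonneg fun M _ => mul_nonneg (inv_nonneg.mpr (nrm_bounds hQ1 M).1) (hω.F_pos _)
    have h3 := sum_le_sum (s := Ico 48 (2 * Q - 1)) fun M hM =>
      h.term_le (by omega) hω M (by have := (mem_Ico.mp hM).1; omega) (mem_Ico.mp hM).2
    rw [sum_neg_distrib, ← sum_mul, ← hβdef] at h3
    have h4 := mul_le_mul_of_nonneg_right (tail_sum (2 * Q - 1) (by omega)) hβ.le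
    have h5 := mul_le_mul_of_nonneg_right hl hβ.le
    simp only [m1, m2, m3, m4, mul_left_comm _ β⁻¹, ← mul_sub, ← mul_sum]
    rw [add_assoc, ← mul_add, ← le_sub_iff_add_le', inv_mul_le_iff₀ hβ]
    linarith
  · intro M j
    rw [op3_mono, inv_mul_le_iff₀ hβ]
    have := mul_le_mul_of_nonneg_left (hB M) (show (0 : ℝ) ≤ j.factorial by positivity)
    linarith [hc j (pairB c M)]
  · intro M i j
    rw [op4_mono, inv_mul_le_iff₀ hβ]
    have h1 := mul_le_mul_of_nonneg_left (hB M) (show (0 : ℝ) ≤ i.factorial by positivity)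
    have h2 := mul_le_mul_of_nonneg_left ((hc i (pairB c M)).trans h1)
      (show (0 : ℝ) ≤ j.factorial by positivity)
    linarith [hc j (c i * pairB c M)]

end Vale.Agent.P359
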