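import Vale.Agent.P359.Defs

/-! Internal definitions for the proof of the Laughlin gap. -/

namespace Vale.Agent.P359

open Finset MvPolynomial

/-! ### First quantised real picture -/

/-- Unnormalised amplitude of the pair state of relative angular momentum one. -/
noncomputable def tau (Q M a b : ℕ) : ℝ :=
  if a + b = M + 1 then ((b : ℝ) - (a : ℝ)) * Real.sqrt ((Q.choose a : ℝ) * (Q.choose b : ℝ)) else 0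

def Anti {N : ℕ} {α : Type*} (ψ : (Fin N → α) → ℝ) : Prop :=
  ∀ (σ : Equiv.Perm (Fin N)) (a : Fin N → α), ψ (a ∘ σ) = ((Equiv.Perm.sign σ : ℤ) : ℝ) * ψ a

noncomputable def amp (Q n M : ℕ) (ψ : (Fin (n + 2) → Fin (Q + 1)) → ℝ)
    (r : Fin n → Fin (Q + 1)) : ℝ :=
  ∑ a : Fin (Q + 1), ∑ b : Fin (Q + 1), tau Q M a b * ψ (Fin.cons a (Fin.cons b r))

noncomputable def energy (Q n : ℕ) (ψ : (Fin (n + 2) → Fin (Q + 1)) → ℝ) : ℝ :=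
  ∑ M ∈ range (2 * Q - 1), ∑ r : Fin n → Fin (Q + 1),
    (amp Q n M ψ r) ^ 2 / (4 * (Q : ℝ) * ((2 * Q - 2).choose M : ℝ))

/-- The gap inequality in the real first quantised picture. -/
def RealGap (δ : ℝ) (Q : ℕ) : Prop :=
  ∀ (n : ℕ) (ψ : (Fin (n + 2) → Fin (Q + 1)) → ℝ), Anti ψ →
    ∃ χ : (Fin (n + 2) → Fin (Q + 1)) → ℝ, Anti χ ∧
      (∀ M < 2 * Q - 1, ∀ r, amp Q n M χ r = 0) ∧
      δ * ∑ a, (ψ a - χ a) ^ 2 ≤ ((n : ℝ) + 2) * ((n : ℝ) + 1) * energy Q n ψ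

/-! ### The canonical anticommutation relations -/

noncomputable def gam (ε : ℝ) (j : ℕ) : ℝ := (j.factorial : ℝ) * ∏ k ∈ range j, (1 - (k : ℝ) * ε)

noncomputable def nrm (ε : ℝ) (M : ℕ) : ℝ :=
  (M.factorial : ℝ) * ∏ k ∈ range M, (2 - ((k : ℝ) + 2) * ε)

noncomputable def kap (M a : ℕ) : ℝ :=
  (((M + 1 - a : ℕ) : ℝ) - (a : ℝ)) * (M.factorial : ℝ) /
    ((a.factorial : ℝ) * ((M + 1 - a).factorial : ℝ))

section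
variable {A : Type*} [Ring A] [Algebra ℝ A] [StarRing A]

noncomputable def pairB (c : ℕ → A) (M : ℕ) : A :=
  ∑ a ∈ range (M + 2), (kap M a / 2) • (c (M + 1 - a) * c a)

noncomputable def ham (Q : ℕ) (c : ℕ → A) : A :=
  ∑ M ∈ range (2 * Q - 1), (nrm (1 / (Q : ℝ)) M)⁻¹ • (star (pairB c M) * pairB c M)

structure CAR (Q : ℕ) (c : ℕ → A) (D : A) : Prop where
  cc : ∀ i j, c i * c j = -(c j * c i)
  cs : ∀ i j, c i * star (c j) + star (c j) * c i =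
    if i = j then (gam (1 / (Q : ℝ)) i) • (1 : A) else 0
  zero : ∀ j, Q < j → c j = 0
  comD : ∀ j, c j * D - D * c j = c (j + 1)
  comR : ∀ j, c (j + 1) * star D - star D * c (j + 1) =
    (((j : ℝ) + 1) * (1 - (j : ℝ) * (1 / (Q : ℝ)))) • c j
  comR0 : c 0 * star D - star D * c 0 = 0

structure IsState (ω : A →ₗ[ℝ] ℝ) (D H : A) (lam : ℝ) : Prop where
  pos : ∀ x, 0 ≤ ω (star x * x)
  sym : ∀ x, ω (star x) = ω x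
  inv : ∀ x, ω (x * D) = ω (D * x)
  eig : ∀ x, ω (x * H) = lam * ω x
  one : 0 < ω 1
end

/-- The gap inequality for a symmetric real matrix. -/
def MatGap {ι : Type*} [Fintype ι] (δ : ℝ) (H : Matrix ι ι ℝ) : Prop :=
  ∀ Φ : ι → ℝ, ∃ χ : ι → ℝ, H.mulVec χ = 0 ∧
    δ * ((Φ - χ) ⬝ᵥ (Φ - χ)) ≤ Φ ⬝ᵥ H.mulVec Φ

/-! ### Moment forms -/

abbrev P2 := MvPolynomial (Fin 2) ℝ
abbrev P3 := MvPolynomial (Fin 3) ℝ

noncomputable def emb : P2 →ₐ[ℝ] P3 := rename Fin.castSucc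

noncomputable def lowr {σ : Type*} (ε ν : ℝ) (i : σ) (p : MvPolynomial σ ℝ) : MvPolynomial σ ℝ :=
  ν • pderiv i p - ε • (X i * pderiv i (pderiv i p))

noncomputable def low3 (ε : ℝ) (p : P2) : P2 := lowr ε (2 - 2 * ε) 0 p + lowr ε 1 1 p

noncomputable def low4 (ε : ℝ) (p : P3) : P3 :=
  lowr ε (2 - 2 * ε) 0 p + lowr ε 1 1 p + lowr ε 1 2 p

noncomputable def sig : P2 := X 0 + X 1
noncomputable def rho : P2 := X 0 - 2 * X 1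
noncomputable def wv (M : ℕ) : P3 := (1 / 2 : ℝ) • ((X 2 - X 1) * (X 1 + X 2) ^ M)

structure Good (ε lam : ℝ) (G3 : P2 →ₗ[ℝ] P2 →ₗ[ℝ] ℝ) (G4 : P3 →ₗ[ℝ] P3 →ₗ[ℝ] ℝ) : Prop where
  sym3 : ∀ p q, G3 p q = G3 q p
  sym4 : ∀ p q, G4 p q = G4 q p
  pos3 : ∀ p, 0 ≤ G3 p p
  pos4 : ∀ p, 0 ≤ G4 p p
  adj3 : ∀ p q, G3 ((X 0 + X 1) * p) q = G3 p (low3 ε q)
  adj4 : ∀ p q, G4 ((X 0 + X 1 + X 2) * p) q = G4 p (low4 ε q)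
  null3 : ∀ r, r = 0 ∨ r = 1 ∨ r = 3 → ∀ q, G3 (rho ^ r) q = 0
  null4 : ∀ r, r = 0 ∨ r = 1 ∨ r = 3 → ∀ c i q, G4 (emb (rho ^ r * sig ^ c) * X 2 ^ i) q = 0
  anti : ∀ p q, G4 (rename (Equiv.swap (1 : Fin 3) 2) p) q = -G4 p q
  exch : ∀ M M' q, G4 (X 0 ^ M * wv M') q = G4 (X 0 ^ M' * wv M) q
  gcond : ∀ (q n : ℕ) (x0 : ℝ) (p : ℕ → P2),
    0 ≤ x0 ^ 2 * nrm ε q + 2 * x0 * ∑ i ∈ range n, G3 (X 0 ^ q * X 1 ^ i) (p i) +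
      ∑ i ∈ range n, gam ε i * G3 (p i) (p i) -
      ∑ i ∈ range n, ∑ j ∈ range n, G4 (emb (p i) * X 2 ^ j) (emb (p j) * X 2 ^ i)
  hcond : ∀ (h n : ℕ) (x : ℕ → ℝ),
    0 ≤ ∑ M ∈ range n, x M ^ 2 * gam ε (M + h) * nrm ε M -
      ∑ M ∈ range n, ∑ M' ∈ range n,
        x M * x M' * G3 (X 0 ^ M * X 1 ^ (M' + h)) (X 0 ^ M' * X 1 ^ (M + h))
  obj : 1 + ∑ M ∈ range 48, (nrm ε M)⁻¹ *
        (((M : ℝ) - 1) * G3 (X 1 ^ M) (X 0 ^ M) - G3 (X 1 ^ (M + 1)) (X 0 ^ M * X 1)) +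
      ∑ M ∈ range 80, (nrm ε M)⁻¹ * G4 (wv M) (wv M) ≤ lam + 1 / 1000
  bd3 : ∀ M j, G3 (X 0 ^ M * X 1 ^ j) (X 0 ^ M * X 1 ^ j) ≤
    (M.factorial : ℝ) * 2 ^ M * (j.factorial : ℝ)
  bd4 : ∀ M i j, G4 (X 0 ^ M * X 1 ^ i * X 2 ^ j) (X 0 ^ M * X 1 ^ i * X 2 ^ j) ≤
    (M.factorial : ℝ) * 2 ^ M * (i.factorial : ℝ) * (j.factorial : ℝ)

end Vale.Agent.P359
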