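import Mathlib

namespace Vale.Agent.P359.S

/-- The orthogonal projection onto the span of a set, in a finite dimensional Hilbert space. -/
noncomputable def spanProj {E : Type} [NormedAddCommGroup E] [InnerProductSpace ℂ E]
    [FiniteDimensional ℂ E] (S : Set E) (v : E) : E :=
  (Submodule.span ℂ S).starProjection v

/-- The orthogonal projection onto the span of a set of coordinate vectors, for the standard
Hermitian inner product on `ι → ℂ`. -/
noncomputable def coordProj {ι : Type} [Fintype ι] (S : Set (ι → ℂ)) (v : ι → ℂ) : ι → ℂ :=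
  WithLp.ofLp (spanProj (E := EuclideanSpace ℂ ι) (WithLp.toLp 2 '' S) (WithLp.toLp 2 v))

/-- The real part of the standard Hermitian inner product. -/
noncomputable def reInner {ι : Type} [Fintype ι] (v w : ι → ℂ) : ℝ :=
  (∑ a, (starRingEnd ℂ) (v a) * w a).re

/-- The raising operator `u ∂/∂v` of the spin `Q/2` representation `U_Q`, written in the
orthonormal basis `e_m = √(Q choose m) u^m v^(Q-m)`, `m = 0, …, Q`. -/
noncomputable def spinUp (Q : ℕ) : Matrix (Fin (Q + 1)) (Fin (Q + 1)) ℂ :=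
  Matrix.of fun a b =>
    if (a : ℕ) = (b : ℕ) + 1 then
      ((Real.sqrt ((((b : ℕ) : ℝ) + 1) * ((Q : ℝ) - ((b : ℕ) : ℝ))) : ℝ) : ℂ)
    else 0

/-- The operator `S_z = (u ∂/∂u - v ∂/∂v) / 2` in the same basis. -/
noncomputable def spinZ (Q : ℕ) : Matrix (Fin (Q + 1)) (Fin (Q + 1)) ℂ :=
  Matrix.diagonal fun a => ((a : ℕ) : ℂ) - (Q : ℂ) / 2

/-- `A ⊗ 1 + 1 ⊗ A`. -/
noncomputable def pairSum {ι : Type} [DecidableEq ι] (A : Matrix ι ι ℂ) :
    Matrix (ι × ι) (ι × ι) ℂ :=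
  Matrix.kroneckerMap (· * ·) A (1 : Matrix ι ι ℂ) +
    Matrix.kroneckerMap (· * ·) (1 : Matrix ι ι ℂ) A

/-- The Casimir `S_z² + (S₊ S₋ + S₋ S₊) / 2` built from `Z = S_z` and `U = S₊`, `S₋ = Uᴴ`. -/
noncomputable def casimirOf {ι : Type} [Fintype ι] (Z U : Matrix ι ι ℂ) : Matrix ι ι ℂ :=
  Z * Z + (1 / 2 : ℂ) • (U * Matrix.conjTranspose U + Matrix.conjTranspose U * U)

/-- The component of total spin `J = Q - 1` of `U_Q ⊗ U_Q`: the vectors on which the total spin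
Casimir acts as `J (J + 1)`. -/
def spinSector (Q : ℕ) : Set (Fin (Q + 1) × Fin (Q + 1) → ℂ) :=
  {v | (casimirOf (pairSum (spinZ Q)) (pairSum (spinUp Q))).mulVec v =
    (((Q : ℂ) - 1) * (Q : ℂ)) • v}

/-- The orthogonal projection onto total spin `Q - 1`, acting on tensor factors `i` and `j`
of `U_Q^{⊗ N}`. -/
noncomputable def pairProj {N Q : ℕ} (i j : Fin N) (ψ : (Fin N → Fin (Q + 1)) → ℂ) :
    (Fin N → Fin (Q + 1)) → ℂ :=
  fun a => coordProj (spinSector Q)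
    (fun bc => ψ (Function.update (Function.update a i bc.1) j bc.2)) (a i, a j)

/-- The Hamiltonian `H_{N,Q} = ∑_{i<j} P^{(1)}_{ij}`. -/
noncomputable def hamiltonian {N Q : ℕ} (ψ : (Fin N → Fin (Q + 1)) → ℂ) :
    (Fin N → Fin (Q + 1)) → ℂ :=
  ∑ i : Fin N, ∑ j : Fin N with i < j, pairProj i j ψ

/-- Antisymmetric tensors, the fermionic space `⋀^N U_Q`. -/
def IsFermionic {N Q : ℕ} (ψ : (Fin N → Fin (Q + 1)) → ℂ) : Prop :=
  ∀ (σ : Equiv.Perm (Fin N)) (a : Fin N → Fin (Q + 1)),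
    ψ (a ∘ σ) = ((Equiv.Perm.sign σ : ℤ) : ℂ) * ψ a

/-- The Laughlin polynomial `∏_{i<j} (u_i v_j - u_j v_i)^3`, with `u_i = X (i, 0)` and
`v_i = X (i, 1)`. -/
noncomputable def laughlinPoly (N : ℕ) : MvPolynomial (Fin N × Fin 2) ℂ :=
  ∏ i : Fin N, ∏ j : Fin N with i < j,
    (MvPolynomial.X (i, 0) * MvPolynomial.X (j, 1) -
      MvPolynomial.X (j, 0) * MvPolynomial.X (i, 1)) ^ 3

/-- The exponent vector of the monomial `∏_i u_i^(a i) v_i^(Q - a i)`. -/
noncomputable def expo {N Q : ℕ} (a : Fin N → Fin (Q + 1)) : Fin N × Fin 2 →₀ ℕ :=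
  Finsupp.equivFunOnFinite.symm fun x => if x.2 = 0 then (a x.1 : ℕ) else Q - (a x.1 : ℕ)

/-- The coordinates of a polynomial of degree `Q` in each spinor `(u_i, v_i)` in the
orthonormal product basis `e_(a 1) ⊗ ⋯ ⊗ e_(a N)`. -/
noncomputable def coords {N : ℕ} (Q : ℕ) (p : MvPolynomial (Fin N × Fin 2) ℂ) :
    (Fin N → Fin (Q + 1)) → ℂ :=
  fun a => MvPolynomial.coeff (expo a) p / ((∏ i, Real.sqrt (Q.choose (a i)) : ℝ) : ℂ)

/-- The orthogonal projection onto the span of the Laughlin vector at flux `Q = 3 (N - 1)`. -/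
noncomputable def laughlinProj (N : ℕ) (ψ : (Fin N → Fin (3 * (N - 1) + 1)) → ℂ) :
    (Fin N → Fin (3 * (N - 1) + 1)) → ℂ :=
  coordProj {coords (3 * (N - 1)) (laughlinPoly N)} ψ

end Vale.Agent.P359.S
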