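import Vale.Agent.P359.Main
import Vale.Agent.P359.Stmt

namespace Vale.Agent.P359

open scoped Matrix

lemma pairSum_conj (Q : ℕ) (A : Matrix (Fin (Q + 1)) (Fin (Q + 1)) ℂ) :
    (S.pairSum A)ᴴ = pairSum Aᴴ := by
  simp [S.pairSum, pairSum, Matrix.conjTranspose_kronecker]

lemma casimir_eq (Q : ℕ) :
    S.casimirOf (S.pairSum (S.spinZ Q)) (S.pairSum (S.spinUp Q)) = casimir Q := by
  rw [S.casimirOf, pairSum_conj]; rfl

lemma sector_eq (Q : ℕ) :
    Submodule.span ℂ (WithLp.toLp 2 '' S.spinSector Q) = spinSector Q := by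
  have : (WithLp.toLp 2 '' S.spinSector Q) =
      (spinSector Q : Set (EuclideanSpace ℂ (Fin (Q + 1) × Fin (Q + 1)))) := by
    ext v
    simp only [Set.mem_image, S.spinSector, Set.mem_setOf_eq, casimir_eq, spinSector,
      SetLike.mem_coe, Module.End.mem_eigenspace_iff]
    constructor
    · rintro ⟨w, hw, rfl⟩
      ext a
      simpa using congrFun hw a
    · intro hv
      refine ⟨v.ofLp, ?_, rfl⟩
      ext a
      simpa using congrFun (congrArg WithLp.ofLp hv) a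
  rw [this, Submodule.span_eq]

lemma pairProj_eq {N Q : ℕ} (i j : Fin N) (ψ : (Fin N → Fin (Q + 1)) → ℂ) :
    S.pairProj i j ψ = (pairProj i j (WithLp.toLp 2 ψ)).ofLp := by
  ext a
  simp only [S.pairProj, S.coordProj, S.spanProj, sector_eq, pairProj]

lemma hamiltonian_eq {N Q : ℕ} (ψ : (Fin N → Fin (Q + 1)) → ℂ) :
    S.hamiltonian ψ = (hamiltonian (WithLp.toLp 2 ψ)).ofLp := by
  simp only [S.hamiltonian, hamiltonian, pairProj_eq, WithLp.ofLp_sum]

lemma reInner_eq {ι : Type} [Fintype ι] (v : ι → ℂ) (w : EuclideanSpace ℂ ι) :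
    S.reInner v w.ofLp = (inner ℂ (WithLp.toLp 2 v : EuclideanSpace ℂ ι) w).re := by
  simp only [S.reInner, PiLp.inner_apply, RCLike.inner_apply, mul_comm]

lemma laughlinProj_eq (N : ℕ) (ψ : (Fin N → Fin (3 * (N - 1) + 1)) → ℂ) :
    S.laughlinProj N ψ = (laughlinProj N (WithLp.toLp 2 ψ)).ofLp := by
  simp only [S.laughlinProj, S.coordProj, S.spanProj, Set.image_singleton, laughlinProj]
  rfl

theorem laughlin_gap' : ∃ N0 : ℕ, ∀ N ≥ N0,
    ∀ ψ : (Fin N → Fin (3 * (N - 1) + 1)) → ℂ, S.IsFermionic ψ →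
      (1 / 10 : ℝ) * S.reInner ψ (ψ - S.laughlinProj N ψ) ≤ S.reInner ψ (S.hamiltonian ψ) := by
  obtain ⟨N0, h⟩ := laughlin_gap
  refine ⟨N0, fun N hN ψ hψ => ?_⟩
  have := h N hN (WithLp.toLp 2 ψ) hψ
  rw [← reInner_eq, ← reInner_eq, ← hamiltonian_eq, WithLp.ofLp_sub, ← laughlinProj_eq] at this
  exact this

end Vale.Agent.P359
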