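import Vale.Agent.P359.Cert
import Vale.Agent.P359.CertKC

namespace Vale.Agent.P359

noncomputable def certKg : List ℚ :=
  [43175863153592370507433 / 2887394160955118032566243328205674858044847030272000,
   14391968183578964299411 / 12664009477873324704237909334235416044056346624000,
   43175917236958601372833 / 527667061578055196009912888926475668502347776000,
   100743815343717875519677 / 18106222701207776333673481482771223919198208000,
   1208925811082835636744649 / 3394916756476458062563777778019604484849664000,
   4428299698603316679433 / 207259875242763007482526115874212728012800,
   1208925819226857684562609 / 1010391891808469661477314814886787049062400,
   402975273180664657217803 / 6476871101336343983828941121069147750400,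
   1208925819602240614773709 / 404804443833521498989308820066821734400,
   402975273204239430612703 / 3066700332072132568100824394445619200,
   1208925819614364783948229 / 230002524905409942607561829583421440,
   402975273204865561415143 / 2129653008383425394514461385031680,
   1208925819614625671782579 / 199654969535946130735730754846720,
   402975273204876282832993 / 2376844875427930127806318510080,
   1208925819614629148999179 / 297105609428491265975789813760,
   402975273204876391013065 / 4951760157141521099596496896,
   1208925819614629174620775 / 928455029464035206174343168,
   1208925819614629174702935 / 77371252455336267181195264,
   1208925819614629174706095 / 9671406556917033397649408,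
   1208925819614629174706175 / 2417851639229258349412352]

theorem cert2 : (101 / 1000 : ℚ) < 1 - k2G certS certG - k2H certH := by decide +kernel

theorem cert3 : chk3 (k3G 60 certS certG (k3H 60 certH (k3O 60 48 0 [1] [1] []))) 60 = true := by
  decide +kernel

theorem certg : dropPos 60 (kgO 79 80 0 [1] []) = some certKg := by decide +kernel

theorem cert4 : finC (certS ^ 2 * 16 ^ 20) 20 certMu certKg certK9 = true := by decide +kernel

theorem certD : degOK 20 certG = true ∧ degOK 60 certG = true ∧ degOKH 60 certH = true := by
  decide +kernel

end Vale.Agent.P359
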