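import Vale.Agent.P359.Cert
import Vale.Agent.P359.CertKA

namespace Vale.Agent.P359

theorem certStep1 : k4All 20 [certG0] [] = certK1 := by decide +kernel

theorem certStep2 : k4All 20 [certG1] certK1 = certK2 := by decide +kernel

theorem certStep3 : k4All 20 [certG2] certK2 = certK3 := by decide +kernel

end Vale.Agent.P359
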