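import Vale.Agent.P359.Cert
import Vale.Agent.P359.CertKB
import Vale.Agent.P359.CertKA

namespace Vale.Agent.P359

theorem certStep4 : k4All 20 [certG3] certK3 = certK4 := by decide +kernel

theorem certStep5 : k4All 20 [certG4] certK4 = certK5 := by decide +kernel

theorem certStep6 : k4All 20 [certG5] certK5 = certK6 := by decide +kernel

end Vale.Agent.P359
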