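import Vale.Agent.P359.Cert
import Vale.Agent.P359.CertKC
import Vale.Agent.P359.CertKB

namespace Vale.Agent.P359

theorem certStep7 : k4All 20 [certG6] certK6 = certK7 := by decide +kernel

theorem certStep8 : k4All 20 [certG7] certK7 = certK8 := by decide +kernel

theorem certStep9 : k4All 20 [certG8] certK8 = certK9 := by decide +kernel

end Vale.Agent.P359
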