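import Mathlib.Data.Rat.Defs
import Mathlib.Data.Rat.Floor
import Mathlib.Data.Nat.Factorial.Basic

/-! The certificate checker: executable definitions only. -/

namespace Vale.Agent.P359

def axpy (c : ℤ) : List ℤ → List ℤ → List ℤ
  | [], y => y
  | x :: xs, [] => Int.mul c x :: axpy c xs []
  | x :: xs, y :: ys => Int.add (Int.mul c x) y :: axpy c xs ys

def mulAux (ca cb : ℤ) : List ℤ → ℕ → ℤ → List ℤ
  | [], _, p => [Int.mul cb p]
  | _ :: _, 0, p => [Int.mul cb p]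
  | c :: l, t + 1, p => Int.add (Int.mul cb p) (Int.mul ca c) :: mulAux ca cb l t c

def mul2 (ca cb : ℤ) (t : ℕ) (l : List ℤ) : List ℤ := mulAux ca cb l (t + 1) 0

def mul3Aux (cs ca cb : ℤ) : List (List ℤ) → ℕ → List ℤ → List (List ℤ)
  | [], _, p => [axpy cs p []]
  | _ :: _, 0, p => [axpy cs p []]
  | l :: L, t + 1, p => axpy cs p (mul2 ca cb t l) :: mul3Aux cs ca cb L t l

def mul3 (cs ca cb : ℤ) (t : ℕ) (L : List (List ℤ)) : List (List ℤ) :=
  match L with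
  | [] => []
  | _ :: _ => mul3Aux cs ca cb L (t + 1) []

/-- multiply a degree `t` list by the `n`-th power of a linear form -/
def pow2 (ca cb : ℤ) (t : ℕ) (l : List ℤ) : ℕ → List ℤ
  | 0 => l
  | n + 1 => mul2 ca cb (t + n) (pow2 ca cb t l n)

def addHead (c : ℤ) (x : List ℤ) : List (List ℤ) → List (List ℤ)
  | [] => [axpy c x []]
  | l :: L => axpy c x l :: L

def embL : List ℤ → ℕ → List (List ℤ)
  | [], _ => []
  | c :: _, 0 => [[c]]
  | c :: l, t + 1 => addHead c (pow2 4 (-4) 0 [1] (t + 1)) (mul3 3 1 2 t (embL l t))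

def odds : List ℤ → List ℤ
  | [] => []
  | [_] => []
  | _ :: y :: l => y :: odds l

def accMat (w : ℤ) (v : List ℤ) : List ℤ → List (List ℤ) → List (List ℤ)
  | [], M => M
  | c :: u, [] => axpy (Int.mul w c) v [] :: accMat w v u []
  | c :: u, r :: M => axpy (Int.mul w c) v r :: accMat w v u M

def accK : List (List ℤ) → List (List ℤ) → ℤ → ℕ → List (List (List ℤ)) → List (List (List ℤ))
  | l :: L, l' :: L', w, k, K =>
      accMat w (odds l') (odds l) (K.headD []) ::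
        accK L L' (Int.mul w (Int.ofNat (4 * (k + 1)))) (k + 1) K.tail
  | _, _, _, _, K => K

def accAt (L L' : List (List ℤ)) (w : ℤ) : ℕ → List (List (List ℤ)) → List (List (List ℤ))
  | 0, K => accK L L' w 0 K
  | n + 1, K => K.headD [] :: accAt L L' w n K.tail

def acc4 (T D : ℕ) (w : ℤ) (L L' : List (List ℤ)) (K : List (List (List ℤ))) :
    List (List (List ℤ)) :=
  accAt L L' (Int.mul w (Int.ofNat (16 ^ (T - D)))) (T - D) K

def mulZ (t : ℕ) (L : List (List ℤ)) : List (List ℤ) := mul3 1 (-1) (-2) t L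

def cross4 (T : ℕ) : List (List (List ℤ)) → ℕ → List (List ℤ) → List (List (List ℤ)) →
    List (List (List ℤ))
  | [], _, _, K => K
  | P :: rest, D, P0, K => cross4 T rest (D + 1) (mulZ D P0) (acc4 T (D + 1) 2 (mulZ D P0) P K)

def mapZ : List (List (List ℤ)) → ℕ → List (List (List ℤ))
  | [], _ => []
  | P :: rest, D => mulZ D P :: mapZ rest (D + 1)

def go4 (T : ℕ) : ℕ → List (List (List ℤ)) → ℕ → List (List (List ℤ)) → List (List (List ℤ))
  | 0, _, _, K => K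
  | _ + 1, [], _, K => K
  | n + 1, P0 :: rest, D, K =>
      go4 T n (mapZ rest (D + 1)) (D + 2) (cross4 T rest D P0 (acc4 T D 1 P0 P0 K))

def embAll : List (List ℤ) → ℕ → List (List (List ℤ))
  | [], _ => []
  | l :: ls, t => embL l t :: embAll ls (t + 1)

/-- a `G` vector: `(q, x0, entries)` -/
abbrev GVec := ℕ × ℤ × List (List ℤ)
/-- an `H` vector: `(h, scale, entries)` -/
abbrev HVec := ℕ × ℕ × List ℤ

def k4All (T : ℕ) : List GVec → List (List (List ℤ)) → List (List (List ℤ))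
  | [], K => K
  | v :: vs, K => k4All T vs (go4 T v.2.2.length (embAll v.2.2 v.1) v.1 K)

/-! rational accumulators -/

def accQ (ν : ℕ) (w : ℚ) : List ℤ → List ℤ → ℤ → ℕ → List ℚ → List ℚ
  | c :: l, c' :: l', f, k, K =>
      (K.headD 0 + w * ((Int.mul f (Int.mul c c') : ℤ) : ℚ)) ::
        accQ ν w l l' (Int.mul f (Int.ofNat (ν * (k + 1)))) (k + 1) K.tail
  | _, _, _, _, K => K

def accQAt (ν : ℕ) (w : ℚ) (l l' : List ℤ) : ℕ → List ℚ → List ℚ
  | 0, K => accQ ν w l l' 1 0 K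
  | n + 1, K => K.headD 0 :: accQAt ν w l l' n K.tail

def mulX (t : ℕ) (l : List ℤ) : List ℤ := mul2 1 2 t l
def mulY (t : ℕ) (l : List ℤ) : List ℤ := mul2 (-1) 1 t l

def cross3 (T : ℕ) (w : ℚ) : List (List ℤ) → ℕ → List ℤ → List ℚ → List ℚ
  | [], _, _, K => K
  | P :: rest, D, P0, K => cross3 T w rest (D + 1) (mulY D P0)
      (accQAt 3 (2 * w / 9 ^ (D + 1)) (mulY D P0) P (T - (D + 1)) K)

def mapY : List (List ℤ) → ℕ → List (List ℤ)
  | [], _ => []
  | P :: rest, D => mulY D P :: mapY rest (D + 1)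

def go3 (T : ℕ) (w : ℚ) : ℕ → List (List ℤ) → ℕ → List ℚ → List ℚ
  | 0, _, _, K => K
  | _ + 1, [], _, K => K
  | n + 1, P0 :: rest, D, K =>
      go3 T w n (mapY rest (D + 1)) (D + 2)
        (cross3 T w rest D P0 (accQAt 3 (w / 9 ^ D) P0 P0 (T - D) K))

def hAll : List ℤ → ℕ → List ℤ → List (List ℤ)
  | [], _, _ => []
  | x :: xs, t, P => axpy x P [] :: hAll xs (t + 1) (mulX t P)

def k3H (T : ℕ) : List HVec → List ℚ → List ℚ
  | [], K => K
  | v :: vs, K => k3H T vs (go3 T (1 / (v.2.1 : ℚ) ^ 2) v.2.2.length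
      (hAll v.2.2 v.1 (pow2 (-1) 1 0 [1] v.1)) v.1 K)

def k2Hone (h : ℕ) : List ℤ → ℕ → ℚ
  | [], _ => 0
  | x :: xs, M => (x : ℚ) ^ 2 * ((M + h).factorial : ℚ) * ((M.factorial : ℚ) * 2 ^ M) +
      k2Hone h xs (M + 1)

def k2H : List HVec → ℚ
  | [] => 0
  | v :: vs => k2Hone v.1 v.2.2 0 / (v.2.1 : ℚ) ^ 2 + k2H vs

def k3Gone (T : ℕ) (S : ℕ) (x0 : ℤ) : List (List ℤ) → ℕ → ℕ → List ℤ → List ℚ → List ℚ
  | [], _, _, _, K => K
  | l :: ls, i, t, P, K => k3Gone T S x0 ls (i + 1) (t + 1) (mulY t P)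
      (accQAt 3 (-(i.factorial : ℚ) / (S : ℚ) ^ 2) l l (T - t)
        (accQAt 3 (-2 * (x0 : ℚ) / ((S : ℚ) ^ 2 * 3 ^ t)) P l (T - t) K))

def k3G (T S : ℕ) : List GVec → List ℚ → List ℚ
  | [], K => K
  | v :: vs, K => k3G T S vs (k3Gone T S v.2.1 v.2.2 0 v.1 (pow2 1 2 0 [1] v.1) K)

def k2G (S : ℕ) : List GVec → ℚ
  | [] => 0
  | v :: vs => (v.2.1 : ℚ) ^ 2 * ((v.1.factorial : ℚ) * 2 ^ v.1) / (S : ℚ) ^ 2 + k2G S vs

/-- three-body part of the objective; `PX`, `PY` are the lists of `X^M`, `Y^M` -/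
def k3O (T : ℕ) : ℕ → ℕ → List ℤ → List ℤ → List ℚ → List ℚ
  | 0, _, _, _, K => K
  | n + 1, M, PX, PY, K => k3O T n (M + 1) (mulX M PX) (mulY M PY)
      (accQAt 3 (((M : ℚ) - 1) / ((M.factorial : ℚ) * 2 ^ M * 9 ^ M)) PY PX (T - M)
        (accQAt 3 (-1 / ((M.factorial : ℚ) * 2 ^ M * 9 ^ (M + 1))) (mulY M PY) (mulY M PX)
          (T - (M + 1)) K))

/-- four-body part of the objective; `P` is the list of `(s - a)^M` -/
def kgO (T : ℕ) : ℕ → ℕ → List ℤ → List ℚ → List ℚ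
  | 0, _, _, K => K
  | n + 1, M, P, K => kgO T n (M + 1) (mulY M P)
      (accQAt 4 (1 / ((M.factorial : ℚ) * 2 ^ M * 4 ^ (M + 1))) P P (T - M) K)

def chk3 : List ℚ → ℕ → Bool
  | [], _ => true
  | _ :: _, 0 => true
  | c :: K, t + 1 => (decide (0 ≤ c) || decide (t = 0) || decide (t = 2)) && chk3 K t

def heads : List (List ℤ) → List ℤ
  | [] => []
  | r :: M => r.headD 0 :: heads M

def tailsS (c : ℤ) : List (List ℤ) → List (List ℤ)
  | [] => []
  | r :: M => axpy c r.tail [] :: tailsS c M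

def psd : ℕ → List (List ℤ) → Bool
  | _, [] => true
  | 0, _ :: _ => false
  | n + 1, r :: M => decide (0 < r.headD 0) &&
      psd n (accMat (-1) (axpy 1 r.tail (heads M)) (axpy 1 r.tail (heads M))
        (tailsS (Int.mul 4 (r.headD 0)) M))

def nullL (r d : ℕ) : List ℤ :=
  if r ≤ d then odds (pow2 1 2 r (pow2 1 (-1) 0 [1] r) (d - r)) else []

def addNull (d : ℕ) (mu : ℤ × ℤ × ℤ × ℤ) (M : List (List ℤ)) : List (List ℤ) :=
  accMat mu.1 (nullL 0 d) (nullL 0 d) (accMat mu.2.1 (nullL 1 d) (nullL 1 d)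
    (accMat mu.2.2.1 (nullL 3 d) (nullL 3 d)
      (accMat (if d % 2 = 0 then mu.2.2.2 else 0) [1] [1] M)))

def finC (W : ℕ) : ℕ → List (ℤ × ℤ × ℤ × ℤ) → List ℚ → List (List (List ℤ)) → Bool
  | 0, _, _, _ => true
  | t + 1, mus, Kg, K =>
      psd (t + 1) (addNull (t + 1) (mus.headD (0, 0, 0, 0))
        (accMat ⌊Kg.headD 0 * (W : ℚ)⌋ [1] [1] (K.headD []))) &&
      finC W t mus.tail Kg.tail K.tail

def dropPos : ℕ → List ℚ → Option (List ℚ)
  | 0, K => some K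
  | n + 1, K => if 0 ≤ K.headD 0 then dropPos n K.tail else none

def degOK (T : ℕ) : List GVec → Bool
  | [] => true
  | v :: vs => decide (v.1 + 2 * v.2.2.length ≤ T + 2) && degOK T vs

def degOKH (T : ℕ) : List HVec → Bool
  | [] => true
  | v :: vs => decide (v.1 + 2 * v.2.2.length ≤ T + 2) && decide (0 < v.2.1) && degOKH T vs

end Vale.Agent.P359
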