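import Vale.Agent.P359.FockCore

namespace Vale.Agent.P359

open Finset
open scoped Matrix

namespace Fk

theorem prod_sub (P j : ℕ) : ∏ k ∈ range j, ((P : ℝ) - k) = j.factorial * P.choose j := by
  induction j with
  | zero => simp
  | succ j ih =>
    rw [Finset.prod_range_succ, ih, Nat.factorial_succ]
    rcases le_or_gt j P with h | h
    · have := congrArg (Nat.cast : ℕ → ℝ) (Nat.choose_succ_right_eq P j)
      push_cast [h] at this ⊢
      linear_combination (-(j.factorial : ℝ)) * this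
    · simp [Nat.choose_eq_zero_of_lt h, Nat.choose_eq_zero_of_lt (Nat.lt_succ_of_lt h)]

theorem gam_eq {Q : ℕ} (hQ : 1 ≤ Q) (j : ℕ) :
    gam (1 / (Q : ℝ)) j = (j.factorial : ℝ) ^ 2 * Q.choose j / (Q : ℝ) ^ j := by
  have hQ' : (0 : ℝ) < Q := by exact_mod_cast hQ
  rw [gam, Finset.prod_congr rfl fun (k : ℕ) _ =>
    (show 1 - (k : ℝ) * (1 / (Q : ℝ)) = ((Q : ℝ) - k) / Q by field_simp),
    Finset.prod_div_distrib, prod_sub, Finset.prod_const, Finset.card_range]
  ring

theorem nrm_eq {Q : ℕ} (hQ : 1 ≤ Q) (M : ℕ) :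
    nrm (1 / (Q : ℝ)) M = (M.factorial : ℝ) ^ 2 * (2 * Q - 2).choose M / (Q : ℝ) ^ M := by
  have hQ' : (0 : ℝ) < Q := by exact_mod_cast hQ
  have e : ((2 * Q - 2 : ℕ) : ℝ) = 2 * Q - 2 := by
    rw [Nat.cast_sub (by omega)]; push_cast; ring
  rw [nrm, Finset.prod_congr rfl fun (k : ℕ) _ =>
    (show 2 - ((k : ℝ) + 2) * (1 / (Q : ℝ)) = (((2 * Q - 2 : ℕ) : ℝ) - k) / Q by
      rw [e]; field_simp; ring),
    Finset.prod_div_distrib, prod_sub, Finset.prod_const, Finset.card_range]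
  ring

theorem sqrt_gam {Q : ℕ} (hQ : 1 ≤ Q) (j : ℕ) :
    Real.sqrt (gam (1 / (Q : ℝ)) j) =
      j.factorial * Real.sqrt (Q.choose j) / Real.sqrt Q ^ j := by
  rw [gam_eq hQ, Real.sqrt_div (by positivity), Real.sqrt_mul (by positivity),
    Real.sqrt_sq (by positivity)]
  congr 1
  rw [Real.sqrt_eq_iff_mul_self_eq (by positivity) (by positivity), ← mul_pow,
    Real.mul_self_sqrt (by positivity)]

/-- Annihilation operators indexed by naturals. -/
def an' (Q j : ℕ) : Matrix (Finset (Fin (Q + 1))) (Finset (Fin (Q + 1))) ℝ :=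
  if h : j < Q + 1 then an (⟨j, h⟩ : Fin (Q + 1)) else 0

/-- Rescaled annihilation operators. -/
noncomputable def cc (Q j : ℕ) : Matrix (Finset (Fin (Q + 1))) (Finset (Fin (Q + 1))) ℝ :=
  Real.sqrt (gam (1 / (Q : ℝ)) j) • an' Q j

theorem cc_cc (Q i j : ℕ) : cc Q i * cc Q j = -(cc Q j * cc Q i) := by
  have : an' Q i * an' Q j = -(an' Q j * an' Q i) := by
    unfold an'
    split_ifs
    · exact an_an _ _
    all_goals simp
  rw [cc, cc, smul_mul_smul_comm, smul_mul_smul_comm, this, smul_neg, mul_comm (Real.sqrt _)]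

theorem cc_cs {Q : ℕ} (hQ : 1 ≤ Q) (i j : ℕ) :
    cc Q i * star (cc Q j) + star (cc Q j) * cc Q i =
      if i = j then (gam (1 / (Q : ℝ)) i) • 1 else 0 := by
  have e : an' Q i * star (an' Q j) + star (an' Q j) * an' Q i =
      if i = j ∧ i < Q + 1 then 1 else 0 := by
    unfold an'
    by_cases h1 : i < Q + 1 <;> by_cases h2 : j < Q + 1
    · simp only [h1, h2, dif_pos, and_true]
      have := an_cr (⟨i, h1⟩ : Fin (Q + 1)) ⟨j, h2⟩
      simp only [Fin.mk.injEq] at this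
      exact this
    · have : i ≠ j := by omega
      simp [h2, this]
    · simp [h1]
    · simp [h1]
  simp only [cc, star_smul, star_trivial, smul_mul_smul_comm, mul_comm (Real.sqrt (gam _ j)),
    ← smul_add, e]
  by_cases h : i = j
  · subst h
    by_cases h1 : i < Q + 1
    · rw [Real.mul_self_sqrt (by rw [gam_eq hQ]; positivity)]
      simp [h1]
    · simp [h1, gam_eq hQ, Nat.choose_eq_zero_of_lt (show Q < i by omega), -one_div]
  · simp [h]

theorem cc_zero {Q j : ℕ} (h : Q < j) : cc Q j = 0 := by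
  simp [cc, an', show ¬ j < Q + 1 by omega]

theorem comm_aux {Q : ℕ} (hQ : 1 ≤ Q) (i j k : ℕ) :
    cc Q i * (star (cc Q j) * cc Q k) - star (cc Q j) * cc Q k * cc Q i =
      if i = j then gam (1 / (Q : ℝ)) i • cc Q k else 0 := by
  have e : cc Q i * (star (cc Q j) * cc Q k) - star (cc Q j) * cc Q k * cc Q i =
      (cc Q i * star (cc Q j) + star (cc Q j) * cc Q i) * cc Q k := by
    rw [mul_assoc (star _), cc_cc Q k i]
    noncomm_ring
  rw [e, cc_cs hQ]
  split_ifs <;> simp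

theorem gam_pos {Q : ℕ} (hQ : 1 ≤ Q) {j : ℕ} (hj : j ≤ Q) : 0 < gam (1 / (Q : ℝ)) j := by
  have : (0 : ℝ) < Q.choose j := by exact_mod_cast Nat.choose_pos hj
  have hQ' : (0 : ℝ) < Q := by exact_mod_cast hQ
  rw [gam_eq hQ]
  positivity

/-- The lowering generator. -/
noncomputable def DD (Q : ℕ) : Matrix (Finset (Fin (Q + 1))) (Finset (Fin (Q + 1))) ℝ :=
  ∑ j ∈ range Q, (gam (1 / (Q : ℝ)) j)⁻¹ • (star (cc Q j) * cc Q (j + 1))

theorem star_DD (Q : ℕ) : star (DD Q) =
    ∑ j ∈ range Q, (gam (1 / (Q : ℝ)) j)⁻¹ • (star (cc Q (j + 1)) * cc Q j) := by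
  simp [DD, star_sum]

theorem car {Q : ℕ} (hQ : 1 ≤ Q) : CAR Q (cc Q) (DD Q) where
  cc := cc_cc Q
  cs := cc_cs hQ
  zero _ := cc_zero
  comD i := by
    simp only [DD, Finset.mul_sum, Finset.sum_mul, mul_smul_comm, smul_mul_assoc,
      ← Finset.sum_sub_distrib, ← smul_sub, comm_aux hQ, smul_ite, smul_zero, Finset.sum_ite_eq,
      Finset.mem_range]
    split_ifs with h
    · rw [smul_smul, inv_mul_cancel₀ (gam_pos hQ h.le).ne', one_smul]
    · rw [cc_zero (by omega)]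
  comR i := by
    have hQ' : (0 : ℝ) < Q := by exact_mod_cast hQ
    simp only [star_DD, Finset.mul_sum, Finset.sum_mul, mul_smul_comm, smul_mul_assoc,
      ← Finset.sum_sub_distrib, ← smul_sub, comm_aux hQ, smul_ite, smul_zero, add_left_inj,
      Finset.sum_ite_eq, Finset.mem_range]
    split_ifs with h
    · rw [smul_smul]
      congr 1
      rw [inv_mul_eq_iff_eq_mul₀ (gam_pos hQ h.le).ne', gam, gam, Finset.prod_range_succ,
        Nat.factorial_succ]
      push_cast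
      ring
    · rcases (not_lt.mp h).eq_or_lt with h | h
      · rw [← h, mul_one_div_cancel hQ'.ne', sub_self, mul_zero, zero_smul]
      · rw [cc_zero h, smul_zero]
  comR0 := by
    simp only [star_DD, Finset.mul_sum, Finset.sum_mul, mul_smul_comm, smul_mul_assoc,
      ← Finset.sum_sub_distrib, ← smul_sub, comm_aux hQ]
    simp

/-- Normalising constant. -/
noncomputable def sM (Q M : ℕ) : ℝ := M.factorial / (2 * Real.sqrt Q ^ (M + 1))

theorem pairB_eq {Q : ℕ} (hQ : 1 ≤ Q) (M : ℕ) :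
    pairB (cc Q) M = ∑ x : Fin (Q + 1), ∑ y : Fin (Q + 1),
      (sM Q M * tau Q M x y) • (an y * an x) := by
  have hQ' : (0 : ℝ) < Q := by exact_mod_cast hQ
  have hs : 0 < Real.sqrt Q := Real.sqrt_pos.mpr hQ'
  let g : ℕ → ℕ → Matrix (Finset (Fin (Q + 1))) (Finset (Fin (Q + 1))) ℝ :=
    fun x y => (sM Q M * tau Q M x y) • (an' Q y * an' Q x)
  have e1 : ∑ x : Fin (Q + 1), ∑ y : Fin (Q + 1), (sM Q M * tau Q M x y) • (an y * an x) =
      ∑ x ∈ range (Q + 1), ∑ y ∈ range (Q + 1), g x y := by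
    rw [Finset.sum_range]
    refine Finset.sum_congr rfl fun x _ => ?_
    rw [Finset.sum_range]
    refine Finset.sum_congr rfl fun y _ => ?_
    simp [g, an', x.2, y.2, Nat.lt_succ_iff.mp x.2, Nat.lt_succ_iff.mp y.2]
  have e2 : ∀ x, ∑ y ∈ range (Q + 1), g x y = g x (M + 1 - x) := by
    intro x
    refine Finset.sum_eq_single _ (fun y _ hy => ?_) fun h => ?_
    · simp [g, tau, show ¬ x + y = M + 1 by omega]
    · simp only [g, an', dif_neg fun h' => h (Finset.mem_range.mpr h'), zero_mul, smul_zero]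
  have e3 : ∑ x ∈ range (Q + 1), g x (M + 1 - x) = ∑ x ∈ range (M + 2), g x (M + 1 - x) := by
    rw [Finset.sum_subset (Finset.range_subset_range.mpr (show Q + 1 ≤ Q + 1 + (M + 2) by omega)),
      Finset.sum_subset (Finset.range_subset_range.mpr (show M + 2 ≤ Q + 1 + (M + 2) by omega))]
    · intro x _ hx
      rw [Finset.mem_range] at hx
      simp [g, tau, show ¬ x + (M + 1 - x) = M + 1 by omega]
    · intro x _ hx
      simp only [g, an', dif_neg fun h' => hx (Finset.mem_range.mpr h'), mul_zero, smul_zero]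
  rw [e1, Finset.sum_congr rfl fun x _ => e2 x, e3, pairB]
  refine Finset.sum_congr rfl fun x hx => ?_
  rw [Finset.mem_range] at hx
  obtain ⟨y, hy⟩ : ∃ y, M + 1 = x + y := ⟨M + 1 - x, by omega⟩
  simp only [g, cc, smul_mul_smul_comm, smul_smul, sqrt_gam hQ, kap, sM, tau, hy,
    Nat.add_sub_cancel_left, if_true]
  congr 1
  rw [Real.sqrt_mul (by positivity), pow_add]
  field_simp

theorem sM_sq {Q : ℕ} (hQ : 1 ≤ Q) {M : ℕ} (hM : M < 2 * Q - 1) :
    (nrm (1 / (Q : ℝ)) M)⁻¹ * sM Q M ^ 2 = 1 / (4 * (Q : ℝ) * ((2 * Q - 2).choose M : ℝ)) := by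
  have hQ' : (0 : ℝ) < Q := by exact_mod_cast hQ
  have : (0 : ℝ) < (2 * Q - 2).choose M := by exact_mod_cast Nat.choose_pos (by omega)
  rw [nrm_eq hQ, sM, div_pow, mul_pow, ← pow_mul, mul_comm (M + 1), pow_mul, Real.sq_sqrt hQ'.le]
  field_simp
  ring

theorem ham_form {ι : Type} [Fintype ι] [DecidableEq ι] (Q : ℕ) (c : ℕ → Matrix ι ι ℝ) (F : ι → ℝ) :
    F ⬝ᵥ (ham Q c).mulVec F = ∑ M ∈ range (2 * Q - 1),
      (nrm (1 / (Q : ℝ)) M)⁻¹ * (pairB c M *ᵥ F ⬝ᵥ pairB c M *ᵥ F) := by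
  simp only [ham, Matrix.sum_mulVec, dotProduct_sum, Matrix.smul_mulVec, dotProduct_smul,
    smul_eq_mul]
  refine Finset.sum_congr rfl fun M _ => ?_
  rw [← Matrix.mulVec_mulVec, show star (pairB c M) = (pairB c M)ᵀ from rfl,
    Matrix.mulVec_transpose, dotProduct_comm, ← Matrix.dotProduct_mulVec]

end Fk

open Fk in
/-- TASK T2. A matrix model of the CAR, and the transfer of the gap to antisymmetric functions. -/
theorem fock_model (Q : ℕ) (hQ : 1 ≤ Q) :
    ∃ (c : ℕ → Matrix (Finset (Fin (Q + 1))) (Finset (Fin (Q + 1))) ℝ)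
      (D : Matrix (Finset (Fin (Q + 1))) (Finset (Fin (Q + 1))) ℝ),
      CAR Q c D ∧ ∀ δ : ℝ, 0 ≤ δ → MatGap δ (ham Q c) → RealGap δ Q := by
  refine ⟨cc Q, DD Q, car hQ, fun δ hδ hg n ψ hψ => ?_⟩
  have hQ' : (0 : ℝ) < Q := by exact_mod_cast hQ
  let vac : Finset (Fin (Q + 1)) → ℝ := Pi.single ∅ 1
  have h1 := an_an (α := Fin (Q + 1))
  have h2 := an_cr (α := Fin (Q + 1))
  have h3 : ∀ x : Fin (Q + 1), an x *ᵥ vac = 0 := an_vac
  have h4 : vac ⬝ᵥ vac = 1 := by simp [vac]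
  have kpB : ∀ M F r, kp an vac n (pairB (cc Q) M *ᵥ F) r =
      sM Q M * amp Q n M (kp an vac (n + 2) F) r := by
    intro M F r
    rw [pairB_eq hQ, kp_pair]
    simp only [amp, Finset.mul_sum, mul_assoc]
  obtain ⟨χ, c1, c2⟩ := hg (io an vac (n + 2) ψ)
  have npos : ∀ M, M < 2 * Q - 1 → 0 < (nrm (1 / (Q : ℝ)) M)⁻¹ := fun M hM => by
    have : (0 : ℝ) < (2 * Q - 2).choose M := by exact_mod_cast Nat.choose_pos (by omega)
    rw [nrm_eq hQ]
    positivity
  refine ⟨kp an vac (n + 2) χ, kp_anti h1 _ _, fun M hM r => ?_, ?_⟩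
  · have e := ham_form Q (cc Q) χ
    have nn : ∀ v : Finset (Fin (Q + 1)) → ℝ, 0 ≤ v ⬝ᵥ v := fun v =>
      Finset.sum_nonneg fun i _ => mul_self_nonneg _
    rw [c1, dotProduct_zero, eq_comm, Finset.sum_eq_zero_iff_of_nonneg fun M hM =>
      mul_nonneg (npos M (Finset.mem_range.mp hM)).le (nn _)] at e
    have e2 := (mul_eq_zero.mp (e M (Finset.mem_range.mpr hM))).resolve_left (npos M hM).ne'
    rw [dotProduct_self_eq_zero] at e2
    have e3 := kpB M χ r
    rw [e2, kp, Matrix.mulVec_zero, dotProduct_zero] at e3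
    exact (mul_eq_zero.mp e3.symm).resolve_left (by unfold sM; positivity)
  · have e1 : ∀ v, ψ v - kp an vac (n + 2) χ v = kp an vac (n + 2) (io an vac (n + 2) ψ - χ) v := by
      intro v
      conv_lhs => rw [← kp_io h2 h3 h4 (n + 2) ψ hψ]
      simp only [kp, Matrix.mulVec_sub, dotProduct_sub]
    have e2 := kp_le h1 h2 h3 h4 (n + 2) (io an vac (n + 2) ψ - χ)
    have e3 : io an vac (n + 2) ψ ⬝ᵥ (ham Q (cc Q)).mulVec (io an vac (n + 2) ψ) =
        1 / (n.factorial : ℝ) * energy Q n ψ := by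
      rw [ham_form, energy, Finset.mul_sum]
      refine Finset.sum_congr rfl fun M hM => ?_
      have a1 : pairB (cc Q) M *ᵥ io an vac (n + 2) ψ =
          io an vac n fun r => sM Q M * amp Q n M ψ r := by
        rw [pairB_eq hQ, pair_io h2 h3 n _ ψ hψ]
        simp only [amp, Finset.mul_sum, mul_assoc]
      have a2 : Anti fun r => sM Q M * amp Q n M ψ r := by
        have := kp_anti (vac := vac) h1 n (pairB (cc Q) M *ᵥ io an vac (n + 2) ψ)
        rwa [show kp an vac n (pairB (cc Q) M *ᵥ io an vac (n + 2) ψ) =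
          fun r => sM Q M * amp Q n M ψ r from funext fun r => by
            rw [kpB, kp_io h2 h3 h4 (n + 2) ψ hψ]] at this
      rw [a1, io_norm h2 h3 h4 n _ a2]
      simp only [mul_pow, ← Finset.mul_sum, ← Finset.sum_div]
      rw [div_eq_mul_one_div (∑ _, _), ← sM_sq hQ (Finset.mem_range.mp hM)]
      ring
    simp only [e1]
    have e4 := mul_le_mul_of_nonneg_left e2 hδ
    have e5 := mul_le_mul_of_nonneg_left c2 (show (0 : ℝ) ≤ (n + 2).factorial by positivity)
    rw [e3] at e5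
    have e6 : ((n + 2).factorial : ℝ) * (1 / (n.factorial : ℝ) * energy Q n ψ) =
        ((n : ℝ) + 2) * ((n : ℝ) + 1) * energy Q n ψ := by
      rw [Nat.factorial_succ, Nat.factorial_succ]
      push_cast
      field_simp
      ring
    linarith

end Vale.Agent.P359
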