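import Vale.Agent.P359.Kernel

namespace Vale.Agent.P359

open Finset
open scoped Matrix

namespace Fk

/-! Jordan-Wigner matrices. -/

section jw

variable {α : Type} [Fintype α] [LinearOrder α]

/-- Sign of a mode relative to an occupation set. -/
def sg (S : Finset α) (x : α) : ℝ := (-1) ^ (S.filter (· < x)).card

/-- Annihilation operator. -/
def an (x : α) : Matrix (Finset α) (Finset α) ℝ :=
  Matrix.of fun S T => if x ∉ S ∧ T = insert x S then sg S x else 0

omit [Fintype α] in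
theorem sg_sq (S : Finset α) (x : α) : sg S x * sg S x = 1 := by
  rw [sg, ← mul_pow]; simp

omit [Fintype α] in
theorem sg_insert {S : Finset α} {y : α} (hy : y ∉ S) (x : α) :
    sg (insert y S) x = (if y < x then -1 else 1) * sg S x := by
  unfold sg
  rw [Finset.filter_insert]
  split_ifs with h
  · rw [Finset.card_insert_of_notMem (fun h' => hy (Finset.mem_filter.mp h').1), pow_succ']
  · rw [one_mul]

omit [Fintype α] in
theorem sg_erase {S : Finset α} {y : α} (hy : y ∈ S) (x : α) :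
    sg (S.erase y) x = (if y < x then -1 else 1) * sg S x := by
  conv_rhs => rw [← Finset.insert_erase hy, sg_insert (Finset.notMem_erase y S)]
  split_ifs <;> simp

theorem an_mulVec (x : α) (F : Finset α → ℝ) (S : Finset α) :
    (an x *ᵥ F) S = if x ∈ S then 0 else sg S x * F (insert x S) := by
  by_cases h : x ∈ S <;> simp [an, Matrix.mulVec, dotProduct, h]

theorem cr_mulVec (x : α) (F : Finset α → ℝ) (T : Finset α) :
    ((an x)ᵀ *ᵥ F) T = if x ∈ T then sg T x * F (T.erase x) else 0 := by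
  simp only [an, Matrix.mulVec, dotProduct, Matrix.transpose_apply, Matrix.of_apply]
  split_ifs with h
  · rw [Finset.sum_eq_single (T.erase x)]
    · simp [Finset.insert_erase h, sg_erase h]
    · intro S _ hS
      rw [if_neg, zero_mul]
      rintro ⟨h1, rfl⟩
      exact hS (Finset.erase_insert h1).symm
    · simp
  · refine Finset.sum_eq_zero fun S _ => ?_
    rw [if_neg, zero_mul]
    rintro ⟨-, rfl⟩
    exact h (Finset.mem_insert_self _ _)

theorem an_an (x y : α) : an x * an y = -(an y * an x) := by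
  refine Matrix.ext_iff_mulVec.mpr fun F => ?_
  funext S
  rw [Matrix.neg_mulVec, ← Matrix.mulVec_mulVec, ← Matrix.mulVec_mulVec, Pi.neg_apply]
  simp only [an_mulVec, Finset.mem_insert]
  rcases lt_trichotomy x y with h | h | h
  · by_cases h1 : x ∈ S <;> by_cases h2 : y ∈ S <;>
      simp [h1, h2, h.ne, h.ne', sg_insert, h, h.not_gt, Finset.insert_comm x y, mul_left_comm]
  · subst h
    by_cases h1 : x ∈ S <;> simp [h1]
  · by_cases h1 : x ∈ S <;> by_cases h2 : y ∈ S <;>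
      simp [h1, h2, h.ne, h.ne', sg_insert, h, h.not_gt, Finset.insert_comm x y, mul_left_comm]

theorem an_cr (x y : α) : an x * (an y)ᵀ + (an y)ᵀ * an x = if x = y then 1 else 0 := by
  refine Matrix.ext_iff_mulVec.mpr fun F => ?_
  funext S
  rw [Matrix.add_mulVec, ← Matrix.mulVec_mulVec, ← Matrix.mulVec_mulVec, Pi.add_apply]
  simp only [an_mulVec, cr_mulVec, Finset.mem_insert, Finset.mem_erase]
  rcases lt_trichotomy x y with h | h | h
  · by_cases h1 : x ∈ S <;> by_cases h2 : y ∈ S <;>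
      simp [h1, h2, h.ne, h.ne', sg_insert, sg_erase, h, h.not_gt, mul_left_comm,
        Finset.erase_insert_of_ne h.ne]
  · subst h
    by_cases h1 : x ∈ S
    · simp [h1, sg_erase, ← mul_assoc, sg_sq]
    · simp [h1, sg_insert, ← mul_assoc, sg_sq]
  · by_cases h1 : x ∈ S <;> by_cases h2 : y ∈ S <;>
      simp [h1, h2, h.ne, h.ne', sg_insert, sg_erase, h, h.not_gt, mul_left_comm,
        Finset.erase_insert_of_ne h.ne']

theorem an_vac (x : α) : an x *ᵥ (Pi.single ∅ 1 : Finset α → ℝ) = 0 := by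
  funext S
  rw [an_mulVec]
  simp [Pi.single_apply]

end jw

/-! Transfer between antisymmetric functions and Fock vectors. -/

theorem anti_cons {α : Type*} {N : ℕ} {ψ : (Fin (N + 1) → α) → ℝ} (h : Anti ψ) (x : α) :
    Anti fun r : Fin N → α => ψ (Fin.cons x r) := by
  intro s r
  have := h (Equiv.Perm.decomposeFin.symm (0, s)) (Fin.cons x r)
  rw [Equiv.Perm.decomposeFin.symm_sign, if_pos rfl, one_mul] at this
  simp only [← this]
  congr 1
  funext i
  refine Fin.cases ?_ (fun j => ?_) i <;> simp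

theorem anti_swap {α : Type*} {N : ℕ} {ψ : (Fin (N + 2) → α) → ℝ} (h : Anti ψ) (x y : α)
    (r : Fin N → α) : ψ (Fin.cons x (Fin.cons y r)) = -ψ (Fin.cons y (Fin.cons x r)) := by
  have := h (Equiv.swap 0 1) (Fin.cons y (Fin.cons x r))
  rw [Equiv.Perm.sign_swap zero_ne_one] at this
  simp only [Units.val_neg, Units.val_one, Int.cast_neg, Int.cast_one, neg_mul, one_mul] at this
  rw [← this]
  congr 1
  funext i
  refine Fin.cases ?_ (fun j => Fin.cases ?_ (fun k => ?_) j) i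
  · simp
  · simp
  · simp [Equiv.swap_apply_of_ne_of_ne (Fin.succ_ne_zero _) (Fin.succ_succ_ne_one k)]

variable {α ι : Type} [Fintype α] [DecidableEq α] [Fintype ι] [DecidableEq ι]

/-- Embedding of functions into Fock space. -/
noncomputable def io (a : α → Matrix ι ι ℝ) (vac : ι → ℝ) :
    (N : ℕ) → ((Fin N → α) → ℝ) →ₗ[ℝ] (ι → ℝ)
  | 0 => (LinearMap.proj (Fin.elim0 : Fin 0 → α) : ((Fin 0 → α) → ℝ) →ₗ[ℝ] ℝ).smulRight vac
  | N + 1 => (1 / ((N : ℝ) + 1)) • ∑ x, (a x)ᵀ.mulVecLin ∘ₗ io a vac N ∘ₗ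
      LinearMap.funLeft ℝ ℝ (fun r : Fin N → α => (Fin.cons x r : Fin (N + 1) → α))

/-- Words in the annihilation operators. -/
def wd (a : α → Matrix ι ι ℝ) : (N : ℕ) → (Fin N → α) → Matrix ι ι ℝ
  | 0, _ => 1
  | N + 1, v => wd a N (Fin.tail v) * a (v 0)

/-- Wave function of a Fock vector. -/
def kp (a : α → Matrix ι ι ℝ) (vac : ι → ℝ) (N : ℕ) (F : ι → ℝ) (v : Fin N → α) : ℝ :=
  vac ⬝ᵥ wd a N v *ᵥ F

variable {a : α → Matrix ι ι ℝ} {vac : ι → ℝ}

omit [DecidableEq α] [DecidableEq ι] in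
theorem io_succ (N : ℕ) (ψ : (Fin (N + 1) → α) → ℝ) :
    io a vac (N + 1) ψ = (1 / ((N : ℝ) + 1)) • ∑ x, (a x)ᵀ *ᵥ io a vac N fun r => ψ (Fin.cons x r) := by
  simp only [io, LinearMap.smul_apply, LinearMap.sum_apply, LinearMap.comp_apply,
    Matrix.mulVecLin_apply]
  rfl

omit [Fintype α] [DecidableEq α] in
theorem kp_cons (N : ℕ) (F : ι → ℝ) (x : α) (r : Fin N → α) :
    kp a vac (N + 1) F (Fin.cons x r) = kp a vac N (a x *ᵥ F) r := by
  simp [kp, wd]

theorem an_io (h2 : ∀ x y, a x * (a y)ᵀ + (a y)ᵀ * a x = if x = y then 1 else 0)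
    (h3 : ∀ x, a x *ᵥ vac = 0) (N : ℕ) : ∀ (ψ : (Fin (N + 1) → α) → ℝ), Anti ψ → ∀ y,
    a y *ᵥ io a vac (N + 1) ψ = io a vac N fun r => ψ (Fin.cons y r) := by
  have key : ∀ (G : α → ι → ℝ) (y : α),
      a y *ᵥ ∑ x, (a x)ᵀ *ᵥ G x = G y - ∑ x, (a x)ᵀ *ᵥ (a y *ᵥ G x) := by
    intro G y
    rw [Matrix.mulVec_sum, eq_sub_iff_add_eq, ← Finset.sum_add_distrib]
    simp only [Matrix.mulVec_mulVec, ← Matrix.add_mulVec, h2]
    rw [Finset.sum_eq_single y]
    · simp
    · intro b _ hb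
      simp [hb.symm]
    · simp
  induction N with
  | zero =>
    intro ψ _ y
    rw [io_succ, Matrix.mulVec_smul, key]
    simp [io, Matrix.mulVec_smul, h3]
  | succ N ih =>
    intro ψ hψ y
    rw [io_succ, Matrix.mulVec_smul, key]
    have e : ∀ x, a y *ᵥ io a vac (N + 1) (fun r => ψ (Fin.cons x r)) =
        -io a vac N fun r => ψ (Fin.cons y (Fin.cons x r)) := by
      intro x
      rw [ih _ (anti_cons hψ x), ← map_neg]
      congr 1
      funext r
      exact anti_swap hψ x y r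
    simp only [e, Matrix.mulVec_neg, Finset.sum_neg_distrib, sub_neg_eq_add]
    rw [io_succ]
    generalize (∑ x, (a x)ᵀ *ᵥ io a vac N fun r => ψ (Fin.cons y (Fin.cons x r))) = V
    rw [smul_add, smul_smul, ← add_smul]
    congr 1
    push_cast
    field_simp
    ring

omit [DecidableEq α] in
theorem io_dot (N : ℕ) : ∀ (ψ : (Fin N → α) → ℝ) (F : ι → ℝ),
    io a vac N ψ ⬝ᵥ F = (1 / (N.factorial : ℝ)) * ∑ v, ψ v * kp a vac N F v := by
  induction N with
  | zero =>
    intro ψ F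
    simp [io, kp, wd, Subsingleton.elim (default : Fin 0 → α) Fin.elim0]
  | succ N ih =>
    intro ψ F
    rw [io_succ, smul_dotProduct, sum_dotProduct, Ker.sumCons]
    simp only [Matrix.mulVec_transpose, ← Matrix.dotProduct_mulVec, ih, kp_cons, ← Finset.mul_sum,
      smul_eq_mul, Nat.factorial_succ]
    push_cast
    field_simp

theorem kp_io (h2 : ∀ x y, a x * (a y)ᵀ + (a y)ᵀ * a x = if x = y then 1 else 0)
    (h3 : ∀ x, a x *ᵥ vac = 0) (h4 : vac ⬝ᵥ vac = 1) (N : ℕ) :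
    ∀ (ψ : (Fin N → α) → ℝ), Anti ψ → kp a vac N (io a vac N ψ) = ψ := by
  induction N with
  | zero =>
    intro ψ _
    funext v
    simp [io, kp, wd, h4, Subsingleton.elim v Fin.elim0]
  | succ N ih =>
    intro ψ hψ
    funext v
    rw [← Fin.cons_self_tail v, kp_cons, an_io h2 h3 N ψ hψ, ih _ (anti_cons hψ _)]

omit [Fintype α] [DecidableEq α] in
theorem wd_swap (h1 : ∀ x y, a x * a y = -(a y * a x)) (N : ℕ) :
    ∀ (i : Fin N) (v : Fin (N + 1) → α),
      wd a (N + 1) (v ∘ Equiv.swap i.castSucc i.succ) = -wd a (N + 1) v := by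
  induction N with
  | zero => exact fun i => i.elim0
  | succ N ih =>
    intro i v
    refine Fin.cases ?_ (fun j => ?_) i
    · have e : Fin.tail (Fin.tail (v ∘ Equiv.swap (0 : Fin (N + 2)) 1)) = Fin.tail (Fin.tail v) := by
        funext k
        simp [Fin.tail, Equiv.swap_apply_of_ne_of_ne (Fin.succ_ne_zero _) (Fin.succ_succ_ne_one k)]
      simp only [wd, Fin.castSucc_zero, Fin.succ_zero_eq_one, e, mul_assoc]
      rw [h1]
      simp [Fin.tail]
    · have e : Fin.tail (v ∘ Equiv.swap j.succ.castSucc j.succ.succ) =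
          Fin.tail v ∘ Equiv.swap j.castSucc j.succ := by
        funext k
        simp only [Fin.tail, Function.comp_apply, ← Fin.succ_castSucc]
        rw [(Fin.succ_injective _).swap_apply]
      have e2 : (v ∘ Equiv.swap j.succ.castSucc j.succ.succ) 0 = v 0 := by
        rw [Function.comp_apply, Equiv.swap_apply_of_ne_of_ne]
        · rw [← Fin.succ_castSucc]
          exact (Fin.succ_ne_zero _).symm
        · exact (Fin.succ_ne_zero _).symm
      rw [wd, e, e2, ih, neg_mul]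
      rfl

omit [Fintype α] [DecidableEq α] in
theorem kp_anti (h1 : ∀ x y, a x * a y = -(a y * a x)) (N : ℕ) (F : ι → ℝ) :
    Anti (kp a vac N F) := by
  intro s
  rcases N with _ | N
  · intro v
    simp [kp, wd, Subsingleton.elim s 1]
  have hs : s ∈ (⊤ : Submonoid (Equiv.Perm (Fin (N + 1)))) := trivial
  rw [← Equiv.Perm.mclosure_swap_castSucc_succ] at hs
  induction hs using Submonoid.closure_induction with
  | mem s hs =>
    obtain ⟨i, rfl⟩ := hs
    intro v
    rw [kp, wd_swap h1, Equiv.Perm.sign_swap (Fin.castSucc_lt_succ).ne]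
    simp [kp, Matrix.neg_mulVec]
  | one => simp
  | mul s t _ _ hs ht =>
    intro v
    rw [Equiv.Perm.coe_mul, ← Function.comp_assoc, ht, hs, Equiv.Perm.sign_mul]
    push_cast
    ring

theorem io_norm (h2 : ∀ x y, a x * (a y)ᵀ + (a y)ᵀ * a x = if x = y then 1 else 0)
    (h3 : ∀ x, a x *ᵥ vac = 0) (h4 : vac ⬝ᵥ vac = 1) (N : ℕ) (ψ : (Fin N → α) → ℝ) (hψ : Anti ψ) :
    io a vac N ψ ⬝ᵥ io a vac N ψ = (1 / (N.factorial : ℝ)) * ∑ v, ψ v ^ 2 := by
  rw [io_dot, kp_io h2 h3 h4 N ψ hψ]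
  simp only [sq]

theorem kp_le (h1 : ∀ x y, a x * a y = -(a y * a x))
    (h2 : ∀ x y, a x * (a y)ᵀ + (a y)ᵀ * a x = if x = y then 1 else 0)
    (h3 : ∀ x, a x *ᵥ vac = 0) (h4 : vac ⬝ᵥ vac = 1) (N : ℕ) (F : ι → ℝ) :
    ∑ v, kp a vac N F v ^ 2 ≤ N.factorial * (F ⬝ᵥ F) := by
  have e1 := io_norm h2 h3 h4 N _ (kp_anti (vac := vac) h1 N F)
  have e2 := io_dot (a := a) (vac := vac) N (kp a vac N F) F
  simp only [← sq] at e2
  have e3 : 0 ≤ (F - io a vac N (kp a vac N F)) ⬝ᵥ (F - io a vac N (kp a vac N F)) :=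
    Finset.sum_nonneg fun i _ => mul_self_nonneg _
  rw [sub_dotProduct, dotProduct_sub, dotProduct_sub, dotProduct_comm F (io _ _ _ _), e1, e2] at e3
  have hN : (0 : ℝ) < N.factorial := by positivity
  rw [← div_le_iff₀' hN, div_eq_mul_one_div, mul_comm]
  linarith

omit [DecidableEq α] in
theorem kp_pair (n : ℕ) (t : α → α → ℝ) (F : ι → ℝ) (r : Fin n → α) :
    kp a vac n ((∑ x, ∑ y, t x y • (a y * a x)) *ᵥ F) r =
      ∑ x, ∑ y, t x y * kp a vac (n + 2) F (Fin.cons x (Fin.cons y r)) := by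
  simp only [kp_cons]
  simp only [kp, Matrix.sum_mulVec, Matrix.mulVec_sum, dotProduct_sum,
    Matrix.smul_mulVec, Matrix.mulVec_smul, dotProduct_smul, smul_eq_mul, Matrix.mulVec_mulVec,
    mul_assoc]

theorem pair_io (h2 : ∀ x y, a x * (a y)ᵀ + (a y)ᵀ * a x = if x = y then 1 else 0)
    (h3 : ∀ x, a x *ᵥ vac = 0) (n : ℕ) (t : α → α → ℝ) (ψ : (Fin (n + 2) → α) → ℝ) (hψ : Anti ψ) :
    (∑ x, ∑ y, t x y • (a y * a x)) *ᵥ io a vac (n + 2) ψ =
      io a vac n fun r => ∑ x, ∑ y, t x y * ψ (Fin.cons x (Fin.cons y r)) := by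
  have e : (fun r : Fin n → α => ∑ x, ∑ y, t x y * ψ (Fin.cons x (Fin.cons y r))) =
      ∑ x, ∑ y, t x y • fun r : Fin n → α => ψ (Fin.cons x (Fin.cons y r)) := by
    funext r
    simp [Finset.sum_apply]
  rw [e]
  simp only [map_sum, map_smul, Matrix.sum_mulVec, Matrix.smul_mulVec, ← Matrix.mulVec_mulVec,
    an_io h2 h3 _ ψ hψ, an_io h2 h3 _ _ (anti_cons hψ _)]

end Fk

end Vale.Agent.P359
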