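import Vale.Agent.P359.Basic

namespace Vale.Agent.P359

open Finset MvPolynomial

namespace Ker

section dvd

variable {σ : Type*} [DecidableEq σ]

/-- Identification of the variable `j` with the variable `i`. -/
def col (i j : σ) : σ → σ := fun x => if x = j then i else x

theorem dvd_sub_rename (i j : σ) (f : MvPolynomial σ ℝ) :
    (X i - X j : MvPolynomial σ ℝ) ∣ rename (col i j) f - f := by
  induction f using MvPolynomial.induction_on with
  | C a => simp
  | add p q hp hq =>
    rw [map_add, add_sub_add_comm]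
    exact dvd_add hp hq
  | mul_X p k hp =>
    have e : rename (col i j) (p * X k) - p * X k =
        (rename (col i j) p - p) * X (col i j k) + p * (X (col i j k) - X k) := by
      rw [map_mul, rename_X]; ring
    rw [e]
    refine dvd_add (hp.mul_right _) (Dvd.dvd.mul_left ?_ _)
    unfold col
    split_ifs with h
    · rw [h]
    · simp

theorem dvd_iff {i j : σ} (hij : i ≠ j) (f : MvPolynomial σ ℝ) :
    (X i - X j : MvPolynomial σ ℝ) ∣ f ↔ rename (col i j) f = 0 := by
  constructor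
  · rintro ⟨g, rfl⟩
    simp [col, hij]
  · intro h
    have := dvd_sub_rename i j f
    rwa [h, zero_sub, dvd_neg] at this

omit [DecidableEq σ] in
theorem ne_zero {i j : σ} (hij : i ≠ j) : (X i - X j : MvPolynomial σ ℝ) ≠ 0 :=
  sub_ne_zero.mpr fun h => hij (X_injective h)

theorem prime {i j : σ} (hij : i ≠ j) : Prime (X i - X j : MvPolynomial σ ℝ) := by
  refine ⟨ne_zero hij, fun h => ?_, fun a b h => ?_⟩
  · have := (dvd_iff hij 1).mp h.dvd
    simp at this
  · rw [dvd_iff hij, map_mul, mul_eq_zero] at h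
    rwa [dvd_iff hij, dvd_iff hij]

theorem cube_dvd {i j : σ} (hij : i ≠ j) (p : MvPolynomial σ ℝ)
    (h1 : rename (Equiv.swap i j) p = -p)
    (h2 : rename (col i j) (pderiv j p - pderiv i p) = 0) :
    (X i - X j : MvPolynomial σ ℝ) ^ 3 ∣ p := by
  have hc : col i j ∘ Equiv.swap i j = col i j := by
    funext x
    by_cases a1 : x = i
    · simp [a1, col, hij]
    by_cases a2 : x = j
    · simp [a2, col, hij]
    · simp [Equiv.swap_apply_of_ne_of_ne a1 a2]
  have anti : ∀ f : MvPolynomial σ ℝ, rename (Equiv.swap i j) f = -f →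
      (X i - X j : MvPolynomial σ ℝ) ∣ f := by
    intro f hf
    have := congrArg (rename (col i j)) hf
    rw [rename_rename, hc, map_neg] at this
    rw [dvd_iff hij]
    exact self_eq_neg.mp this
  have hd : rename (Equiv.swap i j) (X i - X j : MvPolynomial σ ℝ) = -(X i - X j) := by simp
  obtain ⟨q, rfl⟩ := anti p h1
  have hq : rename (Equiv.swap i j) q = q := by
    rw [map_mul, hd, neg_mul, neg_inj] at h1
    exact mul_left_cancel₀ (ne_zero hij) h1
  have hq2 : (X i - X j : MvPolynomial σ ℝ) ∣ q := by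
    have e : pderiv j ((X i - X j) * q) - pderiv i ((X i - X j) * q) =
        (X i - X j) * (pderiv j q - pderiv i q) - (q + q) := by
      simp only [Derivation.leibniz, map_sub, pderiv_X_self, pderiv_X_of_ne hij,
        pderiv_X_of_ne hij.symm, smul_eq_mul]
      ring
    rw [e, map_sub, (dvd_iff hij _).mp (dvd_mul_right _ _), zero_sub, neg_eq_zero, map_add,
      add_self_eq_zero] at h2
    exact (dvd_iff hij q).mpr h2
  obtain ⟨r, rfl⟩ := hq2
  have hr : rename (Equiv.swap i j) r = -r := by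
    rw [map_mul, hd, neg_mul, ← mul_neg] at hq
    exact neg_eq_iff_eq_neg.mp (mul_left_cancel₀ (ne_zero hij) hq)
  obtain ⟨s, rfl⟩ := anti r hr
  exact ⟨s, by ring⟩

theorem le_degreeOf {i j : σ} (hij : i ≠ j) (k : σ) :
    (if i = k then 1 else 0) + (if j = k then 1 else 0) ≤
      degreeOf k (X i - X j : MvPolynomial σ ℝ) := by
  have hne : Finsupp.single i 1 ≠ Finsupp.single j 1 := fun h =>
    hij ((Finsupp.single_left_inj one_ne_zero).mp h)
  by_cases h1 : i = k
  · subst h1
    have := monomial_le_degreeOf (f := (X i - X j : MvPolynomial σ ℝ)) i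
      (m := Finsupp.single i 1) (by simp [coeff_X, hne.symm])
    simpa [hij.symm] using this
  by_cases h2 : j = k
  · subst h2
    have := monomial_le_degreeOf (f := (X i - X j : MvPolynomial σ ℝ)) j
      (m := Finsupp.single j 1) (by simp [coeff_X, hne])
    simpa [hij] using this
  · simp [h1, h2]

end dvd

theorem cnt (n : ℕ) (k : Fin (n + 2)) :
    ∑ i : Fin (n + 2), ∑ j : Fin (n + 2) with i < j,
      3 * ((if i = k then 1 else 0) + (if j = k then 1 else 0)) = 3 * (n + 1) := by
  simp only [← Finset.mul_sum]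
  congr 1
  simp only [Finset.sum_add_distrib]
  have e1 : ∑ i : Fin (n + 2), ∑ j : Fin (n + 2) with i < j, (if i = k then 1 else 0) =
      (Finset.Ioi k).card := by
    rw [Finset.sum_eq_single k]
    · simp [Finset.filter_lt_eq_Ioi]
    · intro b _ hb
      simp [hb]
    · simp
  have e2 : ∑ i : Fin (n + 2), ∑ j : Fin (n + 2) with i < j, (if j = k then 1 else 0) =
      (Finset.Iio k).card := by
    simp only [Finset.sum_ite_eq', Finset.mem_filter, Finset.mem_univ, true_and]
    rw [← Finset.card_filter, Finset.filter_gt_eq_Iio]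
  rw [e1, e2, Fin.card_Ioi, Fin.card_Iio]
  omega

/-- The cube of the Vandermonde product. -/
noncomputable def V3 (R : Type*) [CommRing R] (N : ℕ) : MvPolynomial (Fin N) R :=
  ∏ i : Fin N, ∏ j : Fin N with i < j, (X i - X j) ^ 3

theorem V3_dvd {N : ℕ} (p : MvPolynomial (Fin N) ℝ)
    (h : ∀ i j : Fin N, i ≠ j → (X i - X j : MvPolynomial (Fin N) ℝ) ^ 3 ∣ p) : V3 ℝ N ∣ p := by
  have e : V3 ℝ N = ∏ x ∈ Finset.univ.filter (fun x : Fin N × Fin N => x.1 < x.2),
      (X x.1 - X x.2) ^ 3 := by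
    simp only [V3, Finset.prod_filter, Fintype.prod_prod_type]
  rw [e]
  refine Finset.prod_dvd_of_isRelPrime ?_ fun x hx => h _ _ (Finset.mem_filter.mp hx).2.ne
  rintro ⟨i, j⟩ hx ⟨k, l⟩ hy hne
  have hij : i < j := by simpa using hx
  have hkl : k < l := by simpa using hy
  refine IsRelPrime.pow ((prime hij.ne).irreducible.isRelPrime_iff_not_dvd.mpr ?_)
  rw [dvd_iff hij.ne, map_sub, rename_X, rename_X, sub_eq_zero]
  intro h
  have h' : col i j k = col i j l := X_injective h
  simp only [ne_eq, Prod.mk.injEq] at hne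
  unfold col at h'
  split_ifs at h' <;> omega

theorem le_degreeOf_V3 (n : ℕ) (k : Fin (n + 2)) : 3 * (n + 1) ≤ degreeOf k (V3 ℝ (n + 2)) := by
  rw [← cnt n k, V3, degreeOf_prod_eq _ _ fun i _ => Finset.prod_ne_zero_iff.mpr fun j hj =>
    pow_ne_zero _ (ne_zero (Finset.mem_filter.mp hj).2.ne)]
  refine Finset.sum_le_sum fun i _ => ?_
  rw [degreeOf_prod_eq _ _ fun j hj => pow_ne_zero _ (ne_zero (Finset.mem_filter.mp hj).2.ne)]
  refine Finset.sum_le_sum fun j hj => ?_
  have hij := (Finset.mem_filter.mp hj).2.ne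
  rw [degreeOf_pow_eq _ _ _ (ne_zero hij)]
  exact Nat.mul_le_mul_left _ (le_degreeOf hij k)

/-- Exponent vector in the dehomogenised picture. -/
noncomputable def ex {N Q : ℕ} (a : Fin N → Fin (Q + 1)) : Fin N →₀ ℕ :=
  Finsupp.equivFunOnFinite.symm fun i => (a i : ℕ)

theorem prodXpow {R : Type*} [CommRing R] {N Q : ℕ} (a : Fin N → Fin (Q + 1)) :
    (∏ i, X i ^ (a i : ℕ) : MvPolynomial (Fin N) R) = monomial (ex a) 1 := by
  rw [monomial_eq, Finsupp.prod_fintype _ _ (by simp), C_1, one_mul]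
  rfl

theorem ex_inj {N Q : ℕ} {a b : Fin N → Fin (Q + 1)} (h : ex a = ex b) : a = b := by
  funext i
  exact Fin.ext (DFunLike.congr_fun h i)

theorem coeff_laughlin (n Q : ℕ) (hQ : Q = 3 * (n + 1)) (a : Fin (n + 2) → Fin (Q + 1)) :
    coeff (expo a) (laughlinPoly (n + 2)) = ((coeff (ex a) (V3 ℝ (n + 2)) : ℝ) : ℂ) := by
  classical
  have hom : ∀ m ∈ (laughlinPoly (n + 2)).support, ∀ k, m (k, 0) + m (k, 1) = Q := by
    intro m hm k
    let w : Fin (n + 2) × Fin 2 → ℕ := fun x => if x.1 = k then 1 else 0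
    have H : IsWeightedHomogeneous w (laughlinPoly (n + 2)) (∑ i : Fin (n + 2),
        ∑ j : Fin (n + 2) with i < j,
          3 * ((if i = k then 1 else 0) + (if j = k then 1 else 0))) := by
      refine IsWeightedHomogeneous.prod _ _ _ fun i _ => IsWeightedHomogeneous.prod _ _ _
        fun j _ => ?_
      refine IsWeightedHomogeneous.pow ?_ 3
      have a1 := (isWeightedHomogeneous_X ℂ w (i, 0)).mul (isWeightedHomogeneous_X ℂ w (j, 1))
      have a2 := (isWeightedHomogeneous_X ℂ w (j, 0)).mul (isWeightedHomogeneous_X ℂ w (i, 1))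
      rw [add_comm (w (j, 0))] at a2
      exact (weightedHomogeneousSubmodule ℂ w _).sub_mem a1 a2
    have := H (mem_support_iff.mp hm)
    rw [cnt, ← hQ, Finsupp.weight_apply, Finsupp.sum_fintype _ _ (by simp),
      Fintype.sum_prod_type, Finset.sum_eq_single k] at this
    · simpa [w] using this
    · intro b _ hb
      simp [w, hb]
    · simp
  let deh : MvPolynomial (Fin (n + 2) × Fin 2) ℂ →ₐ[ℂ] MvPolynomial (Fin (n + 2)) ℂ :=
    aeval fun x => if x.2 = 0 then X x.1 else 1
  have e1 : deh (laughlinPoly (n + 2)) = map (algebraMap ℝ ℂ) (V3 ℝ (n + 2)) := by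
    simp [deh, laughlinPoly, V3]
  have e2 : ∀ (m : Fin (n + 2) × Fin 2 →₀ ℕ) (c : ℂ), deh (monomial m c) =
      monomial (Finsupp.equivFunOnFinite.symm fun i => m (i, 0)) c := by
    intro m c
    rw [aeval_monomial, monomial_eq, Finsupp.prod_fintype _ _ (by simp),
      Finsupp.prod_fintype _ _ (by simp), Fintype.prod_prod_type]
    simp
  have e3 : ((coeff (ex a) (V3 ℝ (n + 2)) : ℝ) : ℂ) = coeff (ex a) (deh (laughlinPoly (n + 2))) := by
    rw [e1, coeff_map]
    rfl
  rw [e3]
  conv_rhs => rw [(laughlinPoly (n + 2)).as_sum, map_sum]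
  simp only [e2, coeff_sum, coeff_monomial]
  rw [Finset.sum_eq_single (expo a)]
  · rw [if_pos]
    ext i
    simp [expo, ex]
  · intro m hm hne
    rw [if_neg]
    intro h
    apply hne
    ext ⟨i, b⟩
    have h1 : m (i, 0) = a i := DFunLike.congr_fun h i
    have h2 := hom m hm i
    fin_cases b
    · simpa [expo] using h1
    · simp only [expo, Fin.mk_one, Finsupp.equivFunOnFinite_symm_apply_apply, one_ne_zero, if_false]
      omega
  · intro h
    simp [notMem_support_iff.mp h]

theorem exists_perm {n : ℕ} {i j : Fin (n + 2)} (hij : i ≠ j) :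
    ∃ s : Equiv.Perm (Fin (n + 2)), s 0 = i ∧ s 1 = j := by
  refine ⟨Equiv.swap 0 i * Equiv.swap 1 (Equiv.swap 0 i j), ?_, by simp⟩
  have h : (0 : Fin (n + 2)) ≠ Equiv.swap 0 i j := by
    intro h
    have := congrArg (Equiv.swap 0 i) h
    simp only [Equiv.swap_apply_left, Equiv.swap_apply_self] at this
    exact hij this
  rw [Equiv.Perm.mul_apply, Equiv.swap_apply_of_ne_of_ne zero_ne_one h, Equiv.swap_apply_left]

theorem sumCons {n : ℕ} {α M : Type*} [Fintype α] [AddCommMonoid M] (f : (Fin (n + 1) → α) → M) :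
    ∑ a, f a = ∑ x : α, ∑ r : Fin n → α, f (Fin.cons x r) := by
  rw [← (Fin.consEquiv fun _ => α).sum_comp, Fintype.sum_prod_type]
  rfl

theorem deriv_term {n : ℕ} (a b : ℕ) (r : Fin n → ℕ) (c : ℝ) :
    rename (col (0 : Fin (n + 2)) 1)
      (pderiv 1 (C c * (X 0 ^ a * (X 1 ^ b * ∏ i : Fin n, X i.succ.succ ^ r i))) -
       pderiv 0 (C c * (X 0 ^ a * (X 1 ^ b * ∏ i : Fin n, X i.succ.succ ^ r i))) :
        MvPolynomial (Fin (n + 2)) ℝ) =
      C (((b : ℝ) - a) * c) * X 0 ^ (a + b - 1) * ∏ i : Fin n, X i.succ.succ ^ r i := by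
  have hz : ∀ k : Fin (n + 2), (∀ i : Fin n, i.succ.succ ≠ k) →
      pderiv k (∏ i : Fin n, X i.succ.succ ^ r i : MvPolynomial (Fin (n + 2)) ℝ) = 0 := by
    intro k hk
    refine Finset.prod_induction _ (fun f => pderiv k f = 0) (fun f g hf hg => ?_) (by simp)
      fun i _ => ?_
    · simp [Derivation.leibniz, hf, hg]
    · simp [Derivation.leibniz_pow, pderiv_X_of_ne (hk i)]
  have h0 := hz 0 fun i => Fin.succ_ne_zero _
  have h1 := hz 1 fun i => Fin.succ_succ_ne_one i
  have hr : rename (col (0 : Fin (n + 2)) 1)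
      (∏ i : Fin n, X i.succ.succ ^ r i : MvPolynomial (Fin (n + 2)) ℝ) =
      ∏ i : Fin n, X i.succ.succ ^ r i := by
    simp [col, Fin.succ_succ_ne_one]
  generalize (∏ i : Fin n, X i.succ.succ ^ r i : MvPolynomial (Fin (n + 2)) ℝ) = R at *
  have c0 : col (0 : Fin (n + 2)) 1 0 = 0 := by simp [col]
  have c1 : col (0 : Fin (n + 2)) 1 1 = 0 := by simp [col]
  simp only [Derivation.leibniz, Derivation.leibniz_pow, h0, h1, pderiv_C, pderiv_X_self,
    pderiv_X_of_ne (zero_ne_one : (0 : Fin (n + 2)) ≠ 1),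
    pderiv_X_of_ne (one_ne_zero : (1 : Fin (n + 2)) ≠ 0), smul_eq_mul, mul_zero, smul_zero,
    add_zero, zero_add, mul_one, nsmul_eq_mul, map_sub, map_mul, map_pow, rename_C, rename_X, hr,
    c0, c1, map_natCast]
  rcases a with _ | a <;> rcases b with _ | b
  · simp
  · simp; ring
  · simp; ring
  · rw [show a + 1 + (b + 1) - 1 = a + b + 1 by omega]
    simp only [Nat.add_sub_cancel]
    ring

end Ker

open Ker in
/-- TASK T3. Zero modes at the Laughlin flux are multiples of the Laughlin vector. -/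
theorem kernel_eq (n Q : ℕ) (hQ : Q = 3 * (n + 1)) (χ : (Fin (n + 2) → Fin (Q + 1)) → ℝ)
    (hχ : Anti χ) (h0 : ∀ M < 2 * Q - 1, ∀ r, amp Q n M χ r = 0) :
    ∃ t : ℝ, ∀ a, ((χ a : ℝ) : ℂ) = (t : ℂ) * coords Q (laughlinPoly (n + 2)) a := by
  classical
  let w : ∀ {N : ℕ}, (Fin N → Fin (Q + 1)) → ℝ := fun a => ∏ i, Real.sqrt (Q.choose (a i))
  have wpos : ∀ a : Fin (n + 2) → Fin (Q + 1), 0 < w a := fun a => Finset.prod_pos fun i _ =>
    Real.sqrt_pos.mpr (by exact_mod_cast Nat.choose_pos (Nat.lt_succ_iff.mp (a i).2))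
  let p : MvPolynomial (Fin (n + 2)) ℝ := ∑ a, C (χ a * w a) * ∏ i, X i ^ (a i : ℕ)
  have hco : ∀ a, coeff (ex a) p = χ a * w a := by
    intro a
    simp only [p, prodXpow, coeff_sum, coeff_C_mul, coeff_monomial]
    rw [Finset.sum_eq_single a]
    · simp
    · intro b _ hb
      rw [if_neg fun h => hb (ex_inj h), mul_zero]
    · simp
  have hren : ∀ s : Equiv.Perm (Fin (n + 2)),
      rename s p = C ((Equiv.Perm.sign s : ℤ) : ℝ) * p := by
    intro s
    simp only [p, map_sum, map_mul (rename s), map_prod, map_pow, rename_C, rename_X, Finset.mul_sum]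
    rw [← (Equiv.arrowCongr s.symm (Equiv.refl (Fin (Q + 1)))).sum_comp]
    refine Finset.sum_congr rfl fun a _ => ?_
    have e : (Equiv.arrowCongr s.symm (Equiv.refl (Fin (Q + 1)))) a = a ∘ s := by
      funext i; simp
    have e2 : w (a ∘ s) = w a := Equiv.prod_comp s fun i => Real.sqrt (Q.choose (a i))
    have e3 : (∏ i, X (s i) ^ ((a ∘ s) i : ℕ) : MvPolynomial (Fin (n + 2)) ℝ) =
        ∏ i, X i ^ (a i : ℕ) := Equiv.prod_comp s fun i => X i ^ (a i : ℕ)
    rw [e, e2, e3, hχ s a, ← mul_assoc, ← C_mul, mul_assoc _ (χ a)]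
  have hder : rename (col (0 : Fin (n + 2)) 1) (pderiv 1 p - pderiv 0 p) = 0 := by
    simp only [p, map_sum (pderiv _), ← Finset.sum_sub_distrib, map_sum (rename _)]
    rw [sumCons]
    simp only [sumCons (n := n)]
    simp only [Fin.prod_univ_succ, Fin.cons_zero, Fin.cons_succ, Fin.succ_zero_eq_one, deriv_term]
    have term : ∀ (a b : Fin (Q + 1)) (r : Fin n → Fin (Q + 1)),
        (C ((((b : ℕ) : ℝ) - (a : ℕ)) * (χ (Fin.cons a (Fin.cons b r)) *
          w (Fin.cons a (Fin.cons b r) : Fin (n + 2) → Fin (Q + 1)))) * X 0 ^ ((a : ℕ) + b - 1) :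
            MvPolynomial (Fin (n + 2)) ℝ) =
        ∑ M ∈ range (2 * Q - 1),
          C (tau Q M a b * χ (Fin.cons a (Fin.cons b r)) * w r) * X 0 ^ M := by
      intro a b r
      by_cases hab : (a : ℕ) = b
      · simp [tau, hab]
      have ha := a.2
      have hb := b.2
      rw [Finset.sum_eq_single ((a : ℕ) + b - 1)]
      · congr 2
        rw [tau, if_pos (by omega), Real.sqrt_mul (by positivity)]
        simp only [w, Fin.prod_univ_succ, Fin.cons_zero, Fin.cons_succ]
        ring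
      · intro M _ hM
        rw [tau, if_neg (by omega)]
        simp
      · intro h
        exact absurd (Finset.mem_range.mpr (by omega)) h
    simp only [term, Finset.sum_mul]
    calc _ = ∑ r : Fin n → Fin (Q + 1), ∑ M ∈ range (2 * Q - 1), C (amp Q n M χ r * w r) * X 0 ^ M *
          (∏ i : Fin n, X i.succ.succ ^ (r i : ℕ) : MvPolynomial (Fin (n + 2)) ℝ) := by
          simp only [amp, Finset.sum_mul, map_sum]
          symm
          rw [Finset.sum_congr rfl fun r _ => Finset.sum_comm, Finset.sum_comm]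
          refine Finset.sum_congr rfl fun a _ => ?_
          rw [Finset.sum_congr rfl fun r _ => Finset.sum_comm, Finset.sum_comm]
      _ = 0 := Finset.sum_eq_zero fun r _ => Finset.sum_eq_zero fun M hM => by
          rw [h0 M (Finset.mem_range.mp hM) r]; simp
  have h01 : (X 0 - X 1 : MvPolynomial (Fin (n + 2)) ℝ) ^ 3 ∣ p :=
    cube_dvd zero_ne_one p (by rw [hren, Equiv.Perm.sign_swap zero_ne_one]; simp) hder
  have hV : V3 ℝ (n + 2) ∣ p := by
    refine V3_dvd p fun i j hij => ?_
    obtain ⟨s, s0, s1⟩ := exists_perm hij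
    have := map_dvd (rename s) h01
    rw [hren, map_pow, map_sub, rename_X, rename_X, s0, s1] at this
    rcases Int.units_eq_one_or (Equiv.Perm.sign s) with h | h <;> simpa [h] using this
  obtain ⟨q, hq⟩ := hV
  have hdeg : ∀ k, degreeOf k p ≤ Q := by
    intro k
    refine (degreeOf_sum_le _ _ _).trans (Finset.sup_le fun a _ => ?_)
    rw [prodXpow, C_mul_monomial]
    by_cases h : χ a * w a * 1 = 0
    · simp [h]
    · rw [degreeOf_monomial_eq _ _ h]
      exact Nat.lt_succ_iff.mp (a k).2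
  have hqC : ∃ t, q = C t := by
    by_cases hq0 : q = 0
    · exact ⟨0, by simp [hq0]⟩
    have hV0 : V3 ℝ (n + 2) ≠ 0 := Finset.prod_ne_zero_iff.mpr fun i _ =>
      Finset.prod_ne_zero_iff.mpr fun j hj => pow_ne_zero _ (ne_zero (Finset.mem_filter.mp hj).2.ne)
    refine ⟨_, totalDegree_eq_zero_iff_eq_C.mp ((totalDegree_eq_zero_iff _ q).mpr fun m hm k => ?_)⟩
    have a1 := hdeg k
    rw [hq, degreeOf_mul_eq hV0 hq0] at a1
    have a2 := le_degreeOf_V3 n k
    have a3 := monomial_le_degreeOf k hm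
    omega
  obtain ⟨t, rfl⟩ := hqC
  refine ⟨t, fun a => ?_⟩
  have e := hco a
  rw [hq, mul_comm, coeff_C_mul] at e
  have hw : ((w a : ℝ) : ℂ) ≠ 0 := by exact_mod_cast (wpos a).ne'
  change _ = (t : ℂ) * (coeff (expo a) (laughlinPoly (n + 2)) / ((w a : ℝ) : ℂ))
  rw [coeff_laughlin n Q hQ, ← mul_div_assoc, eq_div_iff hw]
  exact_mod_cast e.symm

end Vale.Agent.P359
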