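import Vale.Agent.P359.Reduce
import Vale.Agent.P359.Kernel

namespace Vale.Agent.P359

open Finset

theorem gap_aux (n Q : ℕ) (hQ : Q = 3 * (n + 1)) (hg : RealGap (1 / 10) Q)
    (ψ : EuclideanSpace ℂ (Fin (n + 2) → Fin (Q + 1))) (hψ : IsFermionic ψ) :
    (1 / 10 : ℝ) * (inner ℂ ψ (ψ - (Submodule.span ℂ
        {coords Q (laughlinPoly (n + 2))}).starProjection ψ)).re ≤
      (inner ℂ ψ (hamiltonian ψ)).re := by
  have a1 : Anti fun a => (ψ a).re := fun s a => by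
    simp only [hψ s a]
    simp
  have a2 : Anti fun a => (ψ a).im := fun s a => by
    simp only [hψ s a]
    simp
  obtain ⟨χ1, c1, z1, g1⟩ := hg n _ a1
  obtain ⟨χ2, c2, z2, g2⟩ := hg n _ a2
  obtain ⟨t1, k1⟩ := kernel_eq n Q hQ χ1 c1 z1
  obtain ⟨t2, k2⟩ := kernel_eq n Q hQ χ2 c2 z2
  have hE := energy_le Q n (by omega) ψ hψ
  set Ψ := coords Q (laughlinPoly (n + 2))
  set K := Submodule.span ℂ {Ψ}
  have hw : ((t1 : ℂ) + t2 * Complex.I) • Ψ ∈ K :=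
    K.smul_mem _ (Submodule.mem_span_singleton_self Ψ)
  have e1 : (inner ℂ ψ (ψ - K.starProjection ψ)).re = ‖ψ - K.starProjection ψ‖ ^ 2 := by
    have h0 := K.starProjection_inner_eq_zero ψ _ (K.starProjection_apply_mem ψ)
    rw [inner_eq_zero_symm] at h0
    have h1 := inner_self_eq_norm_sq (𝕜 := ℂ) (ψ - K.starProjection ψ)
    rw [inner_sub_left, h0, sub_zero] at h1
    exact h1
  have e2 : ‖ψ - K.starProjection ψ‖ ≤ ‖ψ - ((t1 : ℂ) + t2 * Complex.I) • Ψ‖ := by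
    rw [Submodule.starProjection_minimal]
    exact ciInf_le ⟨0, by rintro _ ⟨x, rfl⟩; positivity⟩ (⟨_, hw⟩ : K)
  have e3 : ‖ψ - ((t1 : ℂ) + t2 * Complex.I) • Ψ‖ ^ 2 =
      ∑ a, ((ψ a).re - χ1 a) ^ 2 + ∑ a, ((ψ a).im - χ2 a) ^ 2 := by
    rw [EuclideanSpace.norm_sq_eq, ← Finset.sum_add_distrib]
    refine Finset.sum_congr rfl fun a _ => ?_
    have : (ψ - ((t1 : ℂ) + t2 * Complex.I) • Ψ) a = ψ a - (χ1 a + χ2 a * Complex.I) := by
      rw [k1, k2]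
      simp only [PiLp.sub_apply, PiLp.smul_apply, smul_eq_mul]
      ring
    rw [this, ← Complex.normSq_eq_norm_sq, Complex.normSq_apply]
    simp [sq]
  have e4 := pow_le_pow_left₀ (norm_nonneg _) e2 2
  rw [e1]
  rw [e3] at e4
  linarith

end Vale.Agent.P359
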