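import Vale.Agent.P359.Basic

namespace Vale.Agent.P359

open Finset Filter Topology MvPolynomial

theorem exists_lim {σ : Type*} (U : Ultrafilter ℕ) (S : Set ℕ) (hS : S ∈ U)
    (G : ℕ → MvPolynomial σ ℝ →ₗ[ℝ] MvPolynomial σ ℝ →ₗ[ℝ] ℝ)
    (hsym : ∀ Q ∈ S, ∀ p q, G Q p q = G Q q p) (hpos : ∀ Q ∈ S, ∀ p, 0 ≤ G Q p p)
    (hbd : ∀ m : σ →₀ ℕ, ∃ C : ℝ, ∀ Q ∈ S, G Q (monomial m 1) (monomial m 1) ≤ C) :
    ∃ L : MvPolynomial σ ℝ →ₗ[ℝ] MvPolynomial σ ℝ →ₗ[ℝ] ℝ,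
      ∀ p q, Tendsto (fun Q => G Q p q) U (𝓝 (L p q)) := by
  have cs : ∀ Q ∈ S, ∀ p q, |G Q p q| ≤ (G Q p p + G Q q q) / 2 := by
    intro Q hQ p q
    have h1 := hpos Q hQ (p + q)
    have h2 := hpos Q hQ (p - q)
    simp only [map_add, map_sub, LinearMap.add_apply, LinearMap.sub_apply, hsym Q hQ q p] at h1 h2
    rw [abs_le]
    constructor <;> linarith
  have b1 : ∀ p, ∃ C : ℝ, ∀ Q ∈ S, G Q p p ≤ C := by
    intro p
    induction p using MvPolynomial.induction_on' with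
    | monomial m a =>
      obtain ⟨C, hC⟩ := hbd m
      refine ⟨a * a * C, fun Q hQ => ?_⟩
      have e : (monomial m a : MvPolynomial σ ℝ) = a • monomial m 1 := by
        rw [smul_monomial, smul_eq_mul, mul_one]
      rw [e]
      simp only [map_smul, LinearMap.smul_apply, smul_eq_mul]
      have := mul_le_mul_of_nonneg_left (hC Q hQ) (mul_self_nonneg a)
      linarith
    | add p q hp hq =>
      obtain ⟨C, hC⟩ := hp
      obtain ⟨C', hC'⟩ := hq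
      refine ⟨2 * C + 2 * C', fun Q hQ => ?_⟩
      have h1 := (abs_le.mp (cs Q hQ p q)).2
      have h2 := hC Q hQ
      have h3 := hC' Q hQ
      simp only [map_add, LinearMap.add_apply, hsym Q hQ q p]
      linarith
  have b2 : ∀ p q, ∃ g : ℝ, Tendsto (fun Q => G Q p q) U (𝓝 g) := by
    intro p q
    obtain ⟨C, hC⟩ := b1 p
    obtain ⟨C', hC'⟩ := b1 q
    obtain ⟨g, -, hg⟩ := (isCompact_Icc (a := -((C + C') / 2)) (b := (C + C') / 2)).ultrafilter_le_nhds'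
      (U.map fun Q => G Q p q) (by
        rw [Ultrafilter.mem_map]
        refine mem_of_superset hS fun Q hQ => ?_
        have h1 := cs Q hQ p q
        have h2 := hC Q hQ
        have h3 := hC' Q hQ
        exact abs_le.mp (by linarith))
    exact ⟨g, hg⟩
  choose g hg using b2
  refine ⟨LinearMap.mk₂ ℝ g (fun p p' q => ?_) (fun c p q => ?_) (fun p q q' => ?_)
    (fun c p q => ?_), hg⟩
  · exact tendsto_nhds_unique (hg (p + p') q) (by simpa using (hg p q).add (hg p' q))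
  · exact tendsto_nhds_unique (hg (c • p) q) (by simpa using (hg p q).const_mul c)
  · exact tendsto_nhds_unique (hg p (q + q')) (by simpa using (hg p q).add (hg p q'))
  · exact tendsto_nhds_unique (hg p (c • q)) (by simpa using (hg p q).const_mul c)

theorem lowr_tendsto {σ : Type*} {l : Filter ℕ}
    {G : ℕ → MvPolynomial σ ℝ →ₗ[ℝ] MvPolynomial σ ℝ →ₗ[ℝ] ℝ}
    {L : MvPolynomial σ ℝ →ₗ[ℝ] MvPolynomial σ ℝ →ₗ[ℝ] ℝ}
    (h : ∀ p q, Tendsto (fun Q => G Q p q) l (𝓝 (L p q))) {ε ν : ℕ → ℝ} {ε0 ν0 : ℝ}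
    (hε : Tendsto ε l (𝓝 ε0)) (hν : Tendsto ν l (𝓝 ν0)) (i : σ) (p q : MvPolynomial σ ℝ) :
    Tendsto (fun Q => G Q p (lowr (ε Q) (ν Q) i q)) l (𝓝 (L p (lowr ε0 ν0 i q))) := by
  simp only [lowr, map_sub, map_smul, smul_eq_mul]
  exact (hν.mul (h _ _)).sub (hε.mul (h _ _))

/-- TASK T6. Passing to the planar limit. -/
theorem good_limit (δ : ℝ)
    (h : ∃ᶠ Q : ℕ in atTop, ∃ G3 G4, Good (1 / (Q : ℝ)) δ G3 G4) :
    ∃ G3 G4, Good 0 δ G3 G4 := by
  set S : Set ℕ := {Q | ∃ G3 G4, Good (1 / (Q : ℝ)) δ G3 G4} with hSdef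
  have hne : (atTop ⊓ 𝓟 S).NeBot := frequently_iff_neBot.mp h
  let U : Ultrafilter ℕ := Ultrafilter.of (atTop ⊓ 𝓟 S)
  have hU : (U : Filter ℕ) ≤ atTop ⊓ 𝓟 S := Ultrafilter.of_le _
  have hS : S ∈ U := le_principal_iff.mp (hU.trans inf_le_right)
  have hch : ∀ Q ∈ S, ∃ G3 G4, Good (1 / (Q : ℝ)) δ G3 G4 := fun Q hQ => hQ
  choose! G3 G4 hG using hch
  have ev : ∀ᶠ Q : ℕ in (U : Filter ℕ), Good (1 / (Q : ℝ)) δ (G3 Q) (G4 Q) :=
    mem_of_superset hS fun Q hQ => hG Q hQ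
  have hε : Tendsto (fun Q : ℕ => 1 / (Q : ℝ)) U (𝓝 0) :=
    tendsto_one_div_atTop_nhds_zero_nat.mono_left (hU.trans inf_le_left)
  obtain ⟨L3, h3⟩ := exists_lim U S hS G3 (fun Q hQ => (hG Q hQ).sym3) (fun Q hQ => (hG Q hQ).pos3)
    fun m => ⟨_, fun Q hQ => by
      have := (hG Q hQ).bd3 (m 0) (m 1)
      rwa [show (X 0 ^ m 0 * X 1 ^ m 1 : P2) = monomial m 1 by
        rw [monomial_eq, Finsupp.prod_fintype _ _ (by simp), Fin.prod_univ_two, C_1, one_mul]] at this⟩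
  obtain ⟨L4, h4⟩ := exists_lim U S hS G4 (fun Q hQ => (hG Q hQ).sym4) (fun Q hQ => (hG Q hQ).pos4)
    fun m => ⟨_, fun Q hQ => by
      have := (hG Q hQ).bd4 (m 0) (m 1) (m 2)
      rwa [show (X 0 ^ m 0 * X 1 ^ m 1 * X 2 ^ m 2 : P3) = monomial m 1 by
        rw [monomial_eq, Finsupp.prod_fintype _ _ (by simp), Fin.prod_univ_three, C_1, one_mul]] at this⟩
  have hν : Tendsto (fun Q : ℕ => 2 - 2 * (1 / (Q : ℝ))) U (𝓝 (2 - 2 * 0)) :=
    (hε.const_mul 2).const_sub 2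
  have hn : ∀ M, Tendsto (fun Q : ℕ => nrm (1 / (Q : ℝ)) M) U (𝓝 (nrm 0 M)) := fun M =>
    ((show Continuous fun ε => nrm ε M by unfold nrm; fun_prop).tendsto 0).comp hε
  have hg : ∀ M, Tendsto (fun Q : ℕ => gam (1 / (Q : ℝ)) M) U (𝓝 (gam 0 M)) := fun M =>
    ((show Continuous fun ε => gam ε M by unfold gam; fun_prop).tendsto 0).comp hε
  have hn' : ∀ M, Tendsto (fun Q : ℕ => (nrm (1 / (Q : ℝ)) M)⁻¹) U (𝓝 (nrm 0 M)⁻¹) := fun M =>
    (hn M).inv₀ (by simp [nrm, Nat.factorial_ne_zero])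
  refine ⟨L3, L4, fun p q => ?_, fun p q => ?_, fun p => ?_, fun p => ?_, fun p q => ?_,
    fun p q => ?_, fun r hr q => ?_, fun r hr c i q => ?_, fun p q => ?_, fun M M' q => ?_,
    fun q n x0 p => ?_, fun h n x => ?_, ?_, fun M j => ?_, fun M i j => ?_⟩
  · exact tendsto_nhds_unique_of_eventuallyEq (h3 p q) (h3 q p) (ev.mono fun Q hQ => hQ.sym3 p q)
  · exact tendsto_nhds_unique_of_eventuallyEq (h4 p q) (h4 q p) (ev.mono fun Q hQ => hQ.sym4 p q)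
  · exact ge_of_tendsto (h3 p p) (ev.mono fun Q hQ => hQ.pos3 p)
  · exact ge_of_tendsto (h4 p p) (ev.mono fun Q hQ => hQ.pos4 p)
  · refine tendsto_nhds_unique_of_eventuallyEq (h3 _ q) ?_ (ev.mono fun Q hQ => hQ.adj3 p q)
    simp only [low3, map_add]
    exact (lowr_tendsto h3 hε hν 0 p q).add (lowr_tendsto h3 hε tendsto_const_nhds 1 p q)
  · refine tendsto_nhds_unique_of_eventuallyEq (h4 _ q) ?_ (ev.mono fun Q hQ => hQ.adj4 p q)
    simp only [low4, map_add]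
    exact ((lowr_tendsto h4 hε hν 0 p q).add (lowr_tendsto h4 hε tendsto_const_nhds 1 p q)).add
      (lowr_tendsto h4 hε tendsto_const_nhds 2 p q)
  · exact tendsto_nhds_unique_of_eventuallyEq (h3 _ q) tendsto_const_nhds
      (ev.mono fun Q hQ => hQ.null3 r hr q)
  · exact tendsto_nhds_unique_of_eventuallyEq (h4 _ q) tendsto_const_nhds
      (ev.mono fun Q hQ => hQ.null4 r hr c i q)
  · exact tendsto_nhds_unique_of_eventuallyEq (h4 _ q) (h4 p q).neg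
      (ev.mono fun Q hQ => hQ.anti p q)
  · exact tendsto_nhds_unique_of_eventuallyEq (h4 _ q) (h4 _ q)
      (ev.mono fun Q hQ => hQ.exch M M' q)
  · refine ge_of_tendsto ?_ (ev.mono fun Q hQ => hQ.gcond q n x0 p)
    exact ((((hn q).const_mul _).add ((tendsto_finset_sum _ fun i _ => h3 _ _).const_mul _)).add
      (tendsto_finset_sum _ fun i _ => (hg i).mul (h3 _ _))).sub
      (tendsto_finset_sum _ fun i _ => tendsto_finset_sum _ fun j _ => h4 _ _)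
  · refine ge_of_tendsto ?_ (ev.mono fun Q hQ => hQ.hcond h n x)
    exact (tendsto_finset_sum _ fun M _ => ((hg _).const_mul _).mul (hn M)).sub
      (tendsto_finset_sum _ fun i _ => tendsto_finset_sum _ fun j _ => (h3 _ _).const_mul _)
  · refine le_of_tendsto ?_ (ev.mono fun Q hQ => hQ.obj)
    exact ((tendsto_finset_sum _ fun M _ => (hn' M).mul
      (((h3 _ _).const_mul _).sub (h3 _ _))).const_add 1).add
      (tendsto_finset_sum _ fun M _ => (hn' M).mul (h4 _ _))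
  · exact le_of_tendsto (h3 _ _) (ev.mono fun Q hQ => hQ.bd3 M j)
  · exact le_of_tendsto (h4 _ _) (ev.mono fun Q hQ => hQ.bd4 M i j)

end Vale.Agent.P359
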