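import Vale.Agent.P359.PlaneB
import Vale.Agent.P359.CertOK
import Vale.Agent.P359.CertSA
import Vale.Agent.P359.CertSB
import Vale.Agent.P359.CertSC

namespace Vale.Agent.P359

theorem k4All_cons (T : ℕ) (v : GVec) (vs : List GVec) (K : List (List (List ℤ))) :
    k4All T (v :: vs) K = k4All T vs (k4All T [v] K) := rfl

theorem certK : k4All 20 certG [] = certK9 := by
  rw [certG, k4All_cons, certStep1, k4All_cons, certStep2, k4All_cons, certStep3, k4All_cons,
    certStep4, k4All_cons, certStep5, k4All_cons, certStep6, k4All_cons, certStep7, k4All_cons,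
    certStep8, certStep9]

theorem not_good (G3 : P2 →ₗ[ℝ] P2 →ₗ[ℝ] ℝ) (G4 : P3 →ₗ[ℝ] P3 →ₗ[ℝ] ℝ) :
    ¬ Good 0 (1 / 10) G3 G4 := by
  intro h
  refine h.false_of_cert certS (by norm_num [certS]) certG certH certMu certKg ?_ cert3 certg
    (by rw [certK]; exact cert4) certD.1 certD.2.1 certD.2.2
  have : (((101 / 1000 : ℚ)) : ℝ) < ((1 - k2G certS certG - k2H certH : ℚ) : ℝ) := by
    exact_mod_cast cert2
  refine lt_of_le_of_lt ?_ this
  norm_num

end Vale.Agent.P359
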