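import Vale.Agent.P359.Basic

namespace Vale.Agent.P359

open Finset
open scoped MatrixOrder Matrix

/-- TASK T4. Eigenvalue states give the gap. -/
theorem matGap_of_states {ι : Type*} [Fintype ι] [DecidableEq ι] (δ : ℝ) (H D : Matrix ι ι ℝ)
    (hH : star H = H) (hHD : H * D = D * H)
    (h : ∀ (lam : ℝ) (ω : Matrix ι ι ℝ →ₗ[ℝ] ℝ), lam ≠ 0 → IsState ω D H lam → δ ≤ lam) :
    MatGap δ H := by
  classical
  have hs : IsSelfAdjoint H := hH
  have hh : H.IsHermitian := hH
  have cont : ∀ f : ℝ → ℝ, ContinuousOn f (spectrum ℝ H) := fun f =>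
    (Matrix.finite_real_spectrum (A := H)).continuousOn f
  have psd : ∀ f : ℝ → ℝ, (∀ x ∈ spectrum ℝ H, 0 ≤ f x) → (cfc f H).PosSemidef := fun f hf =>
    Matrix.nonneg_iff_posSemidef.mp (cfc_nonneg hf)
  let P : ℝ → Matrix ι ι ℝ := fun lam => cfc (fun x => if x = lam then 1 else 0) H
  have Ppsd : ∀ lam, (P lam).PosSemidef := fun lam => psd _ fun x _ => by split_ifs <;> norm_num
  have HP : ∀ lam, H * P lam = lam • P lam := fun lam => by
    conv_lhs => enter [1]; rw [← cfc_id' ℝ H]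
    rw [← cfc_mul _ _ H (cont _) (cont _), ← cfc_const_mul _ _ H (cont _)]
    refine cfc_congr fun x _ => ?_
    by_cases hx : x = lam <;> simp [hx]
  have PD : ∀ lam, P lam * D = D * P lam := fun lam => Commute.cfc_real (show Commute H D from hHD) _
  have gap : ∀ lam ∈ spectrum ℝ H, lam ≠ 0 → δ ≤ lam := by
    intro lam hl h0
    refine h lam ((Matrix.traceLinearMap ι ℝ ℝ).comp (LinearMap.mulLeft ℝ (P lam))) h0
      ⟨fun x => ?_, fun x => ?_, fun x => ?_, fun x => ?_, ?_⟩ <;>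
      simp only [LinearMap.comp_apply, LinearMap.mulLeft_apply, Matrix.traceLinearMap_apply]
    · rw [← mul_assoc, Matrix.trace_mul_comm, ← mul_assoc]
      exact ((Ppsd lam).mul_mul_conjTranspose_same x).trace_nonneg
    · have e : (P lam)ᵀ = P lam := (Ppsd lam).1
      rw [← Matrix.trace_transpose, Matrix.transpose_mul, e, Matrix.trace_mul_comm]
      rfl
    · rw [← mul_assoc, Matrix.trace_mul_comm, ← mul_assoc, ← PD, mul_assoc]
    · rw [← mul_assoc, Matrix.trace_mul_comm, ← mul_assoc, HP, smul_mul_assoc, Matrix.trace_smul,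
        smul_eq_mul]
    · rw [mul_one]
      refine lt_of_le_of_ne (Ppsd lam).trace_nonneg fun e => ?_
      have e0 : P lam = 0 := (Ppsd lam).trace_eq_zero_iff.mp e.symm
      have e1 := (cfc_le_iff (fun x => if x = lam then (1 : ℝ) else 0) (fun _ => 0) H (cont _)
        (cont _)).mp (by rw [cfc_const_zero]; exact e0.le) lam hl
      norm_num at e1
  intro Φ
  refine ⟨(P 0).mulVec Φ, by rw [Matrix.mulVec_mulVec, HP, zero_smul, Matrix.zero_mulVec], ?_⟩
  have e1 : 1 - P 0 = cfc (fun x : ℝ => 1 - if x = 0 then 1 else 0) H := by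
    rw [cfc_sub _ _ H (cont _) (cont _), cfc_const_one ℝ H]
  have e2 : (1 - P 0)ᵀ * (1 - P 0) = 1 - P 0 := by
    have e : (P 0)ᵀ = P 0 := (Ppsd 0).1
    rw [Matrix.transpose_sub, Matrix.transpose_one, e, e1, ← cfc_mul _ _ H (cont _) (cont _)]
    refine cfc_congr fun x _ => ?_
    by_cases hx : x = 0 <;> simp [hx]
  have e3 : (H - δ • (1 - P 0)).PosSemidef := by
    rw [e1, ← cfc_const_mul _ _ H (cont _)]
    conv => enter [1, 1]; rw [← cfc_id' ℝ H]
    rw [← cfc_sub _ _ H (cont _) (cont _)]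
    refine psd _ fun x hx => ?_
    by_cases h0 : x = 0
    · simp [h0]
    · simpa [h0] using gap x hx h0
  have e4 := e3.dotProduct_mulVec_nonneg Φ
  have e5 : Φ - (P 0).mulVec Φ = (1 - P 0).mulVec Φ := by rw [Matrix.sub_mulVec, Matrix.one_mulVec]
  rw [e5, Matrix.dotProduct_mulVec, Matrix.vecMul_mulVec, e2, ← Matrix.dotProduct_mulVec]
  rw [star_trivial, Matrix.sub_mulVec, dotProduct_sub, Matrix.smul_mulVec, dotProduct_smul,
    smul_eq_mul] at e4
  linarith

end Vale.Agent.P359
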