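import Vale.Agent.P359.Gap
import Vale.Agent.P359.Fock
import Vale.Agent.P359.Spectral
import Vale.Agent.P359.Limit
import Vale.Agent.P359.Algebra
import Vale.Agent.P359.Plane

namespace Vale.Agent.P359

open Finset Filter

theorem realGap_eventually : ∃ Q0 : ℕ, ∀ Q ≥ Q0, RealGap (1 / 10) Q := by
  have h1 : ¬ ∃ᶠ Q : ℕ in atTop, ∃ G3 G4, Good (1 / (Q : ℝ)) (1 / 10) G3 G4 := by
    intro h
    obtain ⟨G3, G4, hG⟩ := good_limit _ h
    exact not_good G3 G4 hG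
  rw [not_frequently, eventually_atTop] at h1
  obtain ⟨Q0, hQ0⟩ := h1
  refine ⟨max Q0 100, fun Q hQ => ?_⟩
  have hQ1 : Q0 ≤ Q := le_trans (le_max_left _ _) hQ
  have hQ2 : 100 ≤ Q := le_trans (le_max_right _ _) hQ
  obtain ⟨c, D, hc, ht⟩ := fock_model Q (by omega)
  refine ht _ (by norm_num) ?_
  refine matGap_of_states _ _ D (ham_star Q c) (ham_comm (by omega) hc) ?_
  intro lam ω h0 hω
  by_contra hlt
  exact hQ0 Q hQ1 (good_of_state hQ2 hc hω h0 (le_of_lt (not_le.mp hlt)))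

theorem laughlin_gap : ∃ N0 : ℕ, ∀ N ≥ N0,
    ∀ ψ : EuclideanSpace ℂ (Fin N → Fin (3 * (N - 1) + 1)), IsFermionic ψ →
      (1 / 10 : ℝ) * (inner ℂ ψ (ψ - laughlinProj N ψ)).re ≤ (inner ℂ ψ (hamiltonian ψ)).re := by
  obtain ⟨Q0, hQ0⟩ := realGap_eventually
  refine ⟨Q0 + 2, fun N hN ψ hψ => ?_⟩
  obtain ⟨n, rfl⟩ : ∃ n, N = n + 2 := ⟨N - 2, by omega⟩
  exact gap_aux n (3 * (n + 2 - 1)) rfl (hQ0 _ (by omega)) ψ hψ

end Vale.Agent.P359
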