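import Mathlib
import Vale.Agent.P359.Check

/-! Generic soundness lemmas for the certificate checker. -/

namespace Vale.Agent.P359

open Finset

section ring
variable {P : Type*} [CommRing P]

def ev2 (a b : P) : ℕ → List ℤ → P
  | _, [] => 0
  | 0, c :: _ => (c : P)
  | t + 1, c :: l => (c : P) * a ^ (t + 1) + b * ev2 a b t l

def ev3 (s a b : P) : ℕ → List (List ℤ) → P
  | _, [] => 0
  | 0, l :: _ => ev2 a b 0 l
  | t + 1, l :: L => ev2 a b (t + 1) l + s * ev3 s a b t L

@[simp] lemma ev2_nil (a b : P) (t : ℕ) : ev2 a b t [] = 0 := by cases t <;> rfl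
@[simp] lemma ev3_nil (s a b : P) (t : ℕ) : ev3 s a b t [] = 0 := by cases t <;> rfl

lemma ev2_single (a b : P) (t : ℕ) (c : ℤ) : ev2 a b t [c] = (c : P) * a ^ t := by
  cases t <;> simp [ev2]

lemma ev2_axpy (a b : P) (c : ℤ) : ∀ (x y : List ℤ) (t : ℕ),
    ev2 a b t (axpy c x y) = (c : P) * ev2 a b t x + ev2 a b t y
  | [], y, t => by simp [axpy]
  | x :: xs, [], 0 => by simp [axpy, ev2]
  | x :: xs, [], t + 1 => by
      simp only [axpy, ev2, ev2_axpy a b c xs [] t, ev2_nil, Int.mul_def]; push_cast; ring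
  | x :: xs, y :: ys, 0 => by simp [axpy, ev2]
  | x :: xs, y :: ys, t + 1 => by
      simp only [axpy, ev2, ev2_axpy a b c xs ys t, Int.mul_def, Int.add_def]; push_cast; ring

lemma ev2_mulAux (a b : P) (ca cb : ℤ) : ∀ (l : List ℤ) (t : ℕ) (p : ℤ),
    ev2 a b (t + 1) (mulAux ca cb l (t + 1) p) =
      (cb : P) * p * a ^ (t + 1) + ((ca : P) * a + (cb : P) * b) * ev2 a b t l
  | [], t, p => by simp [mulAux, ev2]
  | c :: l, 0, p => by
      cases l <;> simp only [mulAux, ev2, Int.mul_def, Int.add_def] <;> push_cast <;> ring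
  | c :: l, t + 1, p => by
      rw [mulAux, ev2, ev2_mulAux a b ca cb l t c, ev2]
      simp only [Int.mul_def, Int.add_def]; push_cast; ring

lemma ev2_mul2 (a b : P) (ca cb : ℤ) (t : ℕ) (l : List ℤ) :
    ev2 a b (t + 1) (mul2 ca cb t l) = ((ca : P) * a + (cb : P) * b) * ev2 a b t l := by
  rw [mul2, ev2_mulAux]; simp

lemma ev2_pow2 (a b : P) (ca cb : ℤ) (t : ℕ) (l : List ℤ) : ∀ n : ℕ,
    ev2 a b (t + n) (pow2 ca cb t l n) = ((ca : P) * a + (cb : P) * b) ^ n * ev2 a b t l
  | 0 => by simp [pow2]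
  | n + 1 => by
      rw [pow2, ← add_assoc, ev2_mul2, ev2_pow2 a b ca cb t l n]; ring

lemma ev2_pow2_one (a b : P) (ca cb : ℤ) (n : ℕ) :
    ev2 a b n (pow2 ca cb 0 [1] n) = ((ca : P) * a + (cb : P) * b) ^ n := by
  have := ev2_pow2 a b ca cb 0 [1] n
  simpa [ev2] using this

lemma ev3_single (s a b : P) (t : ℕ) (l : List ℤ) : ev3 s a b t [l] = ev2 a b t l := by
  cases t <;> simp [ev3]

lemma ev3_mul3Aux (s a b : P) (cs ca cb : ℤ) : ∀ (L : List (List ℤ)) (t : ℕ) (p : List ℤ),
    ev3 s a b (t + 1) (mul3Aux cs ca cb L (t + 1) p) =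
      (cs : P) * ev2 a b (t + 1) p +
        ((cs : P) * s + (ca : P) * a + (cb : P) * b) * ev3 s a b t L
  | [], t, p => by simp [mul3Aux, ev3_single, ev2_axpy]
  | l :: L, 0, p => by
      have h : ev3 s a b 0 (mul3Aux cs ca cb L 0 l) = (cs : P) * ev2 a b 0 l := by
        cases L <;> simp [mul3Aux, ev3, ev2_axpy]
      simp only [mul3Aux, ev3, h, ev2_axpy, ev2_mul2]; ring
  | l :: L, t + 1, p => by
      rw [mul3Aux, ev3, ev3_mul3Aux s a b cs ca cb L t l, ev2_axpy, ev2_mul2, ev3]; ring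

lemma ev3_mul3 (s a b : P) (cs ca cb : ℤ) (t : ℕ) (L : List (List ℤ)) :
    ev3 s a b (t + 1) (mul3 cs ca cb t L) =
      ((cs : P) * s + (ca : P) * a + (cb : P) * b) * ev3 s a b t L := by
  cases L with
  | nil => simp [mul3]
  | cons l L => rw [mul3, ev3_mul3Aux]; simp

lemma ev3_addHead (s a b : P) (c : ℤ) (x : List ℤ) (t : ℕ) (L : List (List ℤ)) :
    ev3 s a b t (addHead c x L) = (c : P) * ev2 a b t x + ev3 s a b t L := by
  cases L with
  | nil => simp [addHead, ev3_single, ev2_axpy]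
  | cons l L => cases t <;> simp only [addHead, ev3, ev2_axpy, add_assoc]

lemma ev3_embL (s a b : P) : ∀ (l : List ℤ) (t : ℕ),
    ev3 s a b t (embL l t) = ev2 (4 * a - 4 * b) (3 * s + a + 2 * b) t l
  | [], t => by simp [embL]
  | c :: l, 0 => by simp [embL, ev3, ev2]
  | c :: l, t + 1 => by
      rw [embL, ev3_addHead, ev2_pow2_one, ev3_mul3, ev3_embL s a b l t, ev2]
      push_cast; ring

lemma ev2_scale (a b z : P) : ∀ (l : List ℤ) (t : ℕ),
    ev2 (z * a) (z * b) t l = z ^ t * ev2 a b t l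
  | [], t => by simp
  | c :: l, 0 => by simp [ev2]
  | c :: l, t + 1 => by rw [ev2, ev2, ev2_scale a b z l t]; ring

lemma map_ev2 {P' : Type*} [CommRing P'] (φ : P →+* P') (a b : P) : ∀ (l : List ℤ) (t : ℕ),
    φ (ev2 a b t l) = ev2 (φ a) (φ b) t l
  | [], t => by simp
  | c :: l, 0 => by simp [ev2]
  | c :: l, t + 1 => by simp [ev2, map_ev2 φ a b l t]

def lin : List P → List ℤ → P
  | v :: vs, c :: l => (c : P) * v + lin vs l
  | _, _ => 0

@[simp] lemma lin_nil_left (l : List ℤ) : lin ([] : List P) l = 0 := by cases l <;> rfl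
@[simp] lemma lin_nil_right (vs : List P) : lin vs [] = 0 := by cases vs <;> rfl

lemma lin_cons (v : P) (vs : List P) (l : List ℤ) :
    lin (v :: vs) l = ((l.headD 0 : ℤ) : P) * v + lin vs l.tail := by
  cases l <;> simp [lin]

lemma lin_axpy (c : ℤ) : ∀ (x y : List ℤ) (vs : List P),
    lin vs (axpy c x y) = (c : P) * lin vs x + lin vs y
  | [], y, vs => by simp [axpy]
  | x :: xs, y, [] => by simp
  | x :: xs, [], v :: vs => by
      simp only [axpy, lin, lin_axpy c xs [] vs, lin_nil_right, Int.mul_def]; push_cast; ring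
  | x :: xs, y :: ys, v :: vs => by
      simp only [axpy, lin, lin_axpy c xs ys vs, Int.mul_def, Int.add_def]; push_cast; ring

lemma lin_map_mul (z : P) : ∀ (vs : List P) (l : List ℤ),
    lin (vs.map (z * ·)) l = z * lin vs l
  | [], l => by simp
  | v :: vs, [] => by simp
  | v :: vs, c :: l => by simp only [List.map_cons, lin, lin_map_mul z vs l]; ring

def ovs (a b : P) : ℕ → List P
  | 0 => []
  | 1 => [b]
  | d + 2 => (b * a ^ (d + 1)) :: (ovs a b d).map (b ^ 2 * ·)

lemma lin_ovs_one (a b : P) (t : ℕ) : lin (ovs a b (t + 1)) [1] = b * a ^ t := by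
  cases t <;> simp [ovs, lin]

end ring

section forms
variable {P : Type*} [CommRing P] [Algebra ℝ P] (G : P →ₗ[ℝ] P →ₗ[ℝ] ℝ)

lemma zmul (c : ℤ) (x : P) : (c : P) * x = (c : ℝ) • x := by
  rw [Algebra.smul_def, map_intCast]

lemma G_zl (c : ℤ) (x y : P) : G ((c : P) * x) y = (c : ℝ) * G x y := by
  rw [zmul, map_smul]; rfl

lemma G_zr (c : ℤ) (x y : P) : G x ((c : P) * y) = (c : ℝ) * G x y := by
  rw [zmul, map_smul]; rfl

structure Osc (s : P) (ν : ℕ) (Dv : Derivation ℝ P P) : Prop where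
  sym : ∀ p q, G p q = G q p
  adj : ∀ p q, G (s * p) q = G p (Dv q)
  ds : Dv s = (ν : P)

variable {G}

lemma Osc.diag {s : P} {ν : ℕ} {Dv : Derivation ℝ P P} (h : Osc G s ν Dv) {u : P}
    (hu : Dv u = 0) (x : P) : ∀ k : ℕ,
    G (s ^ k * x) (s ^ k * u) = (k.factorial : ℝ) * (ν : ℝ) ^ k * G x u
  | 0 => by simp
  | k + 1 => by
      have e : Dv (s ^ (k + 1) * u) = (((k + 1) * ν : ℕ) : ℝ) • (s ^ k * u) := by
        rw [Derivation.leibniz, hu, Derivation.leibniz_pow, h.ds,
          Algebra.smul_def (((k + 1) * ν : ℕ) : ℝ), map_natCast]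
        simp only [Nat.add_sub_cancel, smul_eq_mul, nsmul_eq_mul]
        push_cast; ring
      have e' : s ^ (k + 1) * x = s * (s ^ k * x) := by ring
      rw [e', h.adj, e, map_smul, Osc.diag h hu x k, Nat.factorial_succ]
      simp only [smul_eq_mul]; push_cast; ring

lemma Osc.cross {s : P} {ν : ℕ} {Dv : Derivation ℝ P P} (h : Osc G s ν Dv) {u : P}
    (hu : Dv u = 0) (x : P) (k : ℕ) : G (s ^ k * (s * x)) (s ^ k * u) = 0 := by
  rw [h.diag hu, h.adj, hu]; simp

/-- splitting off the lowest power of `s` -/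
lemma Osc.split {s : P} {ν : ℕ} {Dv : Derivation ℝ P P} (h : Osc G s ν Dv) {u v : P}
    (hu : Dv u = 0) (hv : Dv v = 0) (x y : P) (k : ℕ) :
    G (s ^ k * (u + s * x)) (s ^ k * (v + s * y)) =
      (k.factorial : ℝ) * (ν : ℝ) ^ k * G u v + G (s ^ (k + 1) * x) (s ^ (k + 1) * y) := by
  have e1 := h.cross hv x k
  have e2 := h.cross hu y k
  rw [h.sym] at e2
  have e3 := h.diag hv u k
  simp only [mul_add, map_add, LinearMap.add_apply, e1, e2, e3, pow_succ, mul_assoc]
  ring

lemma der_int (Dv : Derivation ℝ P P) (c : ℤ) : Dv (c : P) = 0 := by simp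

lemma der_ev2 (Dv : Derivation ℝ P P) {a b : P} (ha : Dv a = 0) (hb : Dv b = 0) :
    ∀ (l : List ℤ) (t : ℕ), Dv (ev2 a b t l) = 0
  | [], t => by simp
  | c :: l, 0 => by simp [ev2]
  | c :: l, t + 1 => by
      simp [ev2, Derivation.leibniz, Derivation.leibniz_pow, ha, hb, der_ev2 Dv ha hb l t]

def evK (y : ℕ → ℝ) : ℕ → List ℚ → ℝ
  | _, [] => 0
  | 0, c :: _ => (c : ℝ) * y 0
  | t + 1, c :: K => (c : ℝ) * y (t + 1) + evK y t K

@[simp] lemma evK_nil (y : ℕ → ℝ) (t : ℕ) : evK y t [] = 0 := by cases t <;> rfl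

lemma evK_zero (y : ℕ → ℝ) (K : List ℚ) : evK y 0 K = ((K.headD 0 : ℚ) : ℝ) * y 0 := by
  cases K <;> simp [evK]

lemma evK_succ (y : ℕ → ℝ) (t : ℕ) (K : List ℚ) :
    evK y (t + 1) K = ((K.headD 0 : ℚ) : ℝ) * y (t + 1) + evK y t K.tail := by
  cases K <;> simp [evK]

lemma evK_accQ {s : P} {ν : ℕ} {Dv : Derivation ℝ P P} (h : Osc G s ν Dv) {u a : P}
    (hu : Dv u = 0) (ha : Dv a = 0) (w : ℚ) :
    ∀ (l l' : List ℤ) (f : ℤ) (k : ℕ) (K : List ℚ) (t : ℕ),
      (f : ℝ) = (k.factorial : ℝ) * (ν : ℝ) ^ k →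
      evK (fun m => G (u * a ^ m) (u * a ^ m)) t (accQ ν w l l' f k K) =
        evK (fun m => G (u * a ^ m) (u * a ^ m)) t K +
          (w : ℝ) * G (s ^ k * (u * ev2 a s t l)) (s ^ k * (u * ev2 a s t l'))
  | [], l', f, k, K, t, _ => by simp [accQ]
  | c :: l, [], f, k, K, t, _ => by simp [accQ]
  | c :: l, c' :: l', f, k, K, 0, hf => by
      have hd : Dv (u * (c' : P)) = 0 := by simp [Derivation.leibniz, hu]
      rw [accQ, evK, evK_zero, ev2, ev2, h.diag hd, mul_comm u (c : P), mul_comm u (c' : P),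
        G_zl, G_zr, ← hf]
      simp only [Int.mul_def, pow_zero, mul_one]; push_cast; ring
  | c :: l, c' :: l', f, k, K, t + 1, hf => by
      have hd : ∀ c : ℤ, Dv ((c : P) * (u * a ^ (t + 1))) = 0 := by
        intro c; simp [Derivation.leibniz, Derivation.leibniz_pow, hu, ha]
      have e : ∀ (c : ℤ) (l : List ℤ), u * ev2 a s (t + 1) (c :: l) =
          (c : P) * (u * a ^ (t + 1)) + s * (u * ev2 a s t l) := by
        intro c l; rw [ev2]; ring
      rw [accQ, evK, evK_succ, evK_accQ h hu ha w l l' _ (k + 1) K.tail t, e, e,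
        h.split (hd c) (hd c'), G_zl, G_zr, ← hf]
      · simp only [Int.mul_def]; push_cast; ring
      · simp only [Int.mul_def, Int.ofNat_eq_natCast, Nat.factorial_succ]; push_cast
        rw [hf]; ring

lemma evK_accQAt {s : P} {ν : ℕ} {Dv : Derivation ℝ P P} (h : Osc G s ν Dv) {u a : P}
    (hu : Dv u = 0) (ha : Dv a = 0) (w : ℚ) (l l' : List ℤ) (t : ℕ) :
    ∀ (n : ℕ) (K : List ℚ),
      evK (fun m => G (u * a ^ m) (u * a ^ m)) (t + n) (accQAt ν w l l' n K) =
        evK (fun m => G (u * a ^ m) (u * a ^ m)) (t + n) K +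
          (w : ℝ) * G (u * ev2 a s t l) (u * ev2 a s t l')
  | 0, K => by
      have := evK_accQ h hu ha w l l' 1 0 K t (by simp)
      simpa [accQAt] using this
  | n + 1, K => by
      rw [accQAt, ← add_assoc, evK, evK_succ, evK_accQAt h hu ha w l l' t n K.tail]; ring

lemma evK_accQAt' {s : P} {ν : ℕ} {Dv : Derivation ℝ P P} (h : Osc G s ν Dv) {u a : P}
    (hu : Dv u = 0) (ha : Dv a = 0) (w : ℚ) (l l' : List ℤ) {t T : ℕ} (ht : t ≤ T)
    (K : List ℚ) :
      evK (fun m => G (u * a ^ m) (u * a ^ m)) T (accQAt ν w l l' (T - t) K) =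
        evK (fun m => G (u * a ^ m) (u * a ^ m)) T K +
          (w : ℝ) * G (u * ev2 a s t l) (u * ev2 a s t l') := by
  have := evK_accQAt h hu ha w l l' t (T - t) K
  rwa [Nat.add_sub_cancel' ht] at this

lemma chk3_sound {y : ℕ → ℝ} (hy : ∀ m, 0 ≤ y m) (h0 : y 0 = 0) (h1 : y 1 = 0) (h3 : y 3 = 0) :
    ∀ (K : List ℚ) (t : ℕ), chk3 K t = true → 0 ≤ evK y t K
  | [], t, _ => by simp
  | c :: K, 0, _ => by simp [evK, h0]
  | c :: K, t + 1, h => by
      simp only [chk3, Bool.and_eq_true, Bool.or_eq_true, decide_eq_true_eq] at h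
      have ih := chk3_sound hy h0 h1 h3 K t h.2
      rw [evK]
      rcases h.1 with (hc | hc) | hc
      · have : (0 : ℝ) ≤ c := by exact_mod_cast hc
        have := mul_nonneg this (hy (t + 1))
        linarith
      · subst hc; simp [h1, ih]
      · subst hc; simp [h3, ih]

lemma dropPos_sound {y : ℕ → ℝ} (hy : ∀ m, 0 ≤ y m) (t : ℕ) :
    ∀ (n : ℕ) (K K' : List ℚ), dropPos n K = some K' → evK y t K' ≤ evK y (t + n) K
  | 0, K, K', h => by
      simp only [dropPos, Option.some.injEq] at h; subst h; simp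
  | n + 1, K, K', h => by
      rw [dropPos] at h
      split_ifs at h with hc
      have ih := dropPos_sound hy t n K.tail K' h
      rw [← add_assoc, evK_succ]
      have : (0 : ℝ) ≤ ((K.headD 0 : ℚ) : ℝ) := by exact_mod_cast hc
      have := mul_nonneg this (hy (t + n + 1))
      linarith

variable (G)

def form (vs0 : List P) : List P → List (List ℤ) → ℝ
  | v :: vs, r :: M => G v (lin vs0 r) + form vs0 vs M
  | _, _ => 0

@[simp] lemma form_nil_left (vs0 : List P) (M : List (List ℤ)) : form G vs0 [] M = 0 := by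
  cases M <;> rfl
@[simp] lemma form_nil_right (vs0 vs : List P) : form G vs0 vs [] = 0 := by
  cases vs <;> rfl

lemma form_accMat (vs0 : List P) (w : ℤ) (v : List ℤ) : ∀ (u : List ℤ) (M : List (List ℤ))
    (vs : List P),
    form G vs0 vs (accMat w v u M) = form G vs0 vs M + (w : ℝ) * G (lin vs u) (lin vs0 v)
  | [], M, vs => by simp [accMat]
  | c :: u, M, [] => by simp
  | c :: u, [], x :: vs => by
      simp only [accMat, form, form_accMat vs0 w v u [] vs, lin_axpy, lin, lin_nil_right,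
        map_add, LinearMap.add_apply, G_zl, G_zr, Int.mul_def, form_nil_right, map_zero]
      push_cast; ring
  | c :: u, r :: M, x :: vs => by
      simp only [accMat, form, form_accMat vs0 w v u M vs, lin_axpy, lin,
        map_add, LinearMap.add_apply, G_zl, G_zr, Int.mul_def]
      push_cast; ring

lemma form_tailsS (v : P) (vs0 : List P) (c : ℤ) : ∀ (M : List (List ℤ)) (vs : List P),
    (c : ℝ) * form G (v :: vs0) vs M =
      (c : ℝ) * G (lin vs (heads M)) v + form G vs0 vs (tailsS c M)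
  | [], vs => by simp [heads, tailsS]
  | r :: M, [] => by simp
  | r :: M, x :: vs => by
      have ih := form_tailsS v vs0 c M vs
      simp only [heads, tailsS, form, lin, lin_cons v vs0 r, lin_axpy, lin_nil_right,
        map_add, LinearMap.add_apply, G_zl, G_zr, map_zero]
      linear_combination ih

variable {G}

lemma psd_sound (hs : ∀ p q, G p q = G q p) (hp : ∀ p, 0 ≤ G p p) :
    ∀ (n : ℕ) (M : List (List ℤ)) (vs : List P), psd n M = true → 0 ≤ form G vs vs M
  | _, [], vs, _ => by simp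
  | 0, _ :: _, vs, h => by simp [psd] at h
  | n + 1, r :: M, [], _ => by simp
  | n + 1, r :: M, v :: vs, h => by
      simp only [psd, Bool.and_eq_true, decide_eq_true_eq] at h
      have ih := psd_sound hs hp n _ vs h.2
      have hp0 : (0 : ℝ) < ((r.headD 0 : ℤ) : ℝ) := by exact_mod_cast h.1
      set p : ℝ := ((r.headD 0 : ℤ) : ℝ) with hpdef
      have e1 := form_tailsS G v vs (Int.mul 4 (r.headD 0)) M vs
      rw [form_accMat, lin_axpy] at ih
      have hc : ((Int.mul 4 (r.headD 0) : ℤ) : ℝ) = 4 * p := by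
        simp only [Int.mul_def]; push_cast; rfl
      rw [hc] at e1
      set A := lin vs r.tail
      set B := lin vs (heads M)
      have h2 := hp ((2 * p) • v + (A + B))
      simp only [Int.cast_one, one_mul, Int.cast_neg, map_add, LinearMap.add_apply, map_smul,
        LinearMap.smul_apply, smul_eq_mul] at ih h2
      rw [form, lin_cons, map_add, G_zr]
      have key : 0 ≤ 4 * p * (p * G v v + G v A + form G (v :: vs) vs M) := by
        rw [hs A v, hs B v] at h2
        rw [hs B v] at e1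
        nlinarith
      have h4 : 0 < 4 * p := by positivity
      have := (mul_nonneg_iff_of_pos_left h4).mp key
      linarith

lemma odd_part {a b : P} (hE : ∀ m n q, G (b ^ (2 * n) * a ^ m) q = 0) (q : P) :
    ∀ (d : ℕ) (l : List ℤ) (n : ℕ),
      G (b ^ (2 * n) * ev2 a b d l) q = G (b ^ (2 * n) * lin (ovs a b d) (odds l)) q
  | d, [], n => by simp [odds]
  | d, [c], n => by
      rw [ev2_single, mul_left_comm, G_zl, hE]; simp [odds]
  | 0, c :: c' :: l, n => by
      have := hE 0 n q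
      rw [ev2, mul_comm, G_zl]; simp only [pow_zero, mul_one] at this; simp [ovs, this]
  | 1, c :: c' :: l, n => by
      have := hE 1 n q
      simp only [ev2, ovs, odds, lin, mul_add, map_add, LinearMap.add_apply,
        zero_add, add_zero]
      rw [mul_left_comm, G_zl, this, mul_comm b]; simp
  | d + 2, c :: c' :: l, n => by
      have h1 := hE (d + 2) n q
      have ih := odd_part hE q d l (n + 1)
      have e1 : b ^ (2 * n) * ev2 a b (d + 2) (c :: c' :: l) =
          (c : P) * (b ^ (2 * n) * a ^ (d + 2)) + b ^ (2 * n) * ((c' : P) * (b * a ^ (d + 1))) +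
            b ^ (2 * (n + 1)) * ev2 a b d l := by
        rw [ev2, ev2]; ring
      have e2 : b ^ (2 * n) * lin (ovs a b (d + 2)) (odds (c :: c' :: l)) =
          b ^ (2 * n) * ((c' : P) * (b * a ^ (d + 1))) +
            b ^ (2 * (n + 1)) * lin (ovs a b d) (odds l) := by
        rw [ovs, odds, lin, lin_map_mul]; ring
      rw [e1, e2]
      simp only [map_add, LinearMap.add_apply, G_zl, h1, ih]; ring

lemma odd_part' {a b : P} (hE : ∀ m n q, G (b ^ (2 * n) * a ^ m) q = 0) (q : P)
    (d : ℕ) (l : List ℤ) : G (ev2 a b d l) q = G (lin (ovs a b d) (odds l)) q := by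
  simpa using odd_part hE q d l 0

variable (G)

def evK4 (a b : P) : ℕ → List (List (List ℤ)) → ℝ
  | _, [] => 0
  | 0, M :: _ => form G (ovs a b 0) (ovs a b 0) M
  | t + 1, M :: K => form G (ovs a b (t + 1)) (ovs a b (t + 1)) M + evK4 a b t K

@[simp] lemma evK4_nil (a b : P) (t : ℕ) : evK4 G a b t [] = 0 := by cases t <;> rfl

lemma evK4_zero (a b : P) (K : List (List (List ℤ))) :
    evK4 G a b 0 K = form G (ovs a b 0) (ovs a b 0) (K.headD []) := by
  cases K <;> simp [evK4]

lemma evK4_succ (a b : P) (t : ℕ) (K : List (List (List ℤ))) :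
    evK4 G a b (t + 1) K =
      form G (ovs a b (t + 1)) (ovs a b (t + 1)) (K.headD []) + evK4 G a b t K.tail := by
  cases K <;> simp [evK4]

variable {G}

lemma evK4_accK {s : P} {Dv : Derivation ℝ P P} (h : Osc G s 4 Dv) {a b : P}
    (ha : Dv a = 0) (hb : Dv b = 0) (hE : ∀ m n q, G (b ^ (2 * n) * a ^ m) q = 0) (w0 : ℝ) :
    ∀ (L L' : List (List ℤ)) (w : ℤ) (k : ℕ) (K : List (List (List ℤ))) (t : ℕ),
      (w : ℝ) = w0 * ((k.factorial : ℝ) * ((4 : ℕ) : ℝ) ^ k) →
      evK4 G a b t (accK L L' w k K) =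
        evK4 G a b t K + w0 * G (s ^ k * ev3 s a b t L) (s ^ k * ev3 s a b t L')
  | [], L', w, k, K, t, _ => by simp [accK]
  | l :: L, [], w, k, K, t, _ => by simp [accK]
  | l :: L, l' :: L', w, k, K, 0, hw => by
      rw [accK, evK4, evK4_zero, form_accMat, ev3, ev3, h.diag (der_ev2 Dv ha hb l' 0),
        ← odd_part' hE, h.sym, ← odd_part' hE, h.sym, hw]; ring
  | l :: L, l' :: L', w, k, K, t + 1, hw => by
      rw [accK, evK4, evK4_succ, form_accMat, ev3, ev3,
        h.split (der_ev2 Dv ha hb l _) (der_ev2 Dv ha hb l' _),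
        evK4_accK h ha hb hE w0 L L' _ (k + 1) K.tail t,
        ← odd_part' hE, h.sym, ← odd_part' hE, h.sym, hw]
      · ring
      · simp only [Int.mul_def, Int.ofNat_eq_natCast, Nat.factorial_succ]; push_cast
        rw [hw]; push_cast; ring

lemma evK4_accAt {s : P} {Dv : Derivation ℝ P P} (h : Osc G s 4 Dv) {a b : P}
    (ha : Dv a = 0) (hb : Dv b = 0) (hE : ∀ m n q, G (b ^ (2 * n) * a ^ m) q = 0)
    (L L' : List (List ℤ)) (w : ℤ) (t : ℕ) : ∀ (n : ℕ) (K : List (List (List ℤ))),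
      evK4 G a b (t + n) (accAt L L' w n K) =
        evK4 G a b (t + n) K + (w : ℝ) * G (ev3 s a b t L) (ev3 s a b t L')
  | 0, K => by
      have := evK4_accK h ha hb hE w L L' w 0 K t (by simp)
      simpa [accAt] using this
  | n + 1, K => by
      rw [accAt, ← add_assoc, evK4, evK4_succ, evK4_accAt h ha hb hE L L' w t n K.tail]; ring

variable (G)

def crossF (z : P) : List P → P → ℝ
  | [], _ => 0
  | p :: rest, p0 => G (p0 * z) p + crossF z rest (p0 * z)

def QF (z : P) : ℕ → List P → ℝ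
  | 0, _ => 0
  | _ + 1, [] => 0
  | n + 1, p0 :: rest => G p0 p0 + 2 * crossF G z rest p0 + QF z n (rest.map (· * z))

lemma crossF_eq (z : P) : ∀ (rest : List P) (p0 : P) (n : ℕ), rest.length ≤ n →
    crossF G z rest p0 = ∑ j ∈ range n, G (p0 * z ^ (j + 1)) (rest.getD j 0)
  | [], p0, n, _ => by simp [crossF]
  | p :: rest, p0, 0, h => by simp at h
  | p :: rest, p0, n + 1, h => by
      rw [crossF, crossF_eq z rest (p0 * z) n (by simpa using h), sum_range_succ']
      simp only [List.getD_cons_succ, List.getD_cons_zero, zero_add, pow_one]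
      rw [add_comm]; congr 1
      refine sum_congr rfl fun j _ => ?_
      congr 2; ring

variable {G}

lemma QF_eq (hs : ∀ p q, G p q = G q p) (z : P) : ∀ (n : ℕ) (ps : List P), ps.length ≤ n →
    QF G z n ps = ∑ i ∈ range n, ∑ j ∈ range n,
      G (ps.getD i 0 * z ^ j) (ps.getD j 0 * z ^ i)
  | 0, ps, _ => by simp [QF]
  | n + 1, [], _ => by simp [QF]
  | n + 1, p0 :: rest, h => by
      have h' : rest.length ≤ n := by simpa using h
      rw [QF, QF_eq hs z n _ (by simpa using h'), crossF_eq G z rest p0 n h', sum_range_succ']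
      simp only [sum_range_succ' _ n, List.getD_cons_succ, List.getD_cons_zero, pow_zero,
        mul_one, sum_add_distrib]
      have e1 : ∀ i, (rest.map (· * z)).getD i 0 = rest.getD i 0 * z := by
        intro i
        simp only [List.getD_eq_getElem?_getD, List.getElem?_map]
        cases rest[i]? <;> simp
      have e2 : ∑ i ∈ range n, G (rest.getD i 0) (p0 * z ^ (i + 1)) =
          ∑ j ∈ range n, G (p0 * z ^ (j + 1)) (rest.getD j 0) :=
        sum_congr rfl fun i _ => hs _ _
      have e3 : ∑ i ∈ range n, ∑ j ∈ range n,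
          G ((rest.map (· * z)).getD i 0 * z ^ j) ((rest.map (· * z)).getD j 0 * z ^ i) =
          ∑ i ∈ range n, ∑ j ∈ range n,
            G (rest.getD i 0 * z ^ (j + 1)) (rest.getD j 0 * z ^ (i + 1)) := by
        refine sum_congr rfl fun i _ => sum_congr rfl fun j _ => ?_
        rw [e1, e1, mul_assoc, mul_assoc, ← pow_succ', ← pow_succ']
      rw [e2, e3]; ring

end forms

end Vale.Agent.P359
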