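import Vale.Agent.P359.Basic
import Vale.Agent.P359.PlaneA

/-! Soundness of the certificate checker for the planar moment problem. -/

namespace Vale.Agent.P359

open Finset MvPolynomial

noncomputable def s4 : P3 := X 0 + X 1 + X 2
noncomputable def a4 : P3 := X 0 - X 1 - X 2
noncomputable def b4 : P3 := X 1 - X 2

noncomputable def Dv3 : Derivation ℝ P2 P2 := (2 : ℝ) • pderiv 0 + pderiv 1
noncomputable def Dv4 : Derivation ℝ P3 P3 := (2 : ℝ) • pderiv 0 + pderiv 1 + pderiv 2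

lemma Dv3_apply (p : P2) : Dv3 p = (2 : ℝ) • pderiv 0 p + pderiv 1 p := rfl
lemma Dv4_apply (p : P3) : Dv4 p = (2 : ℝ) • pderiv 0 p + pderiv 1 p + pderiv 2 p := rfl

lemma two_smul_one {σ : Type*} : (2 : ℝ) • (1 : MvPolynomial σ ℝ) = 2 := by
  rw [two_smul]; norm_num

lemma Dv3_X0 : Dv3 (X 0) = 2 := by simp [Dv3_apply, two_smul_one]
lemma Dv3_X1 : Dv3 (X 1) = 1 := by simp [Dv3_apply]
lemma Dv4_X0 : Dv4 (X 0) = 2 := by simp [Dv4_apply, two_smul_one]
lemma Dv4_X1 : Dv4 (X 1) = 1 := by simp [Dv4_apply]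
lemma Dv4_X2 : Dv4 (X 2) = 1 := by simp [Dv4_apply]

lemma Dv3_rho : Dv3 rho = 0 := by
  rw [rho, two_mul, map_sub, map_add, Dv3_X0, Dv3_X1]; norm_num
lemma Dv3_sig : Dv3 sig = ((3 : ℕ) : P2) := by
  rw [sig, map_add, Dv3_X0, Dv3_X1]; norm_num
lemma Dv4_a : Dv4 a4 = 0 := by
  rw [a4, map_sub, map_sub, Dv4_X0, Dv4_X1, Dv4_X2]; norm_num
lemma Dv4_b : Dv4 b4 = 0 := by
  rw [b4, map_sub, Dv4_X1, Dv4_X2]; norm_num
lemma Dv4_s : Dv4 s4 = ((4 : ℕ) : P3) := by
  rw [s4, map_add, map_add, Dv4_X0, Dv4_X1, Dv4_X2]; norm_num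

lemma emb_X0 : emb (X 0) = X 0 := by simp [emb]
lemma emb_X1 : emb (X 1) = X 1 := by simp [emb]
lemma emb_rho : emb rho = a4 - b4 := by
  rw [rho, two_mul, map_sub, map_add, emb_X0, emb_X1, a4, b4]; ring
lemma emb_sig : emb sig = X 0 + X 1 := by rw [sig, map_add, emb_X0, emb_X1]

lemma nrm_zero (M : ℕ) : nrm 0 M = (M.factorial : ℝ) * 2 ^ M := by simp [nrm]
lemma gam_zero (M : ℕ) : gam 0 M = (M.factorial : ℝ) := by simp [gam]

noncomputable def I3 (t : ℕ) (l : List ℤ) : P2 := ((1 / 3 : ℝ) ^ t) • ev2 rho sig t l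
noncomputable def I4 (t : ℕ) (L : List (List ℤ)) : P3 := ((1 / 4 : ℝ) ^ t) • ev3 s4 a4 b4 t L

lemma smul_three (p : P2) : (1 / 3 : ℝ) • (3 * p) = p := by
  have : (3 : P2) * p = (3 : ℝ) • p := by
    rw [Algebra.smul_def]; congr 1
  rw [this, smul_smul]; norm_num

lemma smul_four (p : P3) : (1 / 4 : ℝ) • (4 * p) = p := by
  have : (4 : P3) * p = (4 : ℝ) • p := by
    rw [Algebra.smul_def]; congr 1
  rw [this, smul_smul]; norm_num

lemma I3_mulY (t : ℕ) (l : List ℤ) : I3 (t + 1) (mulY t l) = I3 t l * X 1 := by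
  have e : (((-1 : ℤ) : P2) * rho + ((1 : ℤ) : P2) * sig) * ev2 rho sig t l =
      3 * (ev2 rho sig t l * X 1) := by
    rw [rho, sig]; push_cast; ring
  rw [I3, mulY, ev2_mul2, e, pow_succ, mul_smul, smul_three, I3, smul_mul_assoc]

lemma I3_mulX (t : ℕ) (l : List ℤ) : I3 (t + 1) (mulX t l) = I3 t l * X 0 := by
  have e : (((1 : ℤ) : P2) * rho + ((2 : ℤ) : P2) * sig) * ev2 rho sig t l =
      3 * (ev2 rho sig t l * X 0) := by
    rw [rho, sig]; push_cast; ring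
  rw [I3, mulX, ev2_mul2, e, pow_succ, mul_smul, smul_three, I3, smul_mul_assoc]

lemma I4_mulZ (t : ℕ) (L : List (List ℤ)) : I4 (t + 1) (mulZ t L) = I4 t L * X 2 := by
  have e : (((1 : ℤ) : P3) * s4 + ((-1 : ℤ) : P3) * a4 + ((-2 : ℤ) : P3) * b4) *
      ev3 s4 a4 b4 t L = 4 * (ev3 s4 a4 b4 t L * X 2) := by
    generalize ev3 s4 a4 b4 t L = z
    rw [s4, a4, b4]; push_cast; ring
  rw [I4, mulZ, ev3_mul3, e, pow_succ, mul_smul, smul_four, I4, smul_mul_assoc]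

lemma I3_one : I3 0 [1] = 1 := by simp [I3, ev2]

lemma I3_powY : ∀ n : ℕ, I3 n (pow2 (-1) 1 0 [1] n) = X 1 ^ n
  | 0 => by simp [pow2, I3_one]
  | n + 1 => by
      have := I3_mulY n (pow2 (-1) 1 0 [1] n)
      rw [I3_powY n, mulY] at this
      rw [pow2, zero_add, this, pow_succ]

lemma I3_powX : ∀ n : ℕ, I3 n (pow2 1 2 0 [1] n) = X 0 ^ n
  | 0 => by simp [pow2, I3_one]
  | n + 1 => by
      have := I3_mulX n (pow2 1 2 0 [1] n)
      rw [I3_powX n, mulX] at this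
      rw [pow2, zero_add, this, pow_succ]

lemma I3_axpy (t : ℕ) (x : ℤ) (l : List ℤ) : I3 t (axpy x l []) = (x : ℝ) • I3 t l := by
  rw [I3, ev2_axpy, ev2_nil, add_zero, zmul, I3, smul_comm]

lemma I4_embL (t : ℕ) (l : List ℤ) : I4 t (embL l t) = emb (ev2 rho sig t l) := by
  have e1 : 4 * a4 - 4 * b4 = 4 * (a4 - b4) := by ring
  have e2 : 3 * s4 + a4 + 2 * b4 = 4 * (X 0 + X 1) := by rw [s4, a4, b4]; ring
  have e3 := map_ev2 (emb : P2 →ₐ[ℝ] P3).toRingHom rho sig l t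
  simp only [AlgHom.toRingHom_eq_coe, RingHom.coe_coe, emb_rho, emb_sig] at e3
  rw [I4, ev3_embL, e1, e2, ev2_scale, e3]
  have : (4 : P3) ^ t * ev2 (a4 - b4) (X 0 + X 1) t l =
      ((4 : ℝ) ^ t) • ev2 (a4 - b4) (X 0 + X 1) t l := by
    rw [Algebra.smul_def, map_pow]; congr 1
  rw [this, smul_smul, ← mul_pow]; norm_num

noncomputable def IL3 : List (List ℤ) → ℕ → List P2
  | [], _ => []
  | p :: rest, D => I3 D p :: IL3 rest (D + 1)

noncomputable def IL4 : List (List (List ℤ)) → ℕ → List P3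
  | [], _ => []
  | p :: rest, D => I4 D p :: IL4 rest (D + 1)

lemma IL3_mapY : ∀ (ps : List (List ℤ)) (D : ℕ),
    IL3 (mapY ps D) (D + 1) = (IL3 ps D).map (· * X 1)
  | [], D => by simp [mapY, IL3]
  | p :: ps, D => by simp [mapY, IL3, I3_mulY, IL3_mapY ps (D + 1)]

lemma IL4_mapZ : ∀ (ps : List (List (List ℤ))) (D : ℕ),
    IL4 (mapZ ps D) (D + 1) = (IL4 ps D).map (· * X 2)
  | [], D => by simp [mapZ, IL4]
  | p :: ps, D => by simp [mapZ, IL4, I4_mulZ, IL4_mapZ ps (D + 1)]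

lemma length_mapY : ∀ (ps : List (List ℤ)) (D : ℕ), (mapY ps D).length = ps.length
  | [], D => by simp [mapY]
  | p :: ps, D => by simp [mapY, length_mapY ps (D + 1)]

lemma length_mapZ : ∀ (ps : List (List (List ℤ))) (D : ℕ), (mapZ ps D).length = ps.length
  | [], D => by simp [mapZ]
  | p :: ps, D => by simp [mapZ, length_mapZ ps (D + 1)]

lemma length_IL3 : ∀ (ps : List (List ℤ)) (D : ℕ), (IL3 ps D).length = ps.length
  | [], D => by simp [IL3]
  | p :: ps, D => by simp [IL3, length_IL3 ps (D + 1)]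

lemma length_IL4 : ∀ (ps : List (List (List ℤ))) (D : ℕ), (IL4 ps D).length = ps.length
  | [], D => by simp [IL4]
  | p :: ps, D => by simp [IL4, length_IL4 ps (D + 1)]

lemma length_hAll : ∀ (xs : List ℤ) (t : ℕ) (p : List ℤ), (hAll xs t p).length = xs.length
  | [], t, p => by simp [hAll]
  | x :: xs, t, p => by simp [hAll, length_hAll xs (t + 1)]

lemma length_embAll : ∀ (ls : List (List ℤ)) (t : ℕ), (embAll ls t).length = ls.length
  | [], t => by simp [embAll]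
  | x :: xs, t => by simp [embAll, length_embAll xs (t + 1)]

lemma getD_hAll : ∀ (xs : List ℤ) (t : ℕ) (p : List ℤ) (M : ℕ),
    (IL3 (hAll xs t p) t).getD M 0 = ((xs.getD M 0 : ℤ) : ℝ) • (I3 t p * X 0 ^ M)
  | [], t, p, M => by simp [hAll, IL3]
  | x :: xs, t, p, 0 => by simp [hAll, IL3, I3_axpy]
  | x :: xs, t, p, M + 1 => by
      simp only [hAll, IL3, List.getD_cons_succ, getD_hAll xs (t + 1) _ M, I3_mulX]
      congr 1; ring

lemma getD_embAll : ∀ (ls : List (List ℤ)) (t i : ℕ),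
    (IL4 (embAll ls t) t).getD i 0 = emb (ev2 rho sig (t + i) (ls.getD i []))
  | [], t, i => by simp [embAll, IL4]
  | l :: ls, t, 0 => by simp [embAll, IL4, I4_embL]
  | l :: ls, t, i + 1 => by
      simp only [embAll, IL4, List.getD_cons_succ, getD_embAll ls (t + 1) i]
      congr 2; ring

section
variable {δ : ℝ} {G3 : P2 →ₗ[ℝ] P2 →ₗ[ℝ] ℝ} {G4 : P3 →ₗ[ℝ] P3 →ₗ[ℝ] ℝ}

lemma Good.osc3 (h : Good 0 δ G3 G4) : Osc G3 sig 3 Dv3 where
  sym := h.sym3
  adj p q := by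
    have := h.adj3 p q
    simpa [low3, lowr, Dv3_apply, sig] using this
  ds := Dv3_sig

lemma Good.osc4 (h : Good 0 δ G3 G4) : Osc G4 s4 4 Dv4 where
  sym := h.sym4
  adj p q := by
    have := h.adj4 p q
    simpa [low4, lowr, Dv4_apply, s4] using this
  ds := Dv4_s

lemma Good.even (h : Good 0 δ G3 G4) (m n : ℕ) (q : P3) : G4 (b4 ^ (2 * n) * a4 ^ m) q = 0 := by
  have := h.anti (b4 ^ (2 * n) * a4 ^ m) q
  have ea : rename (Equiv.swap (1 : Fin 3) 2) a4 = a4 := by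
    simp only [a4, map_sub, rename_X]
    rw [Equiv.swap_apply_left, Equiv.swap_apply_right,
      Equiv.swap_apply_of_ne_of_ne (by decide) (by decide)]
    ring
  have eb : rename (Equiv.swap (1 : Fin 3) 2) b4 = -b4 := by
    simp only [b4, map_sub, rename_X]
    rw [Equiv.swap_apply_left, Equiv.swap_apply_right]
    ring
  rw [map_mul, map_pow, map_pow, ea, eb, Even.neg_pow (even_two_mul n)] at this
  linarith

/-- the three-body moments -/
noncomputable def y3 (G3 : P2 →ₗ[ℝ] P2 →ₗ[ℝ] ℝ) : ℕ → ℝ := fun m => G3 (1 * rho ^ m) (1 * rho ^ m)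
noncomputable def y4 (G4 : P3 →ₗ[ℝ] P3 →ₗ[ℝ] ℝ) : ℕ → ℝ := fun m => G4 (b4 * a4 ^ m) (b4 * a4 ^ m)

lemma Good.acc3 (h : Good 0 δ G3 G4) (w : ℚ) (l l' : List ℤ) {t T : ℕ} (ht : t ≤ T)
    (K : List ℚ) : evK (y3 G3) T (accQAt 3 w l l' (T - t) K) =
      evK (y3 G3) T K + (w : ℝ) * G3 (ev2 rho sig t l) (ev2 rho sig t l') := by
  have := evK_accQAt' h.osc3 (u := 1) (a := rho) (by simp) Dv3_rho w l l' ht K
  rw [one_mul, one_mul] at this
  exact this

lemma G3_I3 (t : ℕ) (l l' : List ℤ) :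
    G3 (ev2 rho sig t l) (ev2 rho sig t l') = 9 ^ t * G3 (I3 t l) (I3 t l') := by
  simp only [I3, map_smul, LinearMap.smul_apply, smul_eq_mul]
  rw [← mul_assoc, ← mul_assoc, ← mul_pow, ← mul_pow]; norm_num

lemma G3_I3_left (t : ℕ) (l : List ℤ) (q : P2) :
    G3 (ev2 rho sig t l) q = 3 ^ t * G3 (I3 t l) q := by
  simp only [I3, map_smul, LinearMap.smul_apply, smul_eq_mul]
  rw [← mul_assoc, ← mul_pow]; norm_num

lemma Good.acc4' (h : Good 0 δ G3 G4) (w : ℤ) (L L' : List (List ℤ)) {D T : ℕ} (hD : D ≤ T)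
    (K : List (List (List ℤ))) : evK4 G4 a4 b4 T (acc4 T D w L L' K) =
      evK4 G4 a4 b4 T K + 16 ^ T * ((w : ℝ) * G4 (I4 D L) (I4 D L')) := by
  have := evK4_accAt h.osc4 Dv4_a Dv4_b h.even L L'
    (Int.mul w (Int.ofNat (16 ^ (T - D)))) D (T - D) K
  rw [Nat.add_sub_cancel' hD] at this
  rw [acc4, this]
  simp only [I4, map_smul, LinearMap.smul_apply, smul_eq_mul, Int.mul_def, Int.ofNat_eq_natCast]
  push_cast
  have e : (16 : ℝ) ^ T = 16 ^ (T - D) * (4 ^ D * 4 ^ D) := by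
    rw [← mul_pow]; norm_num; rw [← pow_add, Nat.sub_add_cancel hD]
  have e2 : (4 : ℝ) ^ D * (1 / 4) ^ D = 1 := by rw [← mul_pow]; norm_num
  rw [e]
  generalize G4 (ev3 s4 a4 b4 D L) (ev3 s4 a4 b4 D L') = g
  linear_combination (-(w : ℝ) * 16 ^ (T - D) * g * (1 + 4 ^ D * (1 / 4) ^ D)) * e2

lemma Good.cross3' (h : Good 0 δ G3 G4) (T : ℕ) (w : ℚ) :
    ∀ (rest : List (List ℤ)) (D : ℕ) (p0 : List ℤ) (K : List ℚ), D + rest.length ≤ T →
      evK (y3 G3) T (cross3 T w rest D p0 K) =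
        evK (y3 G3) T K + (w : ℝ) * (2 * crossF G3 (X 1) (IL3 rest (D + 1)) (I3 D p0))
  | [], D, p0, K, _ => by simp [cross3, IL3, crossF]
  | p :: rest, D, p0, K, hD => by
      simp only [List.length_cons] at hD
      rw [cross3, Good.cross3' h T w rest (D + 1) _ _ (by omega), h.acc3 _ _ _ (by omega),
        G3_I3, IL3, crossF, I3_mulY]
      push_cast; field_simp; ring

lemma Good.go3' (h : Good 0 δ G3 G4) (T : ℕ) (w : ℚ) :
    ∀ (n : ℕ) (ps : List (List ℤ)) (D : ℕ) (K : List ℚ), D + 2 * ps.length ≤ T + 2 →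
      evK (y3 G3) T (go3 T w n ps D K) =
        evK (y3 G3) T K + (w : ℝ) * QF G3 (X 1) n (IL3 ps D)
  | 0, ps, D, K, _ => by simp [go3, QF]
  | n + 1, [], D, K, _ => by simp [go3, QF, IL3]
  | n + 1, p0 :: rest, D, K, hD => by
      simp only [List.length_cons] at hD
      rw [go3, Good.go3' h T w n _ (D + 2) _ (by rw [length_mapY]; omega),
        h.cross3' T w rest D p0 _ (by omega), h.acc3 _ _ _ (by omega), G3_I3, IL3, QF,
        IL3_mapY]
      push_cast; field_simp; ring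

lemma Good.cross4' (h : Good 0 δ G3 G4) (T : ℕ) :
    ∀ (rest : List (List (List ℤ))) (D : ℕ) (p0 : List (List ℤ)) (K : List (List (List ℤ))),
      D + rest.length ≤ T →
      evK4 G4 a4 b4 T (cross4 T rest D p0 K) =
        evK4 G4 a4 b4 T K + 16 ^ T * (2 * crossF G4 (X 2) (IL4 rest (D + 1)) (I4 D p0))
  | [], D, p0, K, _ => by simp [cross4, IL4, crossF]
  | p :: rest, D, p0, K, hD => by
      simp only [List.length_cons] at hD
      rw [cross4, Good.cross4' h T rest (D + 1) _ _ (by omega), h.acc4' _ _ _ (by omega),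
        IL4, crossF, I4_mulZ]
      push_cast; ring

lemma Good.go4' (h : Good 0 δ G3 G4) (T : ℕ) :
    ∀ (n : ℕ) (ps : List (List (List ℤ))) (D : ℕ) (K : List (List (List ℤ))),
      D + 2 * ps.length ≤ T + 2 →
      evK4 G4 a4 b4 T (go4 T n ps D K) =
        evK4 G4 a4 b4 T K + 16 ^ T * QF G4 (X 2) n (IL4 ps D)
  | 0, ps, D, K, _ => by simp [go4, QF]
  | n + 1, [], D, K, _ => by simp [go4, QF, IL4]
  | n + 1, p0 :: rest, D, K, hD => by
      simp only [List.length_cons] at hD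
      rw [go4, Good.go4' h T n _ (D + 2) _ (by rw [length_mapZ]; omega),
        h.cross4' T rest D p0 _ (by omega), h.acc4' _ _ _ (by omega), IL4, QF, IL4_mapZ]
      push_cast; ring

lemma k2Hone_eq (hh : ℕ) : ∀ (xs : List ℤ) (M : ℕ),
    ((k2Hone hh xs M : ℚ) : ℝ) = ∑ i ∈ range xs.length,
      ((xs.getD i 0 : ℤ) : ℝ) ^ 2 * ((M + i + hh).factorial : ℝ) *
        (((M + i).factorial : ℝ) * 2 ^ (M + i))
  | [], M => by simp [k2Hone]
  | x :: xs, M => by
      rw [k2Hone, List.length_cons, sum_range_succ']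
      push_cast
      rw [k2Hone_eq hh xs (M + 1), add_comm]
      simp only [List.getD_cons_succ, List.getD_cons_zero, add_zero]
      congr 1
      refine sum_congr rfl fun i _ => ?_
      rw [show M + 1 + i = M + (i + 1) by ring]

lemma Good.k3H' (h : Good 0 δ G3 G4) (T : ℕ) : ∀ (vs : List HVec) (K : List ℚ),
    degOKH T vs = true →
      evK (y3 G3) T (k3H T vs K) ≤ evK (y3 G3) T K + ((k2H vs : ℚ) : ℝ)
  | [], K, _ => by simp [k3H, k2H]
  | (hh, Sc, xs) :: vs, K, hd => by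
      simp only [degOKH, Bool.and_eq_true, decide_eq_true_eq] at hd
      have ih := Good.k3H' h T vs (go3 T (1 / (Sc : ℚ) ^ 2) xs.length
        (hAll xs hh (pow2 (-1) 1 0 [1] hh)) hh K) hd.2
      rw [h.go3' T _ _ _ _ _ (by rw [length_hAll]; exact hd.1.1),
        QF_eq h.sym3 _ _ _ (by rw [length_IL3, length_hAll])] at ih
      have hc := h.hcond hh xs.length (fun M => ((xs.getD M 0 : ℤ) : ℝ))
      have e : ∑ i ∈ range xs.length, ∑ j ∈ range xs.length,
          G3 ((IL3 (hAll xs hh (pow2 (-1) 1 0 [1] hh)) hh).getD i 0 * X 1 ^ j)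
            ((IL3 (hAll xs hh (pow2 (-1) 1 0 [1] hh)) hh).getD j 0 * X 1 ^ i) =
          ∑ M ∈ range xs.length, ∑ M' ∈ range xs.length,
            ((xs.getD M 0 : ℤ) : ℝ) * ((xs.getD M' 0 : ℤ) : ℝ) *
              G3 (X 0 ^ M * X 1 ^ (M' + hh)) (X 0 ^ M' * X 1 ^ (M + hh)) := by
        refine sum_congr rfl fun i _ => sum_congr rfl fun j _ => ?_
        rw [getD_hAll, getD_hAll, I3_powY, smul_mul_assoc, smul_mul_assoc]
        simp only [map_smul, LinearMap.smul_apply, smul_eq_mul]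
        rw [show (X 1 ^ hh * X 0 ^ i * X 1 ^ j : P2) = X 0 ^ i * X 1 ^ (j + hh) by ring,
          show (X 1 ^ hh * X 0 ^ j * X 1 ^ i : P2) = X 0 ^ j * X 1 ^ (i + hh) by ring]
        ring
      rw [e] at ih
      have e2 := k2Hone_eq hh xs 0
      simp only [zero_add] at e2
      simp only [gam_zero, nrm_zero] at hc
      rw [← e2] at hc
      have hS : (0 : ℝ) ≤ 1 / (Sc : ℝ) ^ 2 := by positivity
      have := mul_nonneg hS hc
      simp only [k3H, k2H]
      push_cast at ih ⊢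
      have e3 : ((k2Hone hh xs 0 : ℚ) : ℝ) / (Sc : ℝ) ^ 2 =
        1 / (Sc : ℝ) ^ 2 * ((k2Hone hh xs 0 : ℚ) : ℝ) := by ring
      rw [e3]
      nlinarith

lemma Good.k3Gone' (h : Good 0 δ G3 G4) (T S : ℕ) (x0 : ℤ) :
    ∀ (ls : List (List ℤ)) (i t : ℕ) (p : List ℤ) (K : List ℚ), t + ls.length ≤ T + 1 →
      evK (y3 G3) T (k3Gone T S x0 ls i t p K) = evK (y3 G3) T K - 1 / (S : ℝ) ^ 2 *
        (2 * (x0 : ℝ) * ∑ j ∈ range ls.length,
            G3 (I3 t p * X 1 ^ j) (ev2 rho sig (t + j) (ls.getD j [])) +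
          ∑ j ∈ range ls.length, ((i + j).factorial : ℝ) *
            G3 (ev2 rho sig (t + j) (ls.getD j [])) (ev2 rho sig (t + j) (ls.getD j [])))
  | [], i, t, p, K, _ => by simp [k3Gone]
  | l :: ls, i, t, p, K, ht => by
      simp only [List.length_cons] at ht
      rw [k3Gone, Good.k3Gone' h T S x0 ls (i + 1) (t + 1) _ _ (by omega),
        h.acc3 _ _ _ (by omega), h.acc3 _ _ _ (by omega), G3_I3_left t p, I3_mulY,
        List.length_cons, sum_range_succ', sum_range_succ']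
      simp only [List.getD_cons_succ, List.getD_cons_zero, add_zero, pow_zero, mul_one]
      have e1 : ∀ j, I3 t p * X 1 * X 1 ^ j = I3 t p * X 1 ^ (j + 1) := by intro j; ring
      have e2 : ∀ j, t + 1 + j = t + (j + 1) := by intro j; ring
      have e3 : ∀ j, i + 1 + j = i + (j + 1) := by intro j; ring
      simp only [e1, e2, e3]
      push_cast
      have : (3 : ℝ) ^ t ≠ 0 := by positivity
      by_cases hS : (S : ℝ) = 0
      · simp [hS]
      · field_simp; ring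

lemma Good.k34G (h : Good 0 δ G3 G4) (T T4 S : ℕ) : ∀ (vs : List GVec) (K : List ℚ)
    (K4 : List (List (List ℤ))), degOK T vs = true → degOK T4 vs = true →
      evK (y3 G3) T (k3G T S vs K) +
          1 / (S : ℝ) ^ 2 * (evK4 G4 a4 b4 T4 (k4All T4 vs K4) / 16 ^ T4) ≤
        evK (y3 G3) T K + 1 / (S : ℝ) ^ 2 * (evK4 G4 a4 b4 T4 K4 / 16 ^ T4) +
          ((k2G S vs : ℚ) : ℝ)
  | [], K, K4, _, _ => by simp [k3G, k2G, k4All]
  | (q, x0, ls) :: vs, K, K4, hd, hd4 => by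
      simp only [degOK, Bool.and_eq_true, decide_eq_true_eq] at hd hd4
      have ih := Good.k34G h T T4 S vs (k3Gone T S x0 ls 0 q (pow2 1 2 0 [1] q) K)
        (go4 T4 ls.length (embAll ls q) q K4) hd.2 hd4.2
      have hlen : q + ls.length ≤ T + 1 ∨ ls = [] := by
        rcases ls with _ | ⟨l, ls⟩
        · right; rfl
        · left; simp only [List.length_cons] at hd ⊢; omega
      have e1 : evK (y3 G3) T (k3Gone T S x0 ls 0 q (pow2 1 2 0 [1] q) K) =
          evK (y3 G3) T K - 1 / (S : ℝ) ^ 2 *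
        (2 * (x0 : ℝ) * ∑ j ∈ range ls.length,
            G3 (X 0 ^ q * X 1 ^ j) (ev2 rho sig (q + j) (ls.getD j [])) +
          ∑ j ∈ range ls.length, ((j).factorial : ℝ) *
            G3 (ev2 rho sig (q + j) (ls.getD j [])) (ev2 rho sig (q + j) (ls.getD j []))) := by
        rcases hlen with hlen | rfl
        · rw [h.k3Gone' T S x0 ls 0 q _ K hlen, I3_powX]; simp only [zero_add]
        · simp [k3Gone]
      rw [e1, h.go4' T4 _ _ _ _ (by rw [length_embAll]; exact hd4.1),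
        QF_eq h.sym4 _ _ _ (by rw [length_IL4, length_embAll])] at ih
      simp only [getD_embAll] at ih
      have hc := h.gcond q ls.length (x0 : ℝ) (fun j => ev2 rho sig (q + j) (ls.getD j []))
      simp only [gam_zero, nrm_zero] at hc
      have hS : (0 : ℝ) ≤ 1 / (S : ℝ) ^ 2 := by positivity
      have := mul_nonneg hS hc
      simp only [k3G, k2G, k4All]
      push_cast
      have h16 : (16 : ℝ) ^ T4 ≠ 0 := by positivity
      rw [add_div, mul_div_cancel_left₀ _ h16] at ih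
      have e3 : (x0 : ℝ) ^ 2 * ((q.factorial : ℝ) * 2 ^ q) / (S : ℝ) ^ 2 =
        1 / (S : ℝ) ^ 2 * ((x0 : ℝ) ^ 2 * ((q.factorial : ℝ) * 2 ^ q)) := by ring
      rw [e3]
      nlinarith

lemma Good.k3O' (h : Good 0 δ G3 G4) (T : ℕ) : ∀ (n M : ℕ) (pX pY : List ℤ) (K : List ℚ),
    M + n ≤ T → I3 M pX = X 0 ^ M → I3 M pY = X 1 ^ M →
      evK (y3 G3) T (k3O T n M pX pY K) = evK (y3 G3) T K +
        ∑ j ∈ range n, (nrm 0 (M + j))⁻¹ * ((((M + j : ℕ) : ℝ) - 1) *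
          G3 (X 1 ^ (M + j)) (X 0 ^ (M + j)) - G3 (X 1 ^ (M + j + 1)) (X 0 ^ (M + j) * X 1))
  | 0, M, pX, pY, K, _, _, _ => by simp [k3O]
  | n + 1, M, pX, pY, K, hT, hX, hY => by
      rw [k3O, Good.k3O' h T n (M + 1) _ _ _ (by omega) (by rw [I3_mulX, hX, pow_succ])
        (by rw [I3_mulY, hY, pow_succ]), h.acc3 _ _ _ (by omega), h.acc3 _ _ _ (by omega),
        G3_I3, G3_I3, I3_mulY, I3_mulY, hX, hY, sum_range_succ']
      have e2 : ∀ j, M + 1 + j = M + (j + 1) := by intro j; ring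
      simp only [e2, add_zero, nrm_zero M, ← pow_succ]
      push_cast
      field_simp
      ring

lemma wv_eq (M : ℕ) : b4 * (s4 - a4) ^ M = (-2 * 2 ^ M : ℝ) • wv M := by
  have e : s4 - a4 = 2 * (X 1 + X 2) := by rw [s4, a4]; ring
  have e2 : (2 : P3) ^ M = C ((2 : ℝ) ^ M) := by rw [map_pow]; rfl
  rw [wv, smul_smul, e, mul_pow, b4, e2, smul_eq_C_mul,
    show (-2 * 2 ^ M * (1 / 2) : ℝ) = -(2 ^ M) by ring, map_neg]
  ring

lemma Good.kgO' (h : Good 0 δ G3 G4) (T : ℕ) : ∀ (n M : ℕ) (p : List ℤ) (K : List ℚ),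
    M + n ≤ T + 1 → ev2 a4 s4 M p = (s4 - a4) ^ M →
      evK (y4 G4) T (kgO T n M p K) = evK (y4 G4) T K +
        ∑ j ∈ range n, (nrm 0 (M + j))⁻¹ * G4 (wv (M + j)) (wv (M + j))
  | 0, M, p, K, _, _ => by simp [kgO]
  | n + 1, M, p, K, hT, hp => by
      have ha := evK_accQAt' h.osc4 (u := b4) (a := a4) Dv4_b Dv4_a
        (1 / ((M.factorial : ℚ) * 2 ^ M * 4 ^ (M + 1))) p p (show M ≤ T by omega) K
      rw [kgO, Good.kgO' h T n (M + 1) _ _ (by omega)
        (by rw [mulY, ev2_mul2, hp]; push_cast; ring), sum_range_succ']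
      unfold y4
      rw [ha, hp, wv_eq]
      have e2 : ∀ j, M + 1 + j = M + (j + 1) := by intro j; ring
      simp only [e2, add_zero, nrm_zero M, map_smul, LinearMap.smul_apply, smul_eq_mul]
      push_cast
      have e4 : (4 : ℝ) ^ (M + 1) = 4 * (2 ^ M * 2 ^ M) := by
        rw [← mul_pow, pow_succ]; norm_num; ring
      rw [e4]
      field_simp
      ring

lemma Good.nullA (h : Good 0 δ G3 G4) {r : ℕ} (hr : r = 0 ∨ r = 1 ∨ r = 3) (q : P3) :
    ∀ k c i : ℕ, G4 (emb (rho ^ r * sig ^ c) * X 2 ^ i * (emb sig - 3 * X 2) ^ k) q = 0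
  | 0, c, i => by simpa using h.null4 r hr c i q
  | k + 1, c, i => by
      have e : emb (rho ^ r * sig ^ c) * X 2 ^ i * (emb sig - 3 * X 2) ^ (k + 1) =
          emb (rho ^ r * sig ^ (c + 1)) * X 2 ^ i * (emb sig - 3 * X 2) ^ k +
            ((-3 : ℤ) : P3) *
              (emb (rho ^ r * sig ^ c) * X 2 ^ (i + 1) * (emb sig - 3 * X 2) ^ k) := by
        simp only [map_mul, map_pow]; push_cast; ring
      rw [e, map_add, LinearMap.add_apply, G_zl, Good.nullA h hr q k, Good.nullA h hr q k]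
      simp

lemma Good.nullL' (h : Good 0 δ G3 G4) {r : ℕ} (hr : r = 0 ∨ r = 1 ∨ r = 3) (d : ℕ) (q : P3) :
    G4 (lin (ovs a4 b4 d) (nullL r d)) q = 0 := by
  rw [nullL]
  split_ifs with hd
  · rw [← odd_part' h.even]
    have e := ev2_pow2 a4 b4 1 2 r (pow2 1 (-1) 0 [1] r) (d - r)
    rw [Nat.add_sub_cancel' hd, ev2_pow2_one] at e
    have := h.nullA hr q (d - r) 0 0
    rw [e, ← this]
    congr 2
    simp only [pow_zero, mul_one, map_pow, emb_rho, emb_sig]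
    rw [mul_comm]
    congr 2
    · push_cast; ring
    · rw [a4, b4]; push_cast; ring
  · simp

lemma Good.exchA (h : Good 0 δ G3 G4) (q : P3) : ∀ k M M' : ℕ,
    G4 (X 0 ^ M * wv M' * a4 ^ k) q = (-1) ^ k * G4 (X 0 ^ M' * wv M * a4 ^ k) q
  | 0, M, M' => by simpa using h.exch M M' q
  | k + 1, M, M' => by
      have e : ∀ M M' : ℕ, X 0 ^ M * wv M' * a4 ^ (k + 1) =
          X 0 ^ (M + 1) * wv M' * a4 ^ k - X 0 ^ M * wv (M' + 1) * a4 ^ k := by
        intro M M'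
        simp only [wv, smul_eq_C_mul, pow_succ a4]
        rw [show a4 ^ k * a4 = a4 ^ k * (X 0 - X 1 - X 2) by rfl]
        ring
      rw [e, e]
      simp only [map_sub, LinearMap.sub_apply]
      rw [Good.exchA h q k (M + 1) M', Good.exchA h q k M (M' + 1)]
      ring

lemma Good.nullB (h : Good 0 δ G3 G4) (t : ℕ) (ht : (t + 1) % 2 = 0) (q : P3) :
    G4 (b4 * a4 ^ t) q = 0 := by
  have h1 := h.exchA q t 0 0
  have hodd : Odd t := Nat.odd_iff.mpr (by omega)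
  rw [hodd.neg_one_pow] at h1
  have h2 : G4 (X 0 ^ 0 * wv 0 * a4 ^ t) q = 0 := by linarith
  have e := wv_eq 0
  simp only [pow_zero, mul_one] at e
  rw [e, smul_mul_assoc, map_smul, LinearMap.smul_apply]
  simp only [pow_zero, one_mul] at h2
  simp [h2]

lemma Good.finC' (h : Good 0 δ G3 G4) (W : ℕ) :
    ∀ (t : ℕ) (mus : List (ℤ × ℤ × ℤ × ℤ)) (Kg : List ℚ) (K : List (List (List ℤ))),
      finC W (t + 1) mus Kg K = true →
        0 ≤ (W : ℝ) * evK (y4 G4) t Kg + evK4 G4 a4 b4 (t + 1) K := by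
  have step : ∀ (t : ℕ) (mu : ℤ × ℤ × ℤ × ℤ) (c : ℚ) (M : List (List ℤ)),
      psd (t + 1) (addNull (t + 1) mu (accMat ⌊c * (W : ℚ)⌋ [1] [1] M)) = true →
        0 ≤ (W : ℝ) * ((c : ℝ) * y4 G4 t) +
          form G4 (ovs a4 b4 (t + 1)) (ovs a4 b4 (t + 1)) M := by
    intro t mu c M hp
    have := psd_sound h.sym4 h.pos4 _ _ (ovs a4 b4 (t + 1)) hp
    simp only [addNull, form_accMat, h.nullL' (Or.inl rfl), h.nullL' (Or.inr (Or.inl rfl)),
      h.nullL' (Or.inr (Or.inr rfl)), lin_ovs_one, mul_zero, add_zero] at this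
    have h0 : ((if (t + 1) % 2 = 0 then mu.2.2.2 else 0 : ℤ) : ℝ) *
        G4 (b4 * a4 ^ t) (b4 * a4 ^ t) = 0 := by
      split_ifs with ht
      · rw [h.nullB t ht]; simp
      · simp
    rw [h0] at this
    have hf : ((⌊c * (W : ℚ)⌋ : ℤ) : ℝ) ≤ (c : ℝ) * (W : ℝ) := by
      have := Int.floor_le (c * (W : ℚ))
      exact_mod_cast this
    have hy := h.pos4 (b4 * a4 ^ t)
    have := mul_le_mul_of_nonneg_right hf hy
    unfold y4
    nlinarith
  intro t
  induction t with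
  | zero =>
    intro mus Kg K hf
    simp only [finC, Bool.and_eq_true] at hf
    have := step 0 _ _ _ hf.1
    rw [evK_zero, evK4_succ, evK4_zero]
    simpa [ovs] using this
  | succ t ih =>
    intro mus Kg K hf
    rw [finC, Bool.and_eq_true] at hf
    have h1 := step (t + 1) _ _ _ hf.1
    have h2 := ih _ _ _ hf.2
    rw [evK_succ, evK4_succ]
    linarith

theorem Good.false_of_cert (h : Good 0 δ G3 G4) (S : ℕ) (hS : 0 < S) (gs : List GVec)
    (hs : List HVec) (mus : List (ℤ × ℤ × ℤ × ℤ)) (Kg : List ℚ)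
    (c2 : δ + 1 / 1000 < ((1 - k2G S gs - k2H hs : ℚ) : ℝ))
    (c3 : chk3 (k3G 60 S gs (k3H 60 hs (k3O 60 48 0 [1] [1] []))) 60 = true)
    (cg : dropPos 60 (kgO 79 80 0 [1] []) = some Kg)
    (c4 : finC (S ^ 2 * 16 ^ 20) 20 mus Kg (k4All 20 gs []) = true)
    (d1 : degOK 20 gs = true) (d2 : degOK 60 gs = true) (d3 : degOKH 60 hs = true) : False := by
  have hy3 : ∀ m, 0 ≤ y3 G3 m := fun m => h.pos3 _
  have hy4 : ∀ m, 0 ≤ y4 G4 m := fun m => h.pos4 _
  have hz : ∀ r, r = 0 ∨ r = 1 ∨ r = 3 → y3 G3 r = 0 := by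
    intro r hr; simp only [y3, one_mul]; exact h.null3 r hr _
  have a1 := chk3_sound hy3 (hz 0 (by simp)) (hz 1 (by simp)) (hz 3 (by simp)) _ _ c3
  have a2 := h.k34G 60 20 S gs (k3H 60 hs (k3O 60 48 0 [1] [1] [])) [] d2 d1
  have a3 := h.k3H' 60 hs (k3O 60 48 0 [1] [1] []) d3
  have a4' := h.k3O' 60 48 0 [1] [1] [] (by norm_num) (by simp [I3_one]) (by simp [I3_one])
  have a5 := h.kgO' 79 80 0 [1] [] (by norm_num) (by simp [ev2])
  have a6 := dropPos_sound hy4 19 60 _ _ cg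
  have a7 := h.finC' _ 19 mus Kg _ c4
  have a8 := h.obj
  simp only [zero_add, evK_nil, evK4_nil, zero_div, mul_zero, add_zero] at a2 a4' a5
  have hS' : (0 : ℝ) < (S : ℝ) ^ 2 * 16 ^ 20 := by positivity
  have a9 : 0 ≤ evK (y4 G4) 19 Kg +
      1 / (S : ℝ) ^ 2 * (evK4 G4 a4 b4 20 (k4All 20 gs []) / 16 ^ 20) := by
    have e : evK (y4 G4) 19 Kg +
        1 / (S : ℝ) ^ 2 * (evK4 G4 a4 b4 20 (k4All 20 gs []) / 16 ^ 20) =
        (((S ^ 2 * 16 ^ 20 : ℕ) : ℝ) * evK (y4 G4) 19 Kg +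
          evK4 G4 a4 b4 (19 + 1) (k4All 20 gs [])) / ((S : ℝ) ^ 2 * 16 ^ 20) := by
      push_cast; field_simp; norm_num
    rw [e]; positivity
  push_cast at c2
  norm_num only at a6
  linarith

end

end Vale.Agent.P359
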