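import Vale.Agent.P359.Kernel

namespace Vale.Agent.P359

open Finset
open scoped Matrix Kronecker

namespace Red

/-- Square roots of binomial coefficients. -/
noncomputable def sq (Q a : ℕ) : ℝ := Real.sqrt (Q.choose a)

theorem sq_up {Q b : ℕ} (hb : b ≤ Q) :
    Real.sqrt (((b : ℝ) + 1) * ((Q : ℝ) - b)) * sq Q b = (b + 1) * sq Q (b + 1) := by
  have h : ((Q.choose (b + 1) : ℕ) : ℝ) * (b + 1) = Q.choose b * ((Q : ℝ) - b) := by
    have := congrArg (Nat.cast : ℕ → ℝ) (Nat.choose_succ_right_eq Q b)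
    push_cast [hb] at this
    exact this
  have hb' : (0 : ℝ) ≤ (Q : ℝ) - b := sub_nonneg.mpr (by exact_mod_cast hb)
  rw [sq, sq, ← Real.sqrt_mul (by positivity), ← Real.sqrt_mul_self (show (0 : ℝ) ≤ b + 1 by positivity),
    ← Real.sqrt_mul (by positivity), Real.sqrt_mul_self (show (0 : ℝ) ≤ b + 1 by positivity)]
  congr 1
  linear_combination (-(b : ℝ) - 1) * h

theorem sq_down {Q b : ℕ} (hb : b ≤ Q) :
    Real.sqrt (((b : ℝ) + 1) * ((Q : ℝ) - b)) * sq Q (b + 1) = ((Q : ℝ) - b) * sq Q b := by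
  have h : ((Q.choose (b + 1) : ℕ) : ℝ) * (b + 1) = Q.choose b * ((Q : ℝ) - b) := by
    have := congrArg (Nat.cast : ℕ → ℝ) (Nat.choose_succ_right_eq Q b)
    push_cast [hb] at this
    exact this
  have hb' : (0 : ℝ) ≤ (Q : ℝ) - b := sub_nonneg.mpr (by exact_mod_cast hb)
  rw [sq, sq, ← Real.sqrt_mul (by positivity), ← Real.sqrt_mul_self hb',
    ← Real.sqrt_mul (by positivity), Real.sqrt_mul_self hb']
  congr 1
  linear_combination ((Q : ℝ) - b) * h

theorem up_site {Q : ℕ} (g : ℕ → ℝ) (a : Fin (Q + 1)) :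
    ∑ c : Fin (Q + 1), spinUp Q a c * ((g c * sq Q c : ℝ) : ℂ) =
      (((a : ℕ) * g (a - 1) * sq Q a : ℝ) : ℂ) := by
  obtain ⟨a, ha⟩ := a
  rcases a with _ | a
  · simp [spinUp]
  · rw [Finset.sum_eq_single ⟨a, by omega⟩]
    · simp only [spinUp, Matrix.of_apply, if_true, ← Complex.ofReal_mul, Nat.add_sub_cancel]
      congr 1
      have := sq_up (show a ≤ Q by omega)
      push_cast
      linear_combination g a * this
    · rintro ⟨c, hc⟩ - hne
      have : ¬ a + 1 = c + 1 := fun h => hne (Fin.ext (by simp only; omega))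
      simp only [spinUp, Matrix.of_apply, this, if_false, zero_mul]
    · simp

theorem down_site {Q : ℕ} (g : ℕ → ℝ) (a : Fin (Q + 1)) :
    ∑ c : Fin (Q + 1), (spinUp Q)ᴴ a c * ((g c * sq Q c : ℝ) : ℂ) =
      ((((Q : ℝ) - (a : ℕ)) * g (a + 1) * sq Q a : ℝ) : ℂ) := by
  obtain ⟨a, ha⟩ := a
  by_cases hQ : a = Q
  · subst hQ
    rw [Finset.sum_eq_zero]
    · simp
    · rintro ⟨c, hc⟩ -
      have : ¬ c = a + 1 := by omega
      simp [spinUp, this]
  · rw [Finset.sum_eq_single ⟨a + 1, by omega⟩]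
    · simp only [spinUp, Matrix.conjTranspose_apply, Matrix.of_apply, if_true, Complex.star_def,
        Complex.conj_ofReal, ← Complex.ofReal_mul]
      congr 1
      have := sq_down (show a ≤ Q by omega)
      linear_combination g (a + 1) * this
    · rintro ⟨c, hc⟩ - hne
      have : ¬ c = a + 1 := fun h => hne (Fin.ext h)
      simp [spinUp, this]
    · simp

theorem z_site {Q : ℕ} (g : ℕ → ℝ) (a : Fin (Q + 1)) :
    ∑ c : Fin (Q + 1), spinZ Q a c * ((g c * sq Q c : ℝ) : ℂ) =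
      (((((a : ℕ) : ℝ) - Q / 2) * g a * sq Q a : ℝ) : ℂ) := by
  rw [Finset.sum_eq_single a]
  · simp only [spinZ, Matrix.diagonal_apply_eq]
    push_cast
    ring
  · intro c _ hc
    simp [spinZ, Matrix.diagonal_apply_ne _ hc.symm]
  · simp

/-- Pair vectors. -/
noncomputable def vec (Q : ℕ) (f : ℕ → ℕ → ℝ) : Fin (Q + 1) × Fin (Q + 1) → ℂ :=
  fun p => ((f p.1 p.2 * sq Q p.1 * sq Q p.2 : ℝ) : ℂ)

theorem pairSum_vec {Q : ℕ} (A : Matrix (Fin (Q + 1)) (Fin (Q + 1)) ℂ) (T : (ℕ → ℝ) → ℕ → ℝ)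
    (hA : ∀ (g : ℕ → ℝ) (a : Fin (Q + 1)), ∑ c : Fin (Q + 1), A a c * ((g c * sq Q c : ℝ) : ℂ) =
      ((T g a * sq Q a : ℝ) : ℂ)) (f : ℕ → ℕ → ℝ) :
    pairSum A *ᵥ vec Q f = vec Q fun a b => T (fun c => f c b) a + T (fun c => f a c) b := by
  funext ⟨a, b⟩
  have e1 : ((A ⊗ₖ (1 : Matrix (Fin (Q + 1)) (Fin (Q + 1)) ℂ)) *ᵥ vec Q f) (a, b) =
      (∑ c, A a c * ((f c b * sq Q c : ℝ) : ℂ)) * (sq Q b : ℝ) := by
    simp only [Matrix.mulVec, dotProduct, Fintype.sum_prod_type, Matrix.kroneckerMap_apply,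
      Matrix.one_apply, mul_ite, mul_one, mul_zero, ite_mul, zero_mul, Finset.sum_ite_eq,
      Finset.mem_univ, if_true, vec, Finset.sum_mul]
    refine Finset.sum_congr rfl fun c _ => ?_
    push_cast
    ring
  have e2 : (((1 : Matrix (Fin (Q + 1)) (Fin (Q + 1)) ℂ) ⊗ₖ A) *ᵥ vec Q f) (a, b) =
      (∑ c, A b c * ((f a c * sq Q c : ℝ) : ℂ)) * (sq Q a : ℝ) := by
    simp only [Matrix.mulVec, dotProduct, Fintype.sum_prod_type, Matrix.kroneckerMap_apply,
      Matrix.one_apply, ite_mul, one_mul, zero_mul]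
    rw [Finset.sum_comm]
    simp only [Finset.sum_ite_eq, Finset.mem_univ, if_true, vec, Finset.sum_mul]
    refine Finset.sum_congr rfl fun c _ => ?_
    push_cast
    ring
  rw [pairSum, Matrix.add_mulVec, Pi.add_apply, e1, e2, hA (fun c => f c b), hA (fun c => f a c)]
  simp only [vec]
  push_cast
  ring

/-- Coefficients of the pair state. -/
def fM (M a b : ℕ) : ℝ := if a + b = M + 1 then (b : ℝ) - a else 0

theorem vec_smul (Q : ℕ) (c : ℝ) (f : ℕ → ℕ → ℝ) :
    vec Q (fun a b => c * f a b) = (c : ℂ) • vec Q f := by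
  funext p
  simp only [vec, Pi.smul_apply, smul_eq_mul]
  push_cast
  ring

theorem up_t (Q M : ℕ) :
    pairSum (spinUp Q) *ᵥ vec Q (fM M) = (((M : ℝ) + 1 : ℝ) : ℂ) • vec Q (fM (M + 1)) := by
  rw [pairSum_vec _ (fun g a => a * g (a - 1)) up_site, ← vec_smul]
  congr 1
  funext a b
  simp only [fM]
  by_cases h : a + b = M + 1 + 1
  · have h' : (M : ℝ) = a + b - 2 := by
      have := congrArg (Nat.cast : ℕ → ℝ) h
      push_cast at this
      linarith
    rcases a with _ | a <;> rcases b with _ | b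
    · omega
    · rw [if_pos (show 0 + (b + 1 - 1) = M + 1 by omega), if_pos h, h']; simp; ring
    · rw [if_pos (show (a + 1 - 1) + 0 = M + 1 by omega), if_pos h, h']; simp; ring
    · rw [if_pos (show (a + 1 - 1) + (b + 1) = M + 1 by omega),
        if_pos (show (a + 1) + (b + 1 - 1) = M + 1 by omega), if_pos h, h']
      simp; ring
  · rw [if_neg h]
    rcases a with _ | a <;> rcases b with _ | b
    · simp
    · rw [if_neg (show ¬ 0 + (b + 1 - 1) = M + 1 by omega)]; simp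
    · rw [if_neg (show ¬ (a + 1 - 1) + 0 = M + 1 by omega)]; simp
    · rw [if_neg (show ¬ (a + 1 - 1) + (b + 1) = M + 1 by omega),
        if_neg (show ¬ (a + 1) + (b + 1 - 1) = M + 1 by omega)]
      simp

theorem down_t (Q M : ℕ) :
    pairSum (spinUp Q)ᴴ *ᵥ vec Q (fM (M + 1)) =
      ((2 * (Q : ℝ) - 2 - M : ℝ) : ℂ) • vec Q (fM M) := by
  rw [pairSum_vec _ (fun g a => ((Q : ℝ) - a) * g (a + 1)) down_site, ← vec_smul]
  congr 1
  funext a b
  simp only [fM]
  by_cases h : a + b = M + 1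
  · have h' : (M : ℝ) = a + b - 1 := by
      have := congrArg (Nat.cast : ℕ → ℝ) h
      push_cast at this
      linarith
    rw [if_pos (by omega), if_pos (by omega), if_pos h, h']
    push_cast
    ring
  · rw [if_neg (by omega), if_neg (by omega), if_neg h]
    simp

theorem down_t0 (Q : ℕ) : pairSum (spinUp Q)ᴴ *ᵥ vec Q (fM 0) = 0 := by
  rw [pairSum_vec _ (fun g a => ((Q : ℝ) - a) * g (a + 1)) down_site]
  funext ⟨a, b⟩
  simp only [vec, fM, Pi.zero_apply]
  by_cases h : (a : ℕ) + b = 0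
  · rw [show (a : ℕ) = 0 by omega, show (b : ℕ) = 0 by omega]
    simp
  · rw [if_neg (by omega), if_neg (by omega)]
    simp

theorem z_t (Q M : ℕ) :
    pairSum (spinZ Q) *ᵥ vec Q (fM M) = (((M : ℝ) + 1 - Q : ℝ) : ℂ) • vec Q (fM M) := by
  rw [pairSum_vec _ (fun g a => ((a : ℝ) - Q / 2) * g a) z_site, ← vec_smul]
  congr 1
  funext a b
  simp only [fM]
  split_ifs with h
  · have h' : (M : ℝ) = a + b - 1 := by
      have := congrArg (Nat.cast : ℕ → ℝ) h
      push_cast at this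
      linarith
    rw [h']
    ring
  · simp

theorem casimir_t (Q M : ℕ) :
    casimir Q *ᵥ vec Q (fM M) = (((Q : ℂ) - 1) * (Q : ℂ)) • vec Q (fM M) := by
  simp only [casimir, Matrix.add_mulVec, Matrix.smul_mulVec, ← Matrix.mulVec_mulVec, z_t, up_t,
    Matrix.mulVec_smul, down_t]
  rcases M with _ | M
  · rw [down_t0, Matrix.mulVec_zero, zero_add, smul_smul, smul_smul, smul_smul, ← add_smul]
    congr 1
    push_cast
    ring
  · rw [down_t, Matrix.mulVec_smul, up_t]
    simp only [smul_smul, ← add_smul]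
    congr 1
    push_cast
    ring

theorem pairSum_conj {Q : ℕ} (A : Matrix (Fin (Q + 1)) (Fin (Q + 1)) ℂ) :
    (pairSum A)ᴴ = pairSum Aᴴ := by
  simp [pairSum, Matrix.conjTranspose_kronecker]

theorem norm_t {Q : ℕ} (hQ : 1 ≤ Q) (M : ℕ) (hM : M < 2 * Q - 1) :
    star (vec Q (fM M)) ⬝ᵥ vec Q (fM M) = ((2 * (Q : ℝ) * ((2 * Q - 2).choose M : ℝ) : ℝ) : ℂ) := by
  induction M with
  | zero =>
    obtain ⟨q, rfl⟩ : ∃ q, Q = q + 1 := ⟨Q - 1, by omega⟩
    have s0 : sq (q + 1) 0 = 1 := by simp [sq]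
    have s1 : sq (q + 1) 1 * sq (q + 1) 1 = q + 1 := by
      rw [sq, Real.mul_self_sqrt (by positivity)]; simp
    simp only [dotProduct, Pi.star_apply, vec, Complex.star_def, Complex.conj_ofReal,
      ← Complex.ofReal_mul, ← Complex.ofReal_sum, Fintype.sum_prod_type, Fin.sum_univ_succ,
      Fin.val_zero, Fin.val_succ]
    congr 1
    have z : ∀ a b : ℕ, 2 ≤ a + b → fM 0 a b = 0 := fun a b h => if_neg (by omega)
    have z1 : ∀ i : Fin q, fM 0 0 (i + 1 + 1) = 0 := fun i => z _ _ (by omega)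
    have z2 : ∀ i : Fin q, fM 0 (0 + 1) (i + 1 + 1) = 0 := fun i => z _ _ (by omega)
    have z3 : ∀ (i : Fin q) b, fM 0 (i + 1 + 1) b = 0 := fun i b => z _ _ (by omega)
    simp only [z1, z2, z3]
    simp [fM, s0]
    linear_combination 2 * s1
  | succ M ih =>
    have h1 : star (vec Q (fM (M + 1))) ⬝ᵥ (pairSum (spinUp Q) *ᵥ vec Q (fM M)) =
        star (pairSum (spinUp Q)ᴴ *ᵥ vec Q (fM (M + 1))) ⬝ᵥ vec Q (fM M) := by
      rw [← pairSum_conj, Matrix.star_mulVec, Matrix.conjTranspose_conjTranspose,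
        Matrix.dotProduct_mulVec]
    rw [up_t, down_t, dotProduct_smul, star_smul, smul_dotProduct, ih (by omega), Complex.star_def,
      Complex.conj_ofReal, smul_eq_mul, smul_eq_mul] at h1
    have h2 : (((2 * Q - 2).choose (M + 1) : ℕ) : ℝ) * (M + 1) =
        (2 * Q - 2).choose M * (2 * (Q : ℝ) - 2 - M) := by
      have := congrArg (Nat.cast : ℕ → ℝ) (Nat.choose_succ_right_eq (2 * Q - 2) M)
      rw [Nat.cast_mul, Nat.cast_mul, Nat.cast_sub (by omega), Nat.cast_sub (by omega)] at this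
      push_cast at this
      exact this
    have h3 : (((M : ℝ) + 1 : ℝ) : ℂ) ≠ 0 := Complex.ofReal_ne_zero.mpr (by positivity)
    refine mul_left_cancel₀ h3 (h1.trans ?_)
    rw [← Complex.ofReal_mul, ← Complex.ofReal_mul]
    congr 1
    linear_combination (-2 * (Q : ℝ)) * h2

theorem bessel {E ι : Type*} [NormedAddCommGroup E] [InnerProductSpace ℂ E] [Fintype ι]
    (K : Submodule ℂ E) [K.HasOrthogonalProjection] (T : ι → E) (c : ι → ℝ) (hc : ∀ i, 0 < c i)
    (hT : ∀ i, T i ∈ K) (hn : ∀ i, inner ℂ (T i) (T i) = (c i : ℂ))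
    (ho : ∀ i j, i ≠ j → inner ℂ (T i) (T j) = 0) (φ : E) :
    ∑ i, ‖inner ℂ (T i) φ‖ ^ 2 / c i ≤ (inner ℂ φ (K.starProjection φ)).re := by
  classical
  have hv : Orthonormal ℂ fun i => (((Real.sqrt (c i))⁻¹ : ℝ) : ℂ) • T i := by
    rw [orthonormal_iff_ite]
    intro i j
    rw [inner_smul_left, inner_smul_right]
    split_ifs with h
    · subst h
      rw [hn, Complex.conj_ofReal, ← Complex.ofReal_mul, ← Complex.ofReal_mul, ← mul_assoc,
        ← mul_inv, Real.mul_self_sqrt (hc i).le, inv_mul_cancel₀ (hc i).ne', Complex.ofReal_one]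
    · rw [ho i j h, mul_zero, mul_zero]
  have h1 := hv.sum_inner_products_le (s := Finset.univ) (K.starProjection φ)
  have h2 := K.re_inner_starProjection_eq_normSq φ
  rw [Submodule.inner_starProjection_left_eq_right] at h2
  refine le_trans (le_of_eq ?_) (h1.trans (le_of_eq h2.symm))
  refine Finset.sum_congr rfl fun i _ => ?_
  rw [inner_smul_left, ← Submodule.inner_starProjection_left_eq_right,
    Submodule.starProjection_eq_self_iff.mpr (hT i), norm_mul, mul_pow, Complex.conj_ofReal,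
    Complex.norm_real, Real.norm_eq_abs, sq_abs, inv_pow, Real.sq_sqrt (hc i).le]
  ring

theorem vec_fM (Q M : ℕ) (p : Fin (Q + 1) × Fin (Q + 1)) :
    vec Q (fM M) p = ((tau Q M p.1 p.2 : ℝ) : ℂ) := by
  simp only [vec, fM, tau, sq]
  congr 1
  split_ifs
  · rw [Real.sqrt_mul (by positivity), mul_assoc]
  · simp

theorem pair_bound {Q : ℕ} (hQ : 1 ≤ Q) (φ : EuclideanSpace ℂ (Fin (Q + 1) × Fin (Q + 1))) :
    ∑ M ∈ range (2 * Q - 1),
      ((∑ a : Fin (Q + 1), ∑ b : Fin (Q + 1), tau Q M a b * (φ (a, b)).re) ^ 2 +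
       (∑ a : Fin (Q + 1), ∑ b : Fin (Q + 1), tau Q M a b * (φ (a, b)).im) ^ 2) /
        (2 * (Q : ℝ) * ((2 * Q - 2).choose M : ℝ)) ≤
      (inner ℂ φ ((spinSector Q).starProjection φ)).re := by
  have hQ' : (0 : ℝ) < Q := by exact_mod_cast hQ
  have := bessel (spinSector Q) (fun M : Fin (2 * Q - 1) => WithLp.toLp 2 (vec Q (fM M)))
    (fun M => 2 * (Q : ℝ) * ((2 * Q - 2).choose M : ℝ))
    (fun M => mul_pos (by positivity) (by exact_mod_cast Nat.choose_pos (by omega)))
    (fun M => by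
      rw [spinSector, Module.End.mem_eigenspace_iff, Matrix.toEuclideanLin_apply, casimir_t]
      rfl)
    (fun M => by
      rw [EuclideanSpace.inner_toLp_toLp, dotProduct_comm]
      exact norm_t hQ M M.2)
    (fun M M' hne => by
      rw [EuclideanSpace.inner_toLp_toLp]
      refine Finset.sum_eq_zero fun p _ => ?_
      have : (M : ℕ) ≠ M' := fun h => hne (Fin.ext h)
      simp only [Pi.star_apply, vec, fM]
      split_ifs <;> first | omega | simp) φ
  refine le_trans (le_of_eq ?_) this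
  rw [Finset.sum_range]
  refine Finset.sum_congr rfl fun M _ => ?_
  congr 1
  rw [← Complex.normSq_eq_norm_sq, Complex.normSq_apply, PiLp.inner_apply]
  simp only [vec_fM, RCLike.inner_apply, Complex.conj_ofReal, Complex.re_sum, Complex.im_sum,
    Fintype.sum_prod_type, Complex.mul_re, Complex.mul_im, Complex.ofReal_re, Complex.ofReal_im,
    mul_zero, sub_zero, zero_add, mul_comm (tau Q M _ _), _root_.sq]

theorem pair_perm {n Q : ℕ} (ψ : EuclideanSpace ℂ (Fin (n + 2) → Fin (Q + 1)))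
    (hψ : IsFermionic ψ) {i j : Fin (n + 2)} (hij : i ≠ j) :
    inner ℂ ψ (pairProj i j ψ) = inner ℂ ψ (pairProj 0 1 ψ) := by
  obtain ⟨s, s0, s1⟩ := Ker.exists_perm hij
  simp only [PiLp.inner_apply, RCLike.inner_apply, pairProj]
  symm
  rw [← (Equiv.arrowCongr s.symm (Equiv.refl (Fin (Q + 1)))).sum_comp]
  refine Finset.sum_congr rfl fun a _ => ?_
  have e : (Equiv.arrowCongr s.symm (Equiv.refl (Fin (Q + 1)))) a = a ∘ s := by
    funext i; simp
  have e2 : (WithLp.toLp 2 fun bc : Fin (Q + 1) × Fin (Q + 1) =>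
      ψ (Function.update (Function.update (a ∘ s) 0 bc.1) 1 bc.2)) =
      ((Equiv.Perm.sign s : ℤ) : ℂ) • (WithLp.toLp 2 fun bc : Fin (Q + 1) × Fin (Q + 1) =>
        ψ (Function.update (Function.update a i bc.1) j bc.2)) := by
    ext bc
    simp only [PiLp.smul_apply, smul_eq_mul]
    rw [← hψ, Function.update_comp_equiv, Function.update_comp_equiv, ← s0, ← s1,
      Equiv.symm_apply_apply, Equiv.symm_apply_apply]
  rw [e, e2, map_smul, hψ, PiLp.smul_apply, Function.comp_apply, Function.comp_apply, s0, s1]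
  rcases Int.units_eq_one_or (Equiv.Perm.sign s) with h | h <;> simp [h]

theorem pair_zero_one {n Q : ℕ} (ψ : EuclideanSpace ℂ (Fin (n + 2) → Fin (Q + 1))) :
    inner ℂ ψ (pairProj 0 1 ψ) = ∑ r : Fin n → Fin (Q + 1),
      inner ℂ (WithLp.toLp 2 fun bc : Fin (Q + 1) × Fin (Q + 1) =>
          ψ (Fin.cons bc.1 (Fin.cons bc.2 r)))
        ((spinSector Q).starProjection (WithLp.toLp 2 fun bc : Fin (Q + 1) × Fin (Q + 1) =>
          ψ (Fin.cons bc.1 (Fin.cons bc.2 r)))) := by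
  simp only [PiLp.inner_apply, RCLike.inner_apply, pairProj, Fintype.sum_prod_type]
  rw [Ker.sumCons]
  simp only [Ker.sumCons (n := n)]
  symm
  rw [Finset.sum_comm]
  refine Finset.sum_congr rfl fun a _ => ?_
  rw [Finset.sum_comm]
  refine Finset.sum_congr rfl fun b _ => Finset.sum_congr rfl fun r _ => ?_
  have e : ∀ x y : Fin (Q + 1), Function.update (Function.update
      (Fin.cons a (Fin.cons b r) : Fin (n + 2) → Fin (Q + 1)) 0 x) 1 y =
      Fin.cons x (Fin.cons y r) := by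
    intro x y
    rw [Fin.update_cons_zero, ← Fin.succ_zero_eq_one, ← Fin.cons_update, Fin.update_cons_zero]
  simp only [e, Fin.cons_zero, Fin.cons_one]

theorem pair_count (n : ℕ) (c : ℝ) :
    ∑ i : Fin (n + 2), ∑ j : Fin (n + 2) with i < j, c = ((n : ℝ) + 2) * ((n : ℝ) + 1) / 2 * c := by
  simp only [Finset.sum_const, nsmul_eq_mul, ← Finset.sum_mul, Finset.filter_lt_eq_Ioi,
    Fin.card_Ioi]
  congr 1
  rw [← Nat.cast_sum, Fin.sum_univ_eq_sum_range (fun i => n + 2 - 1 - i),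
    Finset.sum_range_reflect (fun i => i), eq_div_iff two_ne_zero]
  exact_mod_cast Finset.sum_range_id_mul_two (n + 2)

end Red

open Red in
/-- TASK T1. The Hamiltonian dominates the explicit pair energy. -/
theorem energy_le (Q n : ℕ) (hQ : 1 ≤ Q) (ψ : EuclideanSpace ℂ (Fin (n + 2) → Fin (Q + 1)))
    (hψ : IsFermionic ψ) :
    ((n : ℝ) + 2) * ((n : ℝ) + 1) *
        (energy Q n (fun a => (ψ a).re) + energy Q n (fun a => (ψ a).im)) ≤
      (inner ℂ ψ (hamiltonian ψ)).re := by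
  have e1 : (inner ℂ ψ (hamiltonian ψ)).re =
      ((n : ℝ) + 2) * ((n : ℝ) + 1) / 2 * (inner ℂ ψ (pairProj 0 1 ψ)).re := by
    rw [← pair_count, hamiltonian, inner_sum, Complex.re_sum]
    refine Finset.sum_congr rfl fun i _ => ?_
    rw [inner_sum, Complex.re_sum]
    refine Finset.sum_congr rfl fun j hj => ?_
    rw [pair_perm ψ hψ (Finset.mem_filter.mp hj).2.ne]
  rw [e1, div_mul_eq_mul_div, mul_div_assoc]
  refine mul_le_mul_of_nonneg_left ?_ (by positivity)
  rw [pair_zero_one, Complex.re_sum, Finset.sum_div, energy, energy, ← Finset.sum_add_distrib]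
  simp only [← Finset.sum_add_distrib]
  rw [Finset.sum_comm]
  refine Finset.sum_le_sum fun r _ => ?_
  refine le_trans (le_of_eq ?_) (div_le_div_of_nonneg_right (pair_bound hQ _) zero_le_two)
  rw [Finset.sum_div]
  refine Finset.sum_congr rfl fun M _ => ?_
  simp only [amp]
  ring

end Vale.Agent.P359
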